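import Crest.Agent.R175.B.SL

/-! # Row 175 / S0264: block A3, additivity of the inner product (route: `notes175/S0264.md`) -/

set_option autoImplicit false

namespace Crest.Agent.R175B
open Filter Topology

variable {Γ X : Type*} [Group Γ] [MetricSpace X] [MulAction Γ X] [IsIsometricSMul Γ X]

/-- `q_n(h) = d(x, h zⁿ x)² - d(x, zⁿ x)²`. -/
noncomputable def qq (x : X) (z : Γ) (n : ℕ) (h : Γ) : ℝ :=
  dist x ((h * z ^ n) • x) ^ 2 - dist x (z ^ n • x) ^ 2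

/-- A3a. With `u = zⁿ x`, `u' = h' u`, `x' = h⁻¹ x` the left side is
`d(x',u')² + d(x,u)² - d(x',u)² - d(x,u')²`; apply `CN.quad` twice (diagonals `x'u', xu` and `x'u, xu'`);
`d(x,x') = d(x,hx)`, `d(u,u') = d(x,h'x)`. -/
theorem qq_add (hX : CN X) (x : X) (z : Γ) (n : ℕ) (h : Γ) {h' : Γ} (hc' : Commute h' z) :
    |qq x z n (h * h') - qq x z n h - qq x z n h'| ≤ dist x (h • x) ^ 2 + dist x (h' • x) ^ 2 := by
  have e1 : dist x ((h * h' * z ^ n) • x) = dist (h⁻¹ • x) (h' • z ^ n • x) := by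
    rw [← dist_smul h (h⁻¹ • x), smul_inv_smul, mul_smul, mul_smul]
  have e2 : dist x ((h * z ^ n) • x) = dist (h⁻¹ • x) (z ^ n • x) := by
    rw [← dist_smul h (h⁻¹ • x), smul_inv_smul, mul_smul]
  have e3 : dist (h⁻¹ • x) x = dist x (h • x) := by rw [← dist_smul h, smul_inv_smul]
  have e4 : dist (z ^ n • x) (h' • z ^ n • x) = dist x (h' • x) := by
    rw [← mul_smul, (hc'.pow_right n).eq, mul_smul, dist_smul]
  have q1 := hX.quad (h⁻¹ • x) x (h' • z ^ n • x) (z ^ n • x)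
  have q2 := hX.quad (h⁻¹ • x) x (z ^ n • x) (h' • z ^ n • x)
  rw [dist_comm (h' • z ^ n • x) (z ^ n • x), dist_comm (z ^ n • x) (h⁻¹ • x), e3, e4] at q1
  rw [dist_comm (h' • z ^ n • x) (h⁻¹ • x), e3, e4] at q2
  unfold qq
  rw [e1, e2, mul_smul h', abs_le]
  constructor <;> linarith

theorem add_dist_pow (x : X) (h : Γ) (m : ℕ) : dist x (h ^ m • x) ≤ m * dist x (h • x) := by
  induction m with
  | zero => simp
  | succ m ih =>
    have := dist_triangle x (h ^ m • x) (h ^ m • h • x)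
    rw [dist_smul] at this
    rw [pow_succ, mul_smul]
    push_cast
    linarith

/-- A3b. Induction on `k` with `qq_add` for `h ^ 2 ^ k` twice and `d(x, hᵐ x) ≤ m d(x, h x)`. -/
theorem qq_pow (hX : CN X) (x : X) (z : Γ) (n : ℕ) {h : Γ} (hc : Commute h z) (k : ℕ) :
    |qq x z n (h ^ 2 ^ k) - 2 ^ k * qq x z n h| ≤ 4 ^ k * dist x (h • x) ^ 2 := by
  induction k with
  | zero => simp
  | succ k ih =>
    have h1 := qq_add hX x z n (h ^ 2 ^ k) (hc.pow_left (2 ^ k))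
    have h2 : dist x (h ^ 2 ^ k • x) ^ 2 ≤ 4 ^ k * dist x (h • x) ^ 2 := by
      have := pow_le_pow_left₀ dist_nonneg (add_dist_pow x h (2 ^ k)) 2
      rwa [mul_pow, Nat.cast_pow, ← pow_mul, mul_comm k 2, pow_mul, show ((2 : ℕ) : ℝ) ^ 2 = 4 by norm_num] at this
    rw [← pow_add, ← two_mul, ← pow_succ'] at h1
    rw [abs_le] at h1 ih ⊢
    rw [pow_succ (2 : ℝ), pow_succ (4 : ℝ)]
    constructor <;> linarith [h1.1, h1.2, ih.1, ih.2]

theorem add_tendsto (hX : CN X) (x : X) {z h : Γ} (hc : Commute h z) (t : ℕ) :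
    Tendsto (fun k : ℕ => qq x z (t * 2 ^ k) (h ^ 2 ^ k) / 4 ^ k) atTop (𝓝 (sl x h ^ 2 + 2 * t * ip (sl x) h z)) := by
  have h0 : Tendsto (fun k : ℕ => 2 ^ k) atTop atTop := tendsto_pow_atTop_atTop_of_one_lt one_lt_two
  have h1 := (((sl_tendsto x (h * z ^ t)).comp h0).pow 2).sub (((sl_tendsto x (z ^ t)).comp h0).pow 2)
  have h2 : sl x (z ^ t) = t * sl x z := by simpa using sl_zpow x z t
  rw [sl_quadr hX x hc, h2, mul_pow, add_sub_cancel_right] at h1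
  refine h1.congr fun k => ?_
  simp only [Function.comp, qq]
  rw [(hc.pow_right t).mul_pow, ← pow_mul, div_pow, div_pow, ← sub_div, Nat.cast_pow, ← pow_mul, mul_comm k 2, pow_mul _ 2 k]
  norm_num

/-- A3c. Fix `t`, put `m = 2 ^ k`, `n = t m`.  `qq n (hᵐ) / m² → sl(h zᵗ)² - t² sl(z)² = sl(h)² + 2 t ip h z`
(`hᵐ z^{tm} = (h zᵗ)ᵐ`, `sl_tendsto`, `sl_zpow`, `sl_quadr`), `|qq n (hᵐ)/m² - qq n h / m| ≤ C_h²`, and
`|qq n (hh') - qq n h - qq n h'| / m → 0`.  Hence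
`|sl(hh')² - sl(h)² - sl(h')² + 2 t (ip (hh') - ip h - ip h')| ≤ C_{hh'}² + C_h² + C_{h'}²` for all `t`. -/
theorem sl_add (hX : CN X) (x : X) {z h h' : Γ} (hc : Commute h z) (hc' : Commute h' z) :
    ip (sl x) (h * h') z = ip (sl x) h z + ip (sl x) h' z := by
  obtain ⟨C, hC⟩ : ∃ C : ℝ, ∀ t : ℕ,
      t * |ip (sl x) (h * h') z - (ip (sl x) h z + ip (sl x) h' z)| ≤ C := by
    refine ⟨dist x ((h * h') • x) ^ 2 + 2 * dist x (h • x) ^ 2 + 2 * dist x (h' • x) ^ 2 +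
      |sl x (h * h') ^ 2 - sl x h ^ 2 - sl x h' ^ 2|, fun t => ?_⟩
    have h1 := (((add_tendsto hX x (hc.mul_left hc') t).sub (add_tendsto hX x hc t)).sub (add_tendsto hX x hc' t)).abs
    have h2 := le_of_tendsto' h1 (b := dist x ((h * h') • x) ^ 2 + 2 * dist x (h • x) ^ 2 + 2 * dist x (h' • x) ^ 2) fun k => by
      have a1 := abs_le.1 (qq_pow hX x z (t * 2 ^ k) (hc.mul_left hc') k)
      have a2 := abs_le.1 (qq_pow hX x z (t * 2 ^ k) hc k)
      have a3 := abs_le.1 (qq_pow hX x z (t * 2 ^ k) hc' k)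
      have a4 := mul_le_mul (pow_le_pow_left₀ (by norm_num) (by norm_num : (2 : ℝ) ≤ 4) k) (qq_add hX x z (t * 2 ^ k) h hc')
        (abs_nonneg _) (by positivity)
      rw [← abs_of_pos (show (0 : ℝ) < 2 ^ k by positivity), ← abs_mul, abs_le] at a4
      rw [← sub_div, ← sub_div, abs_div, abs_of_pos (show (0 : ℝ) < 4 ^ k by positivity), div_le_iff₀ (by positivity), abs_le]
      constructor <;> linarith [a1.1, a1.2, a2.1, a2.2, a3.1, a3.2, a4.1, a4.2]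
    have h3 := abs_le.1 h2
    have h4 := le_abs_self (sl x (h * h') ^ 2 - sl x h ^ 2 - sl x h' ^ 2)
    have h5 := neg_abs_le (sl x (h * h') ^ 2 - sl x h ^ 2 - sl x h' ^ 2)
    have h6 : 0 ≤ dist x ((h * h') • x) ^ 2 + 2 * dist x (h • x) ^ 2 + 2 * dist x (h' • x) ^ 2 := by positivity
    rw [← abs_of_nonneg (Nat.cast_nonneg (α := ℝ) t), ← abs_mul, abs_le]
    constructor <;> linarith [h3.1, h3.2]
  by_contra hne
  have h0 := abs_pos.2 (sub_ne_zero.2 hne)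
  obtain ⟨t, ht⟩ := exists_nat_gt (C / |ip (sl x) (h * h') z - (ip (sl x) h z + ip (sl x) h' z)|)
  exact (hC t).not_gt ((div_lt_iff₀ h0).1 ht)

theorem isSL (hX : CN X) (x : X) : IsSL (sl (Γ := Γ) x) :=
  ⟨sl_nonneg x, sl_conj x, sl_zpow x, fun _ _ _ hc hc' => sl_add hX x hc hc'⟩

end Crest.Agent.R175B
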