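import Crest.Agent.R175.B.Braid3

/-! # Row 175 / S0264: block G1, transvections (route: `notes175/S0264.md`) -/

set_option autoImplicit false

namespace Crest.Agent.R175B
open Crest.GroupTheory

section
variable {V : Type} [AddCommGroup V]

/-- transvection -/
def trT (φ : V →+ ℤ) (e : V) (h : φ e = 0) : Equiv.Perm V where
  toFun v := v + φ v • e
  invFun v := v - φ v • e
  left_inv v := by simp [h]
  right_inv v := by simp [h]

theorem trT_apply (φ : V →+ ℤ) (e : V) (h : φ e = 0) (v : V) : trT φ e h v = v + φ v • e := rfl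

theorem trT_comm {φ ψ : V →+ ℤ} {e f : V} (h : φ e = 0) (h' : ψ f = 0) (h1 : φ f = 0) (h2 : ψ e = 0) :
    Commute (trT φ e h) (trT ψ f h') := by
  ext v
  simp only [Equiv.Perm.mul_apply, trT_apply, map_add, map_zsmul, h1, h2]
  module

theorem trT_br {φ ψ : V →+ ℤ} {e f : V} (h : φ e = 0) (h' : ψ f = 0) {c : ℤ} (h1 : φ f = c) (h2 : ψ e = -c)
    (hc : c * c = 1) : Br (trT φ e h) (trT ψ f h') := by
  ext v
  simp only [Equiv.Perm.mul_apply, trT_apply, map_add, map_zsmul, h, h', h1, h2, smul_eq_mul]
  match_scalars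
  · ring
  · linear_combination (-φ v) * hc
  · linear_combination (ψ v) * hc
end

theorem tr_form {S : Type} [Fintype S] (M : CoxeterMatrix S) : ∃ ω : S → S → ℤ, (∀ r, ω r r = 0) ∧
    (∀ a b, M.M a b = 2 → ω a b = 0) ∧ ∀ a b, M.M a b = 3 → ω b a = -ω a b ∧ ω a b * ω a b = 1 := by
  let n := Fintype.equivFin S
  refine ⟨fun a b => if M.M a b = 3 then (if n a < n b then 1 else -1) else 0, fun r => by simp [M.diagonal],
    fun a b h => by simp [h], fun a b h => ?_⟩
  have hne : n a ≠ n b := fun e => by
    rw [n.injective e, M.diagonal] at h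
    omega
  have h' : M.M b a = 3 := M.symmetric a b ▸ h
  simp only [h, h', if_true]
  rcases lt_or_gt_of_ne hne with e | e <;> simp [e, e.not_gt]

/-- G1a. Choose a skew integer form `ω` on `S` with `ω s' t' = ±1` for label `3`, `0` for the other labels, and
`ω s t = 1` (linear order on `S`, or a sign chosen through `Classical`).  The transvections
`T_r v = v + (∑ / Finsupp.sum ω(r, v)) e_r` of `S →₀ ℤ` (or `S → ℤ`) commute for `ω = 0` and braid for `ω = ±1`, so
`aLift` gives `τ : A →* (V ≃ₗ V)`.  The injective map `j : (Fin 2 → ℤ) → V`, `j v = v 0 • e_s ± v 1 • e_t` intertwines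
`τ (bLift β)` with `pi0 β` (check on `s1`, `s2`; the set of such `β` is a subgroup, `b3_closure`). -/
theorem pi0_eq_one_of_bLift {S : Type} [Fintype S] [DecidableEq S] {M : CoxeterMatrix S} (hM : Lab023 M)
    {s t : S} (hst : M.M s t = 3) {β : B3}
    (h : bLift (artinGen M s) (artinGen M t) (gen_br hst) β = 1) : pi0 β = 1 := by
  obtain ⟨ω, h0, h2, h3⟩ := tr_form M
  let φ : S → (S → ℤ) →+ ℤ := fun r => AddMonoidHom.mk' (fun v => ∑ x, ω r x * v x) fun v w => by
    simp [mul_add, Finset.sum_add_distrib]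
  have hφ : ∀ r x, φ r (Pi.single x 1) = ω r x := fun r x => by simp [φ, Pi.single_apply]
  let T : S → Equiv.Perm (S → ℤ) := fun r => trT (φ r) (Pi.single r 1) ((hφ r r).trans (h0 r))
  let τ : ArtinGroup M →* Equiv.Perm (S → ℤ) := aLift hM T
    (fun a b hab => trT_comm _ _ ((hφ a b).trans (h2 a b hab)) ((hφ b a).trans (h2 b a (M.symmetric a b ▸ hab))))
    fun a b hab => trT_br _ _ (hφ a b) ((hφ b a).trans (h3 a b hab).1) (h3 a b hab).2
  have hne : s ≠ t := by
    rintro rfl
    rw [M.diagonal] at hst
    omega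
  obtain ⟨c1, c2⟩ := h3 s t hst
  let j : (Fin 2 → ℤ) → S → ℤ := fun v => v 0 • Pi.single s 1 + (ω s t * v 1) • Pi.single t 1
  have key : ∀ β : B3, ∀ v, τ (bLift (artinGen M s) (artinGen M t) (gen_br hst) β) (j v) = j ((pi0 β).1.mulVec v) := by
    intro β
    have hβ : β ∈ Subgroup.closure ({s1, s2} : Set B3) := b3_closure ▸ Subgroup.mem_top β
    induction hβ using Subgroup.closure_induction with
    | mem x hx =>
      intro v
      rcases hx with rfl | rfl
      · simp only [bLift_s1, τ, aLift_gen, T, trT_apply, j, map_add, map_zsmul, hφ, h0, pi0_s1, matU, smul_eq_mul]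
        simp only [Matrix.mulVec, dotProduct, Fin.sum_univ_two, Matrix.of_apply, Matrix.cons_val', Matrix.cons_val_zero,
          Matrix.cons_val_one, Matrix.cons_val_fin_one]
        rw [show v 0 * 0 + ω s t * v 1 * ω s t = v 1 by linear_combination v 1 * c2]
        module
      · simp only [bLift_s2, τ, aLift_gen, T, trT_apply, j, map_add, map_zsmul, hφ, h0, c1, pi0_s2, matV, smul_eq_mul]
        simp only [Matrix.mulVec, dotProduct, Fin.sum_univ_two, Matrix.of_apply, Matrix.cons_val', Matrix.cons_val_zero,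
          Matrix.cons_val_one, Matrix.cons_val_fin_one]
        module
    | one => intro v; simp
    | mul x y _ _ hx hy =>
      intro v
      rw [map_mul, map_mul, Equiv.Perm.mul_apply, hy, hx, map_mul, Matrix.mulVec_mulVec, Matrix.SpecialLinearGroup.coe_mul]
    | inv x _ hx =>
      intro v
      rw [map_inv, map_inv, Equiv.Perm.inv_eq_iff_eq, hx, Matrix.mulVec_mulVec, ← Matrix.SpecialLinearGroup.coe_mul,
        ← map_mul, mul_inv_cancel, map_one, Matrix.SpecialLinearGroup.coe_one, Matrix.one_mulVec]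
  have hj : Function.Injective j := fun v w e => by
    have e0 := congrFun e s
    have e1 := congrFun e t
    simp only [j, Pi.add_apply, Pi.smul_apply, Pi.single_eq_same, Pi.single_eq_of_ne hne, Pi.single_eq_of_ne hne.symm,
      smul_eq_mul, mul_one, mul_zero, add_zero, zero_add] at e0 e1
    funext i
    fin_cases i
    · exact e0
    · show v 1 = w 1
      linear_combination ω s t * e1 - (v 1 - w 1) * c2
  ext i k
  have := key β (Pi.single k 1)
  rw [h, map_one, Equiv.Perm.one_apply] at this
  have := congrFun (hj this) i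
  rw [Matrix.mulVec_single_one] at this
  rw [Matrix.SpecialLinearGroup.coe_one, Matrix.one_apply, ← Pi.single_apply, this]
  rfl

/-- G1b. `β ∈ ⟨zz⟩` by G1a, G2a; the exponent sum `expo` kills the power. -/
theorem bLift_injective {S : Type} [Fintype S] [DecidableEq S] {M : CoxeterMatrix S} (hM : Lab023 M)
    {s t : S} (hst : M.M s t = 3) :
    Function.Injective (bLift (artinGen M s) (artinGen M t) (gen_br hst)) := by
  refine (injective_iff_map_eq_one _).2 fun β h => ?_
  obtain ⟨k, rfl⟩ := mem_zpowers_of_pi0 (Or.inl (pi0_eq_one_of_bLift hM hst h))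
  have := congrArg (fun g => Multiplicative.toAdd (expo hM g)) h
  simp only [map_zpow, bLift_zz, map_pow, map_mul, expo_gen, map_one, toAdd_zpow, toAdd_pow, toAdd_mul, toAdd_ofAdd,
    toAdd_one, smul_eq_mul, nsmul_eq_mul] at this
  have hk : k = 0 := by omega
  simp [hk]

end Crest.Agent.R175B
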