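import Crest.Agent.R175.B.Mat
import Crest.Agent.R175.B.Trans

/-! # Row 175 / S0264: block G6, amalgams and the map γ (route: `notes175/S0264.md`) -/

set_option autoImplicit false

namespace Crest.Agent.R175B
open Crest.GroupTheory

/-- G6a. HNN extension of `G × A` along the ranges of `β ↦ (φ β, 1)` and `β ↦ (1, p β)`
(`HNNExtension`, `MonoidHom.ofInjective`, `HNNExtension.of_injective`); `ι g = of (g, 1)`,
`κ a = t⁻¹ * of (1, a) * t` (or with `t` on the other side). -/
theorem amalgam {G A B : Type} [Group G] [Group A] [Group B] (φ : B →* G) (p : B →* A)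
    (hφ : Function.Injective φ) (hp : Function.Injective p) :
    ∃ (Q : Type) (_ : Group Q) (ι : G →* Q) (κ : A →* Q),
      Function.Injective ι ∧ ∀ β, ι (φ β) = κ (p β) := by
  let φ' : B →* G × A := (MonoidHom.inl G A).comp φ
  let p' : B →* G × A := (MonoidHom.inr G A).comp p
  have h1 : Function.Injective φ' := fun a b h => hφ (congrArg Prod.fst h)
  have h2 : Function.Injective p' := fun a b h => hp (congrArg Prod.snd h)
  let e : φ'.range ≃* p'.range := (MonoidHom.ofInjective h1).symm.trans (MonoidHom.ofInjective h2)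
  let Q := HNNExtension (G × A) φ'.range p'.range e
  let t : Q := HNNExtension.t
  let o : G × A →* Q := HNNExtension.of
  refine ⟨Q, inferInstance, o.comp (MonoidHom.inl G A),
    (MulAut.conj t⁻¹).toMonoidHom.comp (o.comp (MonoidHom.inr G A)), ?_, fun β => ?_⟩
  · intro a b h
    exact congrArg Prod.fst (HNNExtension.of_injective (φ := e) h)
  · have h := HNNExtension.t_mul_of (φ := e) (MonoidHom.ofInjective h1 β)
    have he : e (MonoidHom.ofInjective h1 β) = MonoidHom.ofInjective h2 β := by simp [e]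
    rw [he] at h
    have h' : t * o (φ' β) = o (p' β) * t := h
    show o (φ' β) = t⁻¹ * o (p' β) * t⁻¹⁻¹
    rw [inv_inv, mul_assoc, ← h', inv_mul_cancel_left]

/-- G6b. `f s = 1` for `isGad s`, `f (ia i) = κ i (ga i)`, `f (inl (e,k)) = κ e (σ (inl (e,k)))` for `1 ≤ k ≤ 7`; then
`f (ch e k) = κ e (σ (ch e k))` for all `k`, and the relations follow from `MM_class`, `gen_comm`, `gen_br`, `Br.map`. -/
theorem exists_theta {Q : Type} [Group Q] (κ : Fin 3 → (AA →* Q))
    (hκ : ∀ e, κ e (ga (e + 1)) = κ (e + 1) (ga (e + 1))) :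
    ∃ Θ : AA →* Q, ∀ e, Θ (ga e) = κ e (ga e) := by
  let f : Idx → Q := fun s => match s with
    | .inl (e, k) => if 8 ≤ k.val then 1 else κ e (artinGen MM (.inl (e, k)))
    | .inr _ => 1
  have hg : ∀ s, isGad s = true → f s = 1 := by
    rintro (⟨e, k⟩ | s) h
    · have : 8 ≤ k.val := by simpa [isGad] using h
      simp [f, this]
    · rfl
  have ha : ∀ e, f (ia e) = κ e (ga e) := fun e => by simp [f, ia, ga]
  have hc : ∀ e k, f (ch e k) = κ e (artinGen MM (ch e k)) := by
    intro e k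
    unfold ch
    split_ifs with h0 h1
    · exact ha e
    · rw [ha]; exact (hκ e).symm
    · have : ¬ 8 ≤ k.val - 1 := by omega
      simp [f, this]
  refine ⟨aLift lab_MM f (fun s t h => ?_) (fun s t h => ?_), fun e => ?_⟩
  · have hst : s ≠ t := by rintro rfl; simp [MM_apply] at h
    rcases MM_class s t hst (by omega) with ⟨e, k, l, rfl, rfl⟩ | ⟨-, h' | h'⟩
    · rw [hc, hc]; exact (gen_comm h).map _
    · rw [hg s h']; exact Commute.one_left _
    · rw [hg t h']; exact Commute.one_right _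
  · have hst : s ≠ t := by rintro rfl; simp [MM_apply] at h
    rcases MM_class s t hst (by omega) with ⟨e, k, l, rfl, rfl⟩ | ⟨h', -⟩
    · rw [hc, hc]; exact (gen_br h).map _
    · omega
  · rw [ga, aLift_gen]; exact ha e

/-- G6c. Three amalgams (`φ_e = bLift (y e) (y (e+1))` pushed into the previous group, `p_e = bLift (ga e) (ga (e+1))`,
injective by `bLift_injective lab_MM (MM_ia e)`), `exists_theta`, and `γ = ι⁻¹ ∘ Θ` on the closure
(`Θ` maps it into `ι.range`; `MonoidHom.ofInjective`). -/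
theorem exists_gamma {G : Type} [Group G] (y : Fin 3 → G) (hbr : ∀ i, Br (y i) (y (i + 1)))
    (hinj : ∀ i, Function.Injective (bLift (y i) (y (i + 1)) (hbr i))) :
    ∃ γ : Subgroup.closure (Set.range ga) →* G,
      ∀ i, γ ⟨ga i, Subgroup.subset_closure ⟨i, rfl⟩⟩ = y i := by
  have hp : ∀ e, Function.Injective (bLift (ga e) (ga (e + 1)) (ga_br e)) := fun e =>
    bLift_injective lab_MM (MM_ia e)
  obtain ⟨Q1, _, ι1, κ0, i1, r0⟩ := amalgam _ _ (hinj 0) (hp 0)
  obtain ⟨Q2, _, ι2, κ1, i2, r1⟩ :=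
    amalgam (ι1.comp (bLift _ _ (hbr 1))) _ (i1.comp (hinj 1)) (hp 1)
  obtain ⟨Q3, _, ι3, κ2, i3, r2⟩ :=
    amalgam ((ι2.comp ι1).comp (bLift _ _ (hbr 2))) _ ((i2.comp i1).comp (hinj 2)) (hp 2)
  let ι : G →* Q3 := ι3.comp (ι2.comp ι1)
  have hι : Function.Injective ι := i3.comp (i2.comp i1)
  let κ : Fin 3 → (AA →* Q3) := ![ι3.comp (ι2.comp κ0), ι3.comp κ1, κ2]
  have hr : ∀ e β, ι (bLift _ _ (hbr e) β) = κ e (bLift (ga e) (ga (e + 1)) (ga_br e) β) := by
    intro e β
    fin_cases e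
    · exact congrArg (fun x => ι3 (ι2 x)) (r0 β)
    · exact congrArg ι3 (r1 β)
    · exact r2 β
  have h1 : ∀ e, κ e (ga e) = ι (y e) := fun e => by simpa using (hr e s1).symm
  have h2 : ∀ e, κ e (ga (e + 1)) = ι (y (e + 1)) := fun e => by simpa using (hr e s2).symm
  obtain ⟨Θ, hΘ⟩ := exists_theta κ fun e => by rw [h1, h2]
  have hm : ∀ x : Subgroup.closure (Set.range ga), Θ x ∈ ι.range := by
    rintro ⟨x, hx⟩
    have : Subgroup.closure (Set.range ga) ≤ ι.range.comap Θ := by
      rw [Subgroup.closure_le]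
      rintro _ ⟨i, rfl⟩
      exact ⟨y i, by rw [hΘ, h1]⟩
    exact this hx
  refine ⟨(MonoidHom.ofInjective hι).symm.toMonoidHom.comp
    ((Θ.comp (Subgroup.subtype _)).codRestrict ι.range hm), fun i => ?_⟩
  show (MonoidHom.ofInjective hι).symm ⟨Θ (ga i), _⟩ = y i
  rw [MulEquiv.symm_apply_eq]
  exact Subtype.ext (by rw [MonoidHom.ofInjective_apply]; exact (hΘ i).trans (h1 i))

end Crest.Agent.R175B
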