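import Crest.Agent.R175.B.Defs

/-! # Row 175 / S0264: block G2, the braid group B3 and SL(2,Z) (route: `notes175/S0264.md`) -/

set_option autoImplicit false

namespace Crest.Agent.R175B

/-- positive words in `L = s1`, `R = s2⁻¹` -/
inductive G2aPos : B3 → Prop
  | one : G2aPos 1
  | L {W : B3} : G2aPos W → G2aPos (s1 * W)
  | R {W : B3} : G2aPos W → G2aPos (s2⁻¹ * W)

theorem g2a_central (β : B3) : Commute β zz := by
  have h : β ∈ Subgroup.closure ({s1, s2} : Set B3) := by rw [b3_closure]; trivial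
  induction h using Subgroup.closure_induction with
  | mem x hx =>
    rcases hx with rfl | rfl
    · exact br12.comm_left
    · exact br12.comm_right
  | one => exact Commute.one_left _
  | mul x y _ _ hx hy => exact hx.mul_left hy
  | inv x _ hx => exact hx.inv_left

instance g2a_normal : (Subgroup.zpowers zz).Normal :=
  ⟨fun n hn g => by
    obtain ⟨k, rfl⟩ := Subgroup.mem_zpowers_iff.1 hn
    rw [((g2a_central g).zpow_right k).eq, mul_inv_cancel_right]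
    exact hn⟩

/-- projection to `B₃ / ⟨zz⟩` -/
abbrev g2aMk : B3 →* B3 ⧸ Subgroup.zpowers zz := QuotientGroup.mk' _
/-- the half twist -/
def g2aD : B3 := s1 * s2 * s1
/-- the cube root of the full twist -/
def g2aY : B3 := s1 * s2

theorem g2a_DD : g2aD * g2aD = zz := by
  have h : s1 * s2 * s1 = s2 * s1 * s2 := br12
  calc g2aD * g2aD = (s1 * s2 * s1) * (s2 * s1 * s2) := by rw [← h]; rfl
    _ = zz := by simp only [zz, pow_succ, pow_zero]; group

theorem g2a_mk_zz : g2aMk zz = 1 := (QuotientGroup.eq_one_iff _).2 (Subgroup.mem_zpowers _)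

theorem g2a_dd : g2aMk g2aD * g2aMk g2aD = 1 := by rw [← map_mul, g2a_DD, g2a_mk_zz]

theorem g2a_yyy : g2aMk g2aY * (g2aMk g2aY * g2aMk g2aY) = 1 := by
  have h : g2aY * (g2aY * g2aY) = zz := by
    simp only [zz, g2aY, pow_succ, pow_zero]
    group
  rw [← map_mul, ← map_mul, h, g2a_mk_zz]

theorem g2a_L : g2aMk s1 = g2aMk g2aY * (g2aMk g2aY * g2aMk g2aD) := by
  have h : g2aMk g2aD = g2aMk g2aY * g2aMk s1 := by rw [← map_mul]; rfl
  rw [h, ← mul_assoc (g2aMk g2aY) (g2aMk g2aY) (g2aMk s1), ← mul_assoc, g2a_yyy, one_mul]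

theorem g2a_R : g2aMk s2⁻¹ = g2aMk g2aY * g2aMk g2aD := by
  have h : g2aY * g2aD * s2 = zz := by
    simp only [zz, g2aY, g2aD, pow_succ, pow_zero]
    group
  rw [map_inv, inv_eq_iff_mul_eq_one, mul_eq_one_comm, ← map_mul, ← map_mul, h, g2a_mk_zz]

/-- normal form modulo the centre -/
def G2aNF (q : B3 ⧸ Subgroup.zpowers zz) : Prop :=
  ∃ W, G2aPos W ∧ (q = g2aMk W ∨ q = g2aMk W * g2aMk g2aD ∨ q = g2aMk g2aD * g2aMk W ∨
    q = g2aMk g2aD * (g2aMk W * g2aMk g2aD))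

theorem G2aNF.d {q : B3 ⧸ Subgroup.zpowers zz} (h : G2aNF q) : G2aNF (g2aMk g2aD * q) := by
  obtain ⟨W, hW, rfl | rfl | rfl | rfl⟩ := h
  · exact ⟨W, hW, .inr (.inr (.inl rfl))⟩
  · exact ⟨W, hW, .inr (.inr (.inr rfl))⟩
  · exact ⟨W, hW, .inl (by rw [← mul_assoc, g2a_dd, one_mul])⟩
  · exact ⟨W, hW, .inr (.inl (by rw [← mul_assoc, g2a_dd, one_mul]))⟩

theorem G2aNF.dr {q : B3 ⧸ Subgroup.zpowers zz} (h : G2aNF q) : G2aNF (q * g2aMk g2aD) := by
  obtain ⟨W, hW, rfl | rfl | rfl | rfl⟩ := h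
  · exact ⟨W, hW, .inr (.inl rfl)⟩
  · exact ⟨W, hW, .inl (by rw [mul_assoc, g2a_dd, mul_one])⟩
  · exact ⟨W, hW, .inr (.inr (.inr (mul_assoc _ _ _)))⟩
  · exact ⟨W, hW, .inr (.inr (.inl (by rw [mul_assoc, mul_assoc, g2a_dd, mul_one])))⟩

theorem g2a_y_pos {W : B3} (hW : G2aPos W) : G2aNF (g2aMk g2aY * g2aMk W) := by
  cases hW with
  | one =>
    refine ⟨_, G2aPos.one.R, .inr (.inl ?_)⟩
    rw [mul_one, map_one, mul_one, g2a_R, mul_assoc, g2a_dd, mul_one]
  | @L V hV =>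
    refine ⟨V, hV, .inr (.inr (.inl ?_))⟩
    rw [map_mul, g2a_L]
    simp only [← mul_assoc]
    rw [mul_assoc (g2aMk g2aY) (g2aMk g2aY) (g2aMk g2aY), g2a_yyy, one_mul]
  | @R V hV =>
    refine ⟨_, hV.L, .inl ?_⟩
    rw [map_mul, map_mul, g2a_L, g2a_R]
    simp only [mul_assoc]

theorem G2aNF.y {q : B3 ⧸ Subgroup.zpowers zz} (h : G2aNF q) : G2aNF (g2aMk g2aY * q) := by
  have key : ∀ {W : B3}, G2aPos W → G2aNF (g2aMk g2aY * (g2aMk g2aD * g2aMk W)) := fun {W} hW =>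
    ⟨_, hW.R, .inl (by rw [map_mul, g2a_R, mul_assoc])⟩
  obtain ⟨W, hW, rfl | rfl | rfl | rfl⟩ := h
  · exact g2a_y_pos hW
  · rw [← mul_assoc]
    exact (g2a_y_pos hW).dr
  · exact key hW
  · rw [← mul_assoc (g2aMk g2aD), ← mul_assoc]
    exact (key hW).dr

theorem g2a_nf (β : B3) : G2aNF (g2aMk β) := by
  have h : β ∈ Subgroup.closure ({s1, s2} : Set B3) := by rw [b3_closure]; trivial
  have h1 : g2aMk s1⁻¹ = g2aMk g2aD * g2aMk g2aY := by
    rw [map_inv, inv_eq_iff_mul_eq_one, mul_eq_one_comm, g2a_L, mul_assoc, ← mul_assoc (g2aMk g2aY) (g2aMk g2aY) (g2aMk g2aD),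
      ← mul_assoc (g2aMk g2aY), g2a_yyy, one_mul, g2a_dd]
  have h2 : g2aMk s2 = g2aMk g2aD * (g2aMk g2aY * g2aMk g2aY) := by
    rw [← inv_inv s2, map_inv, inv_eq_iff_mul_eq_one, g2a_R, mul_assoc, ← mul_assoc (g2aMk g2aD), g2a_dd, one_mul,
      g2a_yyy]
  induction h using Subgroup.closure_induction_left with
  | one => exact ⟨1, .one, .inl rfl⟩
  | mul_left x hx y _ hy =>
    rw [map_mul]
    rcases hx with rfl | rfl
    · rw [g2a_L, mul_assoc, mul_assoc]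
      exact hy.d.y.y
    · rw [h2, mul_assoc, mul_assoc]
      exact hy.y.y.d
  | inv_mul_cancel x hx y _ hy =>
    rw [map_mul]
    rcases hx with rfl | rfl
    · rw [h1, mul_assoc]
      exact hy.y.d
    · rw [g2a_R, mul_assoc]
      exact hy.d.y

theorem g2a_inv {W : B3} (hW : G2aPos W) : 1 ≤ pi0 W 0 0 ∧ 1 ≤ pi0 W 1 1 ∧ 0 ≤ pi0 W 0 1 ∧ 0 ≤ pi0 W 1 0 ∧
    (W = 1 ∨ 1 ≤ pi0 W 0 1 + pi0 W 1 0) := by
  induction hW with
  | one => simp
  | @L V _ ih =>
    obtain ⟨h1, h2, h3, h4, -⟩ := ih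
    simp only [map_mul, pi0_s1, matU, Matrix.SpecialLinearGroup.coe_mul, Matrix.mul_apply, Fin.sum_univ_two]
    simp
    omega
  | @R V _ ih =>
    obtain ⟨h1, h2, h3, h4, -⟩ := ih
    simp only [map_mul, map_inv, pi0_s2, matV, Matrix.SpecialLinearGroup.SL2_inv_expl,
      Matrix.SpecialLinearGroup.coe_mul, Matrix.mul_apply, Fin.sum_univ_two]
    simp
    omega

theorem g2a_pi0_D : (pi0 g2aD).1 = !![0, 1; -1, 0] := by
  ext i j
  fin_cases i <;> fin_cases j <;> simp [g2aD, matU, matV, Matrix.mul_apply, Fin.sum_univ_two]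

theorem g2a_pi0_zz : pi0 zz = -1 := by
  rw [← g2a_DD, map_mul]
  ext i j
  rw [Matrix.SpecialLinearGroup.coe_mul, g2a_pi0_D]
  fin_cases i <;> fin_cases j <;> simp [Matrix.mul_apply, Fin.sum_univ_two]

theorem g2a_pm {β γ : B3} (h : pi0 β = 1 ∨ pi0 β = -1) (e : g2aMk β = g2aMk γ) : pi0 γ = 1 ∨ pi0 γ = -1 := by
  obtain ⟨z, hz, rfl⟩ := (QuotientGroup.mk'_eq_mk' _).1 e
  obtain ⟨k, rfl⟩ := Subgroup.mem_zpowers_iff.1 hz
  rw [map_mul, map_zpow, g2a_pi0_zz]
  have h2 : ((-1 : Matrix.SpecialLinearGroup (Fin 2) ℤ)) ^ k = 1 ∨ ((-1 : Matrix.SpecialLinearGroup (Fin 2) ℤ)) ^ k = -1 := by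
    have h3 : ((-1 : Matrix.SpecialLinearGroup (Fin 2) ℤ)) ^ (2 : ℤ) = 1 := by
      rw [zpow_two]; simp
    rcases Int.even_or_odd' k with ⟨m, rfl | rfl⟩
    · left; rw [zpow_mul, h3, one_zpow]
    · right; rw [zpow_add_one, zpow_mul, h3, one_zpow, one_mul]
  rcases h with h | h <;> rcases h2 with h2 | h2 <;> simp [h, h2]

/-- G2a. Normal form.  Put `Δ = s1 s2 s1` (`Δ² = zz` central, `Δ s1 = s2 Δ`, `Δ s2 = s1 Δ`), `L = s1`, `R = s2⁻¹`.
The set of `zᵏ Δ^ε W Δ^ε'` (`ε, ε' ∈ {0,1}`, `W` in the monoid generated by `L, R`) contains `1` and is closed under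
left multiplication by `s1^{±1}, s2^{±1}` (case on the first letter of `W`; e.g. `s1 Δ = Δ R⁻¹`, `R⁻¹ L = s2 s1 = Δ s2⁻¹ = Δ R`,
`L⁻¹ R = Δ⁻¹ s1`, `R⁻¹ = Δ L Δ⁻¹`, `L⁻¹ = Δ R Δ⁻¹`).  `pi0 L = [[1,1],[0,1]]`, `pi0 R = [[1,0],[1,1]]` have entries `≥ 0` and a
nonempty `W` has entry sum `≥ 3` and diagonal `≥ 1`; `pi0 Δ = [[0,1],[-1,0]]`, `pi0 zz = -1`.  So `pi0 β = ±1` forces
`W = 1`, `ε = ε'`. (Any other proof, e.g. ping-pong, is fine.) -/
theorem mem_zpowers_of_pi0 {β : B3} (h : pi0 β = 1 ∨ pi0 β = -1) : β ∈ Subgroup.zpowers zz := by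
  obtain ⟨W, hW, hq⟩ := g2a_nf β
  obtain ⟨h1, h2, h3, h4, h5⟩ := g2a_inv hW
  have ent : ∀ {A : Matrix.SpecialLinearGroup (Fin 2) ℤ}, (A = 1 ∨ A = -1) → A 0 1 = 0 ∧ A 1 0 = 0 := by
    rintro A (rfl | rfl) <;> simp
  rw [← QuotientGroup.eq_one_iff]
  change g2aMk β = 1
  rcases hq with hq | hq | hq | hq
  · obtain ⟨e1, e2⟩ := ent (g2a_pm h hq)
    rcases h5 with rfl | h5
    · rw [hq, map_one]
    · omega
  · rw [← map_mul] at hq
    obtain ⟨e1, -⟩ := ent (g2a_pm h hq)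
    rw [map_mul, Matrix.SpecialLinearGroup.coe_mul, g2a_pi0_D] at e1
    simp [Matrix.mul_apply, Fin.sum_univ_two] at e1
    omega
  · rw [← map_mul] at hq
    obtain ⟨e1, -⟩ := ent (g2a_pm h hq)
    rw [map_mul, Matrix.SpecialLinearGroup.coe_mul, g2a_pi0_D] at e1
    simp [Matrix.mul_apply, Fin.sum_univ_two] at e1
    omega
  · rcases h5 with rfl | h5
    · rw [hq, map_one, one_mul, g2a_dd]
    · rw [← map_mul, ← map_mul] at hq
      obtain ⟨e1, e2⟩ := ent (g2a_pm h hq)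
      rw [map_mul, map_mul, Matrix.SpecialLinearGroup.coe_mul, Matrix.SpecialLinearGroup.coe_mul, g2a_pi0_D] at e1 e2
      simp [Matrix.mul_apply, Fin.sum_univ_two] at e1 e2
      omega

theorem pi0_zz : pi0 zz = -1 := by
  rw [pi0, bLift_zz]
  ext i j
  fin_cases i <;> fin_cases j <;> simp [matU, matV, pow_succ, Matrix.mul_apply, Fin.sum_univ_two]

theorem expo3_zz : expo3 zz = Multiplicative.ofAdd 6 := by
  rw [expo3, bLift_zz]
  rfl

theorem matU_zpow (n : ℤ) : (matU ^ n).1 = !![1, n; 0, 1] := by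
  have hinv : (matU⁻¹).1 = !![1, -1; 0, 1] := by
    rw [Matrix.SpecialLinearGroup.coe_inv]
    ext i j
    fin_cases i <;> fin_cases j <;> simp [matU, Matrix.adjugate_fin_two]
  induction n using Int.induction_on with
  | zero =>
    ext i j
    fin_cases i <;> fin_cases j <;> simp
  | succ k ih =>
    rw [zpow_add_one, Matrix.SpecialLinearGroup.coe_mul, ih]
    ext i j
    fin_cases i <;> fin_cases j <;> simp [matU, Matrix.mul_apply, Fin.sum_univ_two, add_comm]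
  | pred k ih =>
    rw [zpow_sub_one, Matrix.SpecialLinearGroup.coe_mul, ih, hinv]
    ext i j
    fin_cases i <;> fin_cases j <;> simp [Matrix.mul_apply, Fin.sum_univ_two]
    ring

theorem matV_zpow (n : ℤ) : (matV ^ n).1 = !![1, 0; -n, 1] := by
  have hinv : (matV⁻¹).1 = !![1, 0; 1, 1] := by
    rw [Matrix.SpecialLinearGroup.coe_inv]
    ext i j
    fin_cases i <;> fin_cases j <;> simp [matV, Matrix.adjugate_fin_two]
  induction n using Int.induction_on with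
  | zero =>
    ext i j
    fin_cases i <;> fin_cases j <;> simp
  | succ k ih =>
    rw [zpow_add_one, Matrix.SpecialLinearGroup.coe_mul, ih]
    ext i j
    fin_cases i <;> fin_cases j <;> simp [matV, Matrix.mul_apply, Fin.sum_univ_two]
    ring
  | pred k ih =>
    rw [zpow_sub_one, Matrix.SpecialLinearGroup.coe_mul, ih, hinv]
    ext i j
    fin_cases i <;> fin_cases j <;> simp [Matrix.mul_apply, Fin.sum_univ_two]
    ring

private theorem cent_matU {w : Matrix.SpecialLinearGroup (Fin 2) ℤ} (h : Commute w matU) :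
    ∃ i : ℤ, matU ^ (-i) * w = 1 ∨ matU ^ (-i) * w = -1 := by
  have e : w.1 * matU.1 = matU.1 * w.1 := by
    rw [← Matrix.SpecialLinearGroup.coe_mul, ← Matrix.SpecialLinearGroup.coe_mul, h.eq]
  have e0 := congrFun (congrFun e 0) 0
  have e1 := congrFun (congrFun e 0) 1
  simp [matU, Matrix.mul_apply, Fin.sum_univ_two] at e0 e1
  have hd := w.2
  rw [Matrix.det_fin_two, e0, mul_zero, sub_zero] at hd
  have e2 : w.1 1 1 = w.1 0 0 := by linarith
  rw [e2] at hd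
  rcases Int.eq_one_or_neg_one_of_mul_eq_one hd with h1 | h1
  · refine ⟨w.1 0 1, Or.inl ?_⟩
    apply Subtype.ext
    rw [Matrix.SpecialLinearGroup.coe_mul, matU_zpow]
    ext i j
    fin_cases i <;> fin_cases j <;> simp [Matrix.mul_apply, Fin.sum_univ_two, e0, e2, h1]
  · refine ⟨-w.1 0 1, Or.inr ?_⟩
    apply Subtype.ext
    rw [Matrix.SpecialLinearGroup.coe_mul, matU_zpow]
    ext i j
    fin_cases i <;> fin_cases j <;> simp [Matrix.mul_apply, Fin.sum_univ_two, e0, e2, h1]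

/-- G2b. A matrix commuting with `matU` is `± matU ^ i`; apply G2a to `β s1⁻ⁱ`. -/
theorem cent_s1 {β : B3} (h : Commute β s1) : ∃ i j : ℤ, β = s1 ^ i * zz ^ j := by
  obtain ⟨i, hi⟩ := cent_matU (w := pi0 β) (by simpa using h.map pi0)
  obtain ⟨j, hj⟩ := Subgroup.mem_zpowers_iff.1 (mem_zpowers_of_pi0 (β := s1 ^ (-i) * β) (by simpa using hi))
  exact ⟨i, j, by rw [hj]; group⟩

/-- G2c. `pi0` gives `i = 0`, then `expo3` gives `j = 0`. -/
theorem s1_zz_indep {i j : ℤ} (h : s1 ^ i * zz ^ j = 1) : i = 0 ∧ j = 0 := by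
  have h1 := congrArg pi0 h
  rw [map_mul, map_zpow, map_zpow, pi0_s1, pi0_zz, map_one] at h1
  have hi : i = 0 := by
    rcases Int.even_or_odd j with hj | hj
    · rw [hj.neg_one_zpow, mul_one] at h1
      have := matU_zpow i
      rw [h1] at this
      simpa using (congrFun (congrFun this 0) 1).symm
    · rw [hj.neg_one_zpow, mul_neg, mul_one, neg_eq_iff_eq_neg] at h1
      have := matU_zpow i
      rw [h1] at this
      simpa using (congrFun (congrFun this 0) 1).symm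
  subst hi
  have h2 := congrArg expo3 h
  rw [zpow_zero, one_mul, map_zpow, expo3_zz, map_one, ← ofAdd_zsmul, ← ofAdd_zero] at h2
  have h3 := Multiplicative.ofAdd.injective h2
  simp only [smul_eq_mul] at h3
  exact ⟨rfl, by omega⟩

theorem zz_central (β : B3) : Commute β zz := by
  have hβ : β ∈ Subgroup.closure ({s1, s2} : Set B3) := by rw [b3_closure]; exact Subgroup.mem_top β
  induction hβ using Subgroup.closure_induction with
  | mem x hx =>
    rcases hx with rfl | rfl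
    · exact br12.comm_left
    · exact br12.comm_right
  | one => exact Commute.one_left _
  | mul x y _ _ hx hy => exact hx.mul_left hy
  | inv x _ hx => exact hx.inv_left

/-- G2d. From `s1_zz_indep`. -/
theorem not_finOrder_s1_zz : ¬ IsOfFinOrder (s1 ^ (-6 : ℤ) * zz) := by
  rw [isOfFinOrder_iff_pow_eq_one]
  rintro ⟨n, hn, h⟩
  rw [(zz_central _).mul_pow, ← zpow_natCast, ← zpow_mul, ← zpow_natCast] at h
  have := (s1_zz_indep h).2
  omega

theorem sideM_matU (m : ℕ) : sideM (matU ^ m) := by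
  have h := matU_zpow m
  rw [zpow_natCast] at h
  show (matU ^ m).1 1 0 ^ 2 + (matU ^ m).1 1 1 ^ 2 ≤ (matU ^ m).1 0 0 ^ 2 + (matU ^ m).1 0 1 ^ 2
  rw [h]
  simp

theorem not_sideM_matV (n : ℕ) (hn : 1 ≤ n) : ¬ sideM (matV ^ n) := by
  have h := matV_zpow n
  rw [zpow_natCast] at h
  show ¬ (matV ^ n).1 1 0 ^ 2 + (matV ^ n).1 1 1 ^ 2 ≤ (matV ^ n).1 0 0 ^ 2 + (matV ^ n).1 0 1 ^ 2
  rw [h]
  simp
  omega

end Crest.Agent.R175B
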