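import Crest.Agent.R175.B.Defs

/-! # Row 175 / S0264: block A1, CAT(0) basics (route: `notes175/S0264.md`) -/

set_option autoImplicit false

namespace Crest.Agent.R175B
open Crest.Geometry

variable {X : Type*} [MetricSpace X]

/-- A1a. `m = γ (d/2)`; the comparison inequality with `γ : x → y`, `γ' : x → p`, `s = d(x,y)/2`,
`t = d(x,p)` gives CN for this `m` (degenerate cases `x = y`, `x = p` by hand); any other midpoint `m'`
equals `m` (CN with `p = m'` gives `dist m' m ^ 2 ≤ 0`). -/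
theorem cn_of_cat0 (h : IsCAT0Space X) : CN X := by
  have key : ∀ x y : X, ∃ m, Mid x y m ∧ ∀ p,
      dist p m ^ 2 ≤ (dist p x ^ 2 + dist p y ^ 2) / 2 - dist x y ^ 2 / 4 := fun x y => by
    obtain ⟨γ, hγ⟩ := h.1 x y
    have a0 : 0 ≤ dist x y := dist_nonneg
    have hs : dist x y / 2 ∈ Set.Icc (0 : ℝ) (dist x y) := ⟨by linarith, by linarith⟩
    have h1 := hγ.2.2 0 ⟨le_rfl, a0⟩ _ hs
    have h2 := hγ.2.2 _ ⟨a0, le_rfl⟩ _ hs
    rw [hγ.1, zero_sub, abs_neg, abs_of_nonneg hs.1] at h1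
    rw [hγ.2.1, sub_half, abs_of_nonneg hs.1] at h2
    refine ⟨γ (dist x y / 2), ⟨h1, h2⟩, fun p => ?_⟩
    rcases eq_or_ne x y with rfl | hxy
    · simp [hγ.1]
    rcases eq_or_ne x p with rfl | hxp
    · rw [h1, dist_self]
      linarith
    obtain ⟨γ', hγ'⟩ := h.1 x p
    have h3 := h.2 x y p γ γ' hγ hγ' _ hs _ ⟨dist_nonneg, le_rfl⟩
    have := (dist_pos.2 hxy).ne'
    have := (dist_pos.2 hxp).ne'
    rw [hγ'.2.1, dist_comm _ p, dist_comm y p] at h3
    refine h3.trans_eq ?_
    rw [dist_comm p x]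
    field_simp
    ring
  refine ⟨fun x y => (key x y).imp fun _ h => h.1, fun x y m p hm => ?_⟩
  obtain ⟨m', -, h'⟩ := key x y
  have h1 := h' m
  rw [dist_comm m x, dist_comm m y, hm.1, hm.2] at h1
  rw [dist_eq_zero.1 (pow_eq_zero_iff two_ne_zero |>.1 (le_antisymm (by linarith) (sq_nonneg (dist m m'))))]
  exact h' p

theorem Mid.symm {x y m : X} (h : Mid x y m) : Mid y x m := by
  exact ⟨h.2.trans (by rw [dist_comm]), h.1.trans (by rw [dist_comm])⟩

theorem Mid.smul {Γ : Type*} [Group Γ] [MulAction Γ X] [IsIsometricSMul Γ X] {x y m : X}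
    (h : Mid x y m) (g : Γ) : Mid (g • x) (g • y) (g • m) := by
  simpa only [Mid, dist_smul] using h

/-- A1b. CN for `m` at `p = m'`, and CN for `m'` at `p = y`. -/
theorem CN.mid_dist (hX : CN X) {x y y' m m' : X} (h : Mid x y m) (h' : Mid x y' m') :
    dist m m' ≤ dist y y' / 2 := by
  have h1 := hX.cn _ _ _ m' h
  have h2 := hX.cn _ _ _ y h'
  rw [dist_comm m' x, h'.1, dist_comm m' y, dist_comm m' m] at h1
  rw [dist_comm y x] at h2
  exact (abs_le_of_sq_le_sq' (by linarith) (by positivity)).2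

/-- A1c. Quadrilateral inequality: `m` a midpoint of `p₁ p₃`, CN at `p₂`, `p₄`, and
`d₂₄² ≤ 2 (d(p₂,m)² + d(p₄,m)²)`. -/
theorem CN.quad (hX : CN X) (p₁ p₂ p₃ p₄ : X) :
    dist p₁ p₃ ^ 2 + dist p₂ p₄ ^ 2 ≤
      dist p₁ p₂ ^ 2 + dist p₂ p₃ ^ 2 + dist p₃ p₄ ^ 2 + dist p₄ p₁ ^ 2 := by
  obtain ⟨m, hm⟩ := hX.ex p₁ p₃
  have h1 := hX.cn _ _ _ p₂ hm
  have h2 := hX.cn _ _ _ p₄ hm
  have h3 := pow_le_pow_left₀ dist_nonneg (dist_triangle_right p₂ p₄ m) 2
  rw [dist_comm p₂ p₁] at h1
  rw [dist_comm p₄ p₃] at h2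
  nlinarith [sq_nonneg (dist p₂ m - dist p₄ m)]

variable {Γ : Type*} [Group Γ] [MulAction Γ X] [IsIsometricSMul Γ X]

/-- A1d. Convexity of displacement at a midpoint: pass through a midpoint of `x` and `g • y`. -/
theorem CN.disp_mid (hX : CN X) {x y m : X} (h : Mid x y m) (g : Γ) :
    dist m (g • m) ≤ (dist x (g • x) + dist y (g • y)) / 2 := by
  obtain ⟨m', hm⟩ := hX.ex x (g • y)
  have h1 := hX.mid_dist h hm
  have h2 := hX.mid_dist hm.symm (h.smul g).symm
  linarith [dist_triangle m m' (g • m)]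

/-- A1e. Discretised geodesic.  Induction on `n` with `dist p q ≤ 2 ^ n` (concatenate the two halves
at a midpoint; for the `dist p · + dist · q` clause use `≤` from the halves and `≥` by the triangle
inequality). -/
theorem CN.disc (hX : CN X) (p q : X) : ∃ (N : ℕ) (y : ℕ → X), y 0 = p ∧ y N = q ∧
    (∀ j < N, dist (y j) (y (j + 1)) ≤ 1) ∧
    ∀ j ≤ N, dist p (y j) + dist (y j) q ≤ dist p q ∧
      ∀ g : Γ, dist (y j) (g • y j) ≤ max (dist p (g • p)) (dist q (g • q)) := by

  obtain ⟨n, hn⟩ := pow_unbounded_of_one_lt (dist p q) (one_lt_two (α := ℝ))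
  replace hn := hn.le
  induction n generalizing p q with
  | zero =>
    refine ⟨1, fun j => if j = 0 then p else q, by simp, by simp, fun j hj => ?_, fun j _ => ?_⟩
    · obtain rfl : j = 0 := by omega
      simpa using hn
    · by_cases h : j = 0 <;> simp [h]
  | succ n ih =>
    obtain ⟨m, hm⟩ := hX.ex p q
    have h1 : dist p m = dist p q / 2 := hm.1
    have h2 : dist m q = dist p q / 2 := by rw [dist_comm]; exact hm.2
    rw [pow_succ] at hn
    obtain ⟨N₁, y₁, a0, aN, as, ap⟩ := ih p m (by linarith)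
    obtain ⟨N₂, y₂, b0, bN, bs, bp⟩ := ih m q (by linarith)
    have hmid : ∀ g : Γ, dist m (g • m) ≤ max (dist p (g • p)) (dist q (g • q)) := fun g => by
      have := hX.disp_mid hm g
      have := le_max_left (dist p (g • p)) (dist q (g • q))
      have := le_max_right (dist p (g • p)) (dist q (g • q))
      linarith
    have hy : ∀ j, N₁ ≤ j → (if j ≤ N₁ then y₁ j else y₂ (j - N₁)) = y₂ (j - N₁) := by
      intro j hj
      split_ifs with h
      · obtain rfl : j = N₁ := by omega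
        rw [aN, Nat.sub_self, b0]
      · rfl
    refine ⟨N₁ + N₂, fun j => if j ≤ N₁ then y₁ j else y₂ (j - N₁), by simpa using a0, ?_,
      fun j hj => ?_, fun j hj => ?_⟩
    · simp only
      rw [hy _ (by omega), Nat.add_sub_cancel_left, bN]
    · simp only
      rcases lt_or_ge j N₁ with h | h
      · rw [if_pos h.le, if_pos (by omega)]
        exact as j h
      · rw [hy j h, hy (j + 1) (by omega), show j + 1 - N₁ = j - N₁ + 1 by omega]
        exact bs _ (by omega)
    · simp only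
      rcases le_total j N₁ with h | h
      · rw [if_pos h]
        obtain ⟨c1, c2⟩ := ap j h
        refine ⟨?_, fun g => (c2 g).trans (max_le (le_max_left _ _) (hmid g))⟩
        have := dist_triangle (y₁ j) m q
        linarith
      · rw [hy j h]
        obtain ⟨c1, c2⟩ := bp (j - N₁) (by omega)
        refine ⟨?_, fun g => (c2 g).trans (max_le (hmid g) (le_max_right _ _))⟩
        have := dist_triangle p m (y₂ (j - N₁))
        linarith

/-- A1f. Induction on `k` generalizing `g`: if `m` is a midpoint of `y`, `g • y` then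
`d(m, g m) ≤ d(y, g² y)/2` by `mid_dist` based at `g • y`. -/
theorem CN.exists_disp_le (hX : CN X) (x : X) (g : Γ) (k : ℕ) :
    ∃ y : X, dist y (g • y) ≤ dist x (g ^ (2 ^ k) • x) / 2 ^ k := by

  induction k generalizing g with
  | zero => exact ⟨x, by simp⟩
  | succ k ih =>
    obtain ⟨y, hy⟩ := ih (g ^ 2)
    obtain ⟨m, hm⟩ := hX.ex y (g • y)
    refine ⟨m, ?_⟩
    have h1 := hX.mid_dist hm.symm (hm.smul g)
    rw [← mul_smul, ← sq] at h1
    rw [← pow_mul, ← pow_succ'] at hy
    rw [pow_succ (2 : ℝ), ← div_div]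
    linarith

end Crest.Agent.R175B
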