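import Mathlib
import Crest.Prelude.Def_ArtinGroup
import Crest.Prelude.Def_GeometricAction

/-! # Row 175 / S0264: definitions (architect helper9; route in `notes175/S0264.md`) -/

set_option autoImplicit false

namespace Crest.Agent.R175B

/-! ### Metric side -/

/-- `m` is a midpoint of `x` and `y`. -/
def Mid {X : Type*} [MetricSpace X] (x y m : X) : Prop :=
  dist x m = dist x y / 2 ∧ dist y m = dist x y / 2

/-- Midpoints exist and satisfy the Bruhat--Tits CN inequality (all we use of CAT(0)). -/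
structure CN (X : Type*) [MetricSpace X] : Prop where
  ex : ∀ x y : X, ∃ m, Mid x y m
  cn : ∀ x y m p : X, Mid x y m →
    dist p m ^ 2 ≤ (dist p x ^ 2 + dist p y ^ 2) / 2 - dist x y ^ 2 / 4

/-- Stable translation length `lim d(x, gⁿ x)/n` (as an infimum, Fekete). -/
noncomputable def sl {Γ X : Type*} [Group Γ] [MetricSpace X] [MulAction Γ X] (x : X) (g : Γ) : ℝ :=
  ⨅ n : ℕ, dist x (g ^ (n + 1) • x) / ((n : ℝ) + 1)

/-- The "inner product" attached to a length function (meaningful for commuting `h`, `z`). -/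
noncomputable def ip {Γ : Type*} [Group Γ] (l : Γ → ℝ) (h z : Γ) : ℝ :=
  (l (h * z) ^ 2 - l h ^ 2 - l z ^ 2) / 2

/-- The algebraic properties of the stable length of an isometric action on a CAT(0) space. -/
structure IsSL {Γ : Type*} [Group Γ] (l : Γ → ℝ) : Prop where
  nonneg : ∀ g, 0 ≤ l g
  conj : ∀ g h, l (h * g * h⁻¹) = l g
  zpow : ∀ g (n : ℤ), l (g ^ n) = |(n : ℝ)| * l g
  add : ∀ z h h', Commute h z → Commute h' z → ip l (h * h') z = ip l h z + ip l h' z

/-- Coarse separation: every path in `H` with steps in a finite set from a positive power of `u`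
to a positive power of `v` meets finitely many cosets `⟨c⟩ f`. -/
def Sep {Γ : Type*} [Group Γ] (H : Subgroup Γ) (u v c : Γ) : Prop :=
  ∀ F : Set Γ, F.Finite → ∃ F' : Set Γ, F'.Finite ∧
    ∀ (N : ℕ) (h : ℕ → Γ), (∀ j ≤ N, h j ∈ H) → (∃ m : ℕ, 1 ≤ m ∧ h 0 = u ^ m) →
      (∃ n : ℕ, 1 ≤ n ∧ h N = v ^ n) → (∀ j < N, (h j)⁻¹ * h (j + 1) ∈ F) →
      ∃ j ≤ N, ∃ k : ℤ, ∃ f ∈ F', h j = c ^ k * f

/-- Geodesics from `uᵐ x` to `vⁿ x` pass uniformly near the `⟨c⟩`-orbit of `x`. -/
def Thru {Γ X : Type*} [Group Γ] [MetricSpace X] [MulAction Γ X] (x : X) (u v c : Γ) : Prop :=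
  ∃ D : ℝ, ∀ m n : ℕ, 1 ≤ m → 1 ≤ n → ∃ k : ℤ,
    dist (u ^ m • x) (c ^ k • x) + dist (c ^ k • x) (v ^ n • x) ≤ dist (u ^ m • x) (v ^ n • x) + D

theorem Sep.mono {Γ : Type*} [Group Γ] {H H' : Subgroup Γ} {u v c : Γ} (hle : H' ≤ H)
    (h : Sep H u v c) : Sep H' u v c := by
  intro F hF
  obtain ⟨F', hF', h'⟩ := h F hF
  exact ⟨F', hF', fun N p hp => h' N p fun j hj => hle (hp j hj)⟩

/-- The braid relation. -/
def Br {G : Type*} [Group G] (a b : G) : Prop := a * b * a = b * a * b

theorem Br.symm {G : Type*} [Group G] {a b : G} (h : Br a b) : Br b a := Eq.symm h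

theorem Br.map {G G' : Type*} [Group G] [Group G'] {a b : G} (h : Br a b) (f : G →* G') :
    Br (f a) (f b) := by
  unfold Br at *
  rw [← map_mul, ← map_mul, h, map_mul, map_mul]

/-! ### Artin groups with labels `0, 2, 3` -/

open Crest.GroupTheory

/-- All off-diagonal labels are `0` (infinity), `2` or `3`. -/
def Lab023 {S : Type*} (M : CoxeterMatrix S) : Prop :=
  ∀ s t : S, s ≠ t → M.M s t = 0 ∨ M.M s t = 2 ∨ M.M s t = 3

section Artin
variable {S : Type*} {M : CoxeterMatrix S}

theorem alt0 (s t : S) : artinAltWord s t 0 = 1 := rfl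
theorem alt2 (s t : S) : artinAltWord s t 2 = FreeGroup.of s * (FreeGroup.of t * 1) := rfl
theorem alt3 (s t : S) :
    artinAltWord s t 3 = FreeGroup.of s * (FreeGroup.of t * (FreeGroup.of s * 1)) := rfl

theorem gen_rel (s t : S) :
    PresentedGroup.mk (artinRelators M) (artinAltWord s t (M.M s t)) =
      PresentedGroup.mk (artinRelators M) (artinAltWord t s (M.M s t)) := by
  have h : PresentedGroup.mk (artinRelators M)
      (artinAltWord s t (M.M s t) * (artinAltWord t s (M.M s t))⁻¹) = 1 :=
    PresentedGroup.one_of_mem ⟨(s, t), rfl⟩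
  rw [map_mul, map_inv, mul_inv_eq_one] at h
  exact h

theorem gen_comm {s t : S} (h : M.M s t = 2) : Commute (artinGen M s) (artinGen M t) := by
  have := gen_rel (M := M) s t
  rw [h] at this
  simpa [alt2, artinGen, PresentedGroup.of, Commute, SemiconjBy] using this

theorem gen_br {s t : S} (h : M.M s t = 3) : Br (artinGen M s) (artinGen M t) := by
  have := gen_rel (M := M) s t
  rw [h] at this
  simpa [alt3, artinGen, PresentedGroup.of, Br, mul_assoc] using this

/-- Universal property for labels `0, 2, 3`. -/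
def aLift (hM : Lab023 M) {G : Type*} [Group G] (f : S → G)
    (h2 : ∀ s t, M.M s t = 2 → Commute (f s) (f t)) (h3 : ∀ s t, M.M s t = 3 → Br (f s) (f t)) :
    ArtinGroup M →* G :=
  PresentedGroup.toGroup (f := f) (by
    rintro r ⟨⟨s, t⟩, rfl⟩
    simp only [map_mul, map_inv, mul_inv_eq_one]
    by_cases hst : s = t
    · subst hst; rfl
    rcases hM s t hst with h | h | h
    · rw [h]; simp [alt0]
    · rw [h]; simpa [alt2] using (h2 s t h).eq
    · rw [h]; simpa [alt3, Br, mul_assoc] using h3 s t h)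

@[simp] theorem aLift_gen (hM : Lab023 M) {G : Type*} [Group G] (f : S → G)
    (h2 : ∀ s t, M.M s t = 2 → Commute (f s) (f t)) (h3 : ∀ s t, M.M s t = 3 → Br (f s) (f t))
    (s : S) : aLift hM f h2 h3 (artinGen M s) = f s :=
  PresentedGroup.toGroup.of _

theorem artin_ext {G : Type*} [Group G] {f g : ArtinGroup M →* G}
    (h : ∀ s, f (artinGen M s) = g (artinGen M s)) : f = g :=
  PresentedGroup.ext h

theorem closure_gen : Subgroup.closure (Set.range (artinGen M)) = ⊤ :=
  PresentedGroup.closure_range_of _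

/-- Exponent sum. -/
def expo (hM : Lab023 M) : ArtinGroup M →* Multiplicative ℤ :=
  aLift hM (fun _ => Multiplicative.ofAdd 1) (fun _ _ _ => Commute.refl _) (fun _ _ _ => rfl)

@[simp] theorem expo_gen (hM : Lab023 M) (s : S) :
    expo hM (artinGen M s) = Multiplicative.ofAdd 1 := aLift_gen ..

end Artin

/-! ### The braid group on three strands -/

/-- The braid relator. -/
def b3rel : Set (FreeGroup Bool) :=
  {FreeGroup.of false * FreeGroup.of true * FreeGroup.of false *
    (FreeGroup.of true * FreeGroup.of false * FreeGroup.of true)⁻¹}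

/-- The braid group `B₃`. -/
abbrev B3 : Type := PresentedGroup b3rel

/-- First generator. -/
def s1 : B3 := PresentedGroup.of false
/-- Second generator. -/
def s2 : B3 := PresentedGroup.of true
/-- The full twist. -/
def zz : B3 := (s1 * s2) ^ 3

theorem br12 : Br s1 s2 := by
  have h : PresentedGroup.mk b3rel (FreeGroup.of false * FreeGroup.of true * FreeGroup.of false *
    (FreeGroup.of true * FreeGroup.of false * FreeGroup.of true)⁻¹) = 1 :=
    PresentedGroup.one_of_mem rfl
  rw [map_mul, map_inv, mul_inv_eq_one] at h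
  simpa [Br, s1, s2, PresentedGroup.of] using h

/-- Universal property of `B₃`. -/
def bLift {G : Type*} [Group G] (a b : G) (h : Br a b) : B3 →* G :=
  PresentedGroup.toGroup (f := fun x => cond x b a) (by
    intro r hr
    rw [Set.mem_singleton_iff.1 hr]
    simpa [Br, mul_inv_eq_one, mul_inv_eq_iff_eq_mul, mul_assoc] using
      (mul_inv_eq_one.2 (show a * b * a = b * a * b from h)))

@[simp] theorem bLift_s1 {G : Type*} [Group G] (a b : G) (h : Br a b) : bLift a b h s1 = a :=
  PresentedGroup.toGroup.of _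
@[simp] theorem bLift_s2 {G : Type*} [Group G] (a b : G) (h : Br a b) : bLift a b h s2 = b :=
  PresentedGroup.toGroup.of _
@[simp] theorem bLift_zz {G : Type*} [Group G] (a b : G) (h : Br a b) :
    bLift a b h zz = (a * b) ^ 3 := by simp [zz]

theorem b3_ext {G : Type*} [Group G] {f g : B3 →* G} (h1 : f s1 = g s1) (h2 : f s2 = g s2) :
    f = g :=
  PresentedGroup.ext (by intro x; cases x <;> assumption)

theorem b3_closure : Subgroup.closure ({s1, s2} : Set B3) = ⊤ := by
  rw [← PresentedGroup.closure_range_of b3rel]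
  congr 1
  ext x
  simp only [Set.mem_insert_iff, Set.mem_singleton_iff, Set.mem_range, Bool.exists_bool, s1, s2]
  constructor <;> rintro (h | h) <;> simp [h]

theorem bLift_range {G : Type*} [Group G] (a b : G) (h : Br a b) :
    (bLift a b h).range = Subgroup.closure {a, b} := by
  rw [MonoidHom.range_eq_map, ← b3_closure, MonoidHom.map_closure]
  simp [Set.image_insert_eq]

/-- `(ab)³` commutes with `a`. -/
theorem Br.comm_left {G : Type*} [Group G] {a b : G} (h : Br a b) : Commute a ((a * b) ^ 3) := by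
  have h' : a * b * a = b * a * b := h
  show a * (a * b) ^ 3 = (a * b) ^ 3 * a
  calc a * (a * b) ^ 3 = a * (a * b * a) * (b * a * b) := by simp only [pow_succ, pow_zero]; group
    _ = a * (b * a * b) * (a * b * a) := by rw [h']
    _ = (a * b) ^ 3 * a := by simp only [pow_succ, pow_zero]; group

theorem Br.cube_comm {G : Type*} [Group G] {a b : G} (h : Br a b) : (a * b) ^ 3 = (b * a) ^ 3 := by
  have h' : a * b * a = b * a * b := h
  calc (a * b) ^ 3 = (a * b * a) * (b * a * b) := by simp only [pow_succ, pow_zero]; group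
    _ = (b * a * b) * (a * b * a) := by rw [h']
    _ = (b * a) ^ 3 := by simp only [pow_succ, pow_zero]; group

theorem Br.comm_right {G : Type*} [Group G] {a b : G} (h : Br a b) :
    Commute b ((a * b) ^ 3) := by
  rw [h.cube_comm]; exact h.symm.comm_left

/-- `[[1,1],[0,1]]`. -/
def matU : Matrix.SpecialLinearGroup (Fin 2) ℤ := ⟨!![1, 1; 0, 1], by simp [Matrix.det_fin_two]⟩
/-- `[[1,0],[-1,1]]`. -/
def matV : Matrix.SpecialLinearGroup (Fin 2) ℤ := ⟨!![1, 0; -1, 1], by simp [Matrix.det_fin_two]⟩

theorem brUV : Br matU matV := by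
  unfold Br
  ext i j
  fin_cases i <;> fin_cases j <;> simp [matU, matV, Matrix.mul_apply, Fin.sum_univ_two]

/-- `B₃ → SL(2, ℤ)`. -/
def pi0 : B3 →* Matrix.SpecialLinearGroup (Fin 2) ℤ := bLift matU matV brUV

@[simp] theorem pi0_s1 : pi0 s1 = matU := bLift_s1 ..
@[simp] theorem pi0_s2 : pi0 s2 = matV := bLift_s2 ..

/-- Exponent sum on `B₃`. -/
def expo3 : B3 →* Multiplicative ℤ := bLift (Multiplicative.ofAdd 1) (Multiplicative.ofAdd 1) rfl

/-- Side function on `SL(2, ℤ)`: first row at least as long as the second. -/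
def sideM (w : Matrix.SpecialLinearGroup (Fin 2) ℤ) : Prop :=
  w 1 0 ^ 2 + w 1 1 ^ 2 ≤ w 0 0 ^ 2 + w 0 1 ^ 2

/-- Side function on a free group: the reduced word starts with the letter `x`. -/
def sideF {α : Type*} [DecidableEq α] (x : α) (w : FreeGroup α) : Prop :=
  w.toWord.head? = some (x, true)

end Crest.Agent.R175B
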