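import Crest.Agent.R175.B.Defs

/-! # Row 175 / S0264: block F, free group lemmas (route: `notes175/S0264.md`) -/

set_option autoImplicit false

namespace Crest.Agent.R175B

variable {α : Type*} [DecidableEq α]

/-- Fa. Multiplying a reduced word on the right by one letter appends it or deletes the last letter. -/
theorem toWord_mul_letter (w : FreeGroup α) (y : α × Bool) :
    (w * FreeGroup.mk [y]).toWord = w.toWord ++ [y] ∨
      (w * FreeGroup.mk [y]).toWord ++ [(y.1, !y.2)] = w.toWord := by
  have hr : FreeGroup.IsReduced w.toWord := FreeGroup.isReduced_toWord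
  rw [FreeGroup.toWord_mul, FreeGroup.toWord_mk, FreeGroup.reduce_singleton]
  rcases List.eq_nil_or_concat' w.toWord with h | ⟨L, z, h⟩
  · left
    rw [h]
    rfl
  rw [h] at hr ⊢
  by_cases hz : z = (y.1, !y.2)
  · right
    have : FreeGroup.mk (L ++ [z] ++ [y]) = FreeGroup.mk L := by
      rw [← FreeGroup.mul_mk, ← FreeGroup.mul_mk, hz, show [(y.1, !y.2)] = FreeGroup.invRev [y] from rfl,
        ← FreeGroup.inv_mk, inv_mul_cancel_right]
    rw [FreeGroup.reduce.sound this, (hr.infix (List.prefix_append _ _).isInfix).reduce_eq, hz]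
  · left
    refine (hr.append_overlap (L₃ := [y]) ?_ (List.cons_ne_nil _ _)).reduce_eq
    refine List.isChain_pair.2 fun h1 => by_contra fun h2 => hz (Prod.ext h1 ?_)
    revert h2
    cases z.2 <;> cases y.2 <;> simp

/-- Fb. If `|φ| < |w|` then `w` and `w φ` have the same first letter (induction on the word of `φ`). -/
theorem head_mul_of_lt (w φ : FreeGroup α) (h : φ.toWord.length < w.toWord.length) :
    (w * φ).toWord.head? = w.toWord.head? := by
  conv_lhs => rw [← FreeGroup.mk_toWord (x := φ)]
  generalize φ.toWord = L at h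
  induction L generalizing w with
  | nil => rw [← FreeGroup.one_eq_mk, mul_one]
  | cons y L ih =>
    rw [← List.singleton_append, ← FreeGroup.mul_mk, ← mul_assoc]
    rw [List.length_cons] at h
    rcases toWord_mul_letter w y with h1 | h1
    · rw [ih _ (by rw [h1, List.length_append]; omega), h1,
        List.head?_append_of_ne_nil _ (List.ne_nil_of_length_pos (by omega))]
    · have h2 := congrArg List.length h1
      rw [List.length_append, List.length_singleton] at h2
      rw [ih _ (by omega), ← h1, List.head?_append_of_ne_nil _ (List.ne_nil_of_length_pos (by omega))]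

/-- Fc. Words of bounded length over a finite alphabet (`List.finite_length_le`, `toWord_injective`). -/
theorem sideF_finite [Finite α] (x : α) (φ : FreeGroup α) :
    {w | sideF x w ∧ ¬ sideF x (w * φ)}.Finite := by
  refine ((List.finite_length_le (α × Bool) φ.toWord.length).preimage FreeGroup.toWord_injective.injOn).subset
    fun w hw => (not_lt.1 fun h => hw.2 ?_ : w.toWord.length ≤ φ.toWord.length)
  exact (head_mul_of_lt w φ h).trans hw.1

/-- Fd. If `w ≠ 1`, pick a letter `y ∈ {x^±, x'^±}` different from the first letter of `w` and from the inverse of its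
last letter; `w y` is reduced, of length `|w| + 1`, with the first letter of `w`; `y w = w y` starts with `y`. -/
theorem eq_one_of_commute_of {x x' : α} (hx : x ≠ x') {w : FreeGroup α}
    (h : Commute w (FreeGroup.of x)) (h' : Commute w (FreeGroup.of x')) : w = 1 := by
  by_contra hw
  obtain ⟨a, L, hL⟩ := List.exists_cons_of_ne_nil (mt FreeGroup.toWord_eq_nil_iff.1 hw)
  obtain ⟨y, h1, h2, h3⟩ : ∃ y : α × Bool, (y.1 = x ∨ y.1 = x') ∧ y ≠ a ∧ w.toWord.getLast? ≠ some (y.1, !y.2) := by
    have key : ∀ z, (z = x ∨ z = x') → z ≠ a.1 →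
        ∃ y : α × Bool, (y.1 = x ∨ y.1 = x') ∧ y ≠ a ∧ w.toWord.getLast? ≠ some (y.1, !y.2) := fun z h1 h2 => by
      by_cases h3 : w.toWord.getLast? = some (z, true)
      · exact ⟨(z, true), h1, fun e => h2 (e ▸ rfl), by simp [h3]⟩
      · exact ⟨(z, false), h1, fun e => h2 (e ▸ rfl), h3⟩
    by_cases e : x = a.1
    · exact key x' (Or.inr rfl) fun e' => hx (e.trans e'.symm)
    · exact key x (Or.inl rfl) e
  have hc : Commute w (FreeGroup.mk [y]) := by
    obtain ⟨b, _ | _⟩ := y <;> rcases h1 with rfl | rfl
    exacts [h.inv_right, h'.inv_right, h, h']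
  rcases toWord_mul_letter w y with h4 | h4
  · rw [hc.eq, FreeGroup.toWord_mul, FreeGroup.toWord_mk, FreeGroup.reduce_singleton, List.singleton_append,
      FreeGroup.reduce.cons, FreeGroup.reduce_toWord, hL] at h4
    simp only at h4
    split_ifs at h4
    · have := congrArg List.length h4
      simp only [List.length_append, List.length_cons] at this
      omega
    · exact h2 (List.cons.inj h4).1
  · exact h3 (h4 ▸ List.getLast?_concat)

/-- Fe. Abelianise (or map `of x ↦ 1`, others `↦ 0`, into `Multiplicative ℤ`). -/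
theorem eq_of_conj_of {x x' : α} {w : FreeGroup α}
    (h : w * FreeGroup.of x * w⁻¹ = FreeGroup.of x') : x = x' := by
  have := congrArg (FreeGroup.lift fun a => if a = x then Multiplicative.ofAdd (1 : ℤ) else 1) h
  by_contra hx
  simp [Ne.symm hx] at this

/-- Ff. A positive word is reduced. -/
theorem sideF_pow_pos (x : α) (L : List α) (m : ℕ) (hm : 1 ≤ m) (x' : α) :
    sideF x' ((FreeGroup.of x * (L.map FreeGroup.of).prod) ^ m) ↔ x = x' := by
  have h1 : ∀ L : List α, (L.map FreeGroup.of).prod = FreeGroup.mk (L.map (·, true)) := fun L => by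
    induction L with
    | nil => rfl
    | cons a L ih => rw [List.map_cons, List.prod_cons, ih]; rfl
  have h2 : ∀ W : List (α × Bool), (∀ a ∈ W, a.2 = true) → FreeGroup.IsReduced W := fun W hW =>
    List.isChain_iff_getElem.2 fun i hi _ => (hW _ (List.getElem_mem _)).trans (hW _ (List.getElem_mem _)).symm
  obtain ⟨k, rfl⟩ := Nat.exists_eq_add_of_le' hm
  rw [← List.prod_cons, ← List.map_cons, h1, FreeGroup.pow_mk, sideF, FreeGroup.toWord_mk,
    (h2 _ fun a ha => ?_).reduce_eq]
  · simp [List.replicate_succ]
  · simp only [List.mem_flatten, List.mem_replicate] at ha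
    obtain ⟨l, ⟨-, rfl⟩, ha⟩ := ha
    obtain ⟨b, -, rfl⟩ := List.mem_map.1 ha
    rfl

end Crest.Agent.R175B
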