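import Crest.Agent.R175.B.Free

/-! # Row 175 / S0264: block G4, the gadget lemma (route: `notes175/S0264.md`) -/

set_option autoImplicit false

namespace Crest.Agent.R175B
open Crest.GroupTheory

section core
open SemidirectProduct
variable {A : Type} [Group A] (H : Subgroup A)

/-- `A` permutes the basis of the free group on two copies of `A ⧸ H` -/
def gadAct : A →* MulAut (FreeGroup ((A ⧸ H) × Bool)) where
  toFun x := FreeGroup.freeGroupCongr (Equiv.prodCongr (MulAction.toPerm x) (Equiv.refl _))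
  map_one' := MulEquiv.toMonoidHom_injective (FreeGroup.ext_hom _ _ fun q => by simp [Prod.map])
  map_mul' x y := MulEquiv.toMonoidHom_injective (FreeGroup.ext_hom _ _ fun q => by simp [Prod.map, mul_smul])

theorem gadAct_of (x : A) (q : A ⧸ H) (b : Bool) :
    gadAct H x (FreeGroup.of (q, b)) = FreeGroup.of (x • q, b) := by
  simp [gadAct]

/-- the gadget letters -/
def gadL (b : Bool) : FreeGroup ((A ⧸ H) × Bool) ⋊[gadAct H] A := inl (FreeGroup.of (((1 : A) : A ⧸ H), b))

variable {H}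

theorem gad_smul_one {y : A} : y • ((1 : A) : A ⧸ H) = ((1 : A) : A ⧸ H) ↔ y ∈ H := by
  rw [MulAction.Quotient.smul_mk, QuotientGroup.eq]
  simp

theorem gadL_comm (b : Bool) {y : A} (hy : y ∈ H) : Commute (gadL H b) (inr y) := by
  show _ * _ = _ * _
  ext
  · simp [gadL, gadAct_of, gad_smul_one.2 hy]
  · simp [gadL]

theorem gad_exists_inv (r : A →* A) (σ : Bool → A) (hr : ∀ y ∈ H, r y = y) (hσ : ∀ y ∈ H, ∀ b, Commute y (σ b)) :
    ∃ Φ : FreeGroup ((A ⧸ H) × Bool) ⋊[gadAct H] A →* A, (∀ b, Φ (gadL H b) = σ b) ∧ ∀ y, Φ (inr y) = r y := by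
  let φ : FreeGroup ((A ⧸ H) × Bool) →* A := FreeGroup.lift fun q => r q.1.out * σ q.2 * (r q.1.out)⁻¹
  have hφ : ∀ (x : A) (b : Bool), φ (FreeGroup.of ((x : A ⧸ H), b)) = r x * σ b * (r x)⁻¹ := fun x b => by
    obtain ⟨y, hy⟩ := QuotientGroup.mk_out_eq_mul H x
    simp only [φ, FreeGroup.lift_apply_of, hy, map_mul, hr y y.2, mul_inv_rev]
    rw [mul_assoc (r x), (hσ y y.2 b).eq]
    group
  refine ⟨SemidirectProduct.lift φ r fun x => FreeGroup.ext_hom _ _ fun q => ?_, fun b => ?_, fun y => by simp⟩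
  · obtain ⟨q, b⟩ := q
    induction q using QuotientGroup.induction_on with
    | H z =>
      simp only [MonoidHom.comp_apply, MulEquiv.coe_toMonoidHom, gadAct_of, MulAction.Quotient.smul_mk, hφ,
        MulAut.conj_apply, smul_eq_mul, map_mul]
      group
  · simp [gadL, hφ]

theorem gad_core {u : FreeGroup ((A ⧸ H) × Bool) ⋊[gadAct H] A} (h : ∀ b, Commute u (gadL H b)) :
    u.right ∈ H ∧ u = inr u.right := by
  classical
  have h1 : ∀ b, u.left * FreeGroup.of (u.right • ((1 : A) : A ⧸ H), b) = FreeGroup.of (((1 : A) : A ⧸ H), b) * u.left :=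
    fun b => by simpa [gadL, gadAct_of] using congrArg SemidirectProduct.left (h b).eq
  have h2 : u.right • ((1 : A) : A ⧸ H) = ((1 : A) : A ⧸ H) :=
    congrArg Prod.fst (eq_of_conj_of (w := u.left) (mul_inv_eq_iff_eq_mul.2 (h1 true)))
  rw [h2] at h1
  have h3 : u.left = 1 := eq_one_of_commute_of (by simp) (h1 true) (h1 false)
  refine ⟨gad_smul_one.1 h2, ?_⟩
  ext
  · simp [h3]
  · simp

end core

/-- G4.  `A = ArtinGroup M`, `H = stdParabolic M T`, `N = FreeGroup ((A ⧸ H) × Bool)` with `A` permuting the basis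
(`FreeGroup.map`), `r : A →* A` killing `σ g`, `σ g'` and fixing the other generators (so `r` fixes `H` pointwise and
`r ∘ r = r`).  `Θ : A →* N ⋊ A`, `σ g ↦ inl (of (1H, false))`, `σ g' ↦ inl (of (1H, true))`, `σ s ↦ inr (σ s)`;
`rightHom ∘ Θ = r`.  `Φ : N ⋊ A →* A`, `of (xH, b) ↦ r x * σ_b * (r x)⁻¹` (well defined: `r H = H` commutes with `σ_b`),
`inr y ↦ r y`; `Φ ∘ Θ = id`.  If `h` commutes with both, `Θ h = ⟨w, r h⟩` gives `w * of (r h • 1H, b) * w⁻¹ = of (1H, b)`,
so `r h ∈ H` (`eq_of_conj_of`), `w = 1` (`eq_one_of_commute_of`) and `h = Φ (inr (r h)) = r (r h) = r h ∈ H`. -/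
theorem gadget {S : Type} {M : CoxeterMatrix S} (hM : Lab023 M) (T : Set S) {g g' : S} (hgg : g ≠ g')
    (hgT : g ∉ T) (hgT' : g' ∉ T)
    (hg : ∀ s, s ≠ g → (M.M g s = 2 ∧ s ∈ T) ∨ (M.M g s = 0 ∧ s ∉ T))
    (hg' : ∀ s, s ≠ g' → (M.M g' s = 2 ∧ s ∈ T) ∨ (M.M g' s = 0 ∧ s ∉ T))
    {h : ArtinGroup M} (h1 : Commute h (artinGen M g)) (h2 : Commute h (artinGen M g')) :
    h ∈ stdParabolic M T := by
  classical
  have hH : ∀ s ∈ T, artinGen M s ∈ stdParabolic M T := fun s hs => Subgroup.subset_closure ⟨s, hs, rfl⟩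
  have hd : ∀ s, M.M s s = 1 := M.diagonal
  have two : ∀ s t, M.M s t = 2 → s = g ∨ s = g' → t ∈ T := by
    rintro s t hst (rfl | rfl)
    · rcases hg t (by rintro rfl; rw [hd] at hst; omega) with h | h
      exacts [h.2, by omega]
    · rcases hg' t (by rintro rfl; rw [hd] at hst; omega) with h | h
      exacts [h.2, by omega]
  have three : ∀ s t, M.M s t = 3 → s ≠ g ∧ s ≠ g' := by
    refine fun s t hst => ⟨?_, ?_⟩
    · rintro rfl
      rcases hg t (by rintro rfl; rw [hd] at hst; omega) with h | h <;> omega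
    · rintro rfl
      rcases hg' t (by rintro rfl; rw [hd] at hst; omega) with h | h <;> omega
  let f : S → FreeGroup ((ArtinGroup M ⧸ stdParabolic M T) × Bool) ⋊[gadAct (stdParabolic M T)] ArtinGroup M :=
    fun s => if s = g then gadL _ false else if s = g' then gadL _ true else SemidirectProduct.inr (artinGen M s)
  have fg : f g = gadL _ false := if_pos rfl
  have fg' : f g' = gadL _ true := (if_neg hgg.symm).trans (if_pos rfl)
  have fs : ∀ s, s ≠ g → s ≠ g' → f s = SemidirectProduct.inr (artinGen M s) := fun s a b =>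
    (if_neg a).trans (if_neg b)
  have fT : ∀ s ∈ T, f s = SemidirectProduct.inr (artinGen M s) := fun s hs =>
    fs s (by rintro rfl; exact hgT hs) (by rintro rfl; exact hgT' hs)
  have key : ∀ s t, M.M s t = 2 → s = g ∨ s = g' → Commute (f s) (f t) := fun s t hst hs => by
    have ht := two s t hst hs
    rw [fT t ht]
    rcases hs with rfl | rfl
    · rw [fg]; exact gadL_comm _ (hH t ht)
    · rw [fg']; exact gadL_comm _ (hH t ht)
  let Θ := aLift hM f (fun s t hst => by
    by_cases hs : s = g ∨ s = g'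
    · exact key s t hst hs
    by_cases ht : t = g ∨ t = g'
    · exact (key t s (by rw [M.symmetric, hst]) ht).symm
    rw [not_or] at hs ht
    rw [fs s hs.1 hs.2, fs t ht.1 ht.2]
    exact (gen_comm hst).map _) (fun s t hst => by
    have hs := three s t hst
    have ht := three t s (by rw [M.symmetric, hst])
    rw [fs s hs.1 hs.2, fs t ht.1 ht.2]
    exact (gen_br hst).map _)
  have hΘ : ∀ s, Θ (artinGen M s) = f s := fun s => aLift_gen ..
  let r := SemidirectProduct.rightHom.comp Θ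
  have hr : ∀ y ∈ stdParabolic M T, r y = y := fun y hy =>
    MonoidHom.eqOn_closure (f := r) (g := MonoidHom.id _) (by
      rintro _ ⟨s, hs, rfl⟩
      simp [r, hΘ, fT s hs]) hy
  obtain ⟨Φ, hΦ1, hΦ2⟩ := gad_exists_inv r (fun b => cond b (artinGen M g') (artinGen M g)) hr (fun y hy b => by
    induction hy using Subgroup.closure_induction with
    | mem x hx =>
      obtain ⟨s, hs, rfl⟩ := hx
      cases b
      · rcases hg s (by rintro rfl; exact hgT hs) with h | h
        exacts [(gen_comm h.1).symm, absurd hs h.2]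
      · rcases hg' s (by rintro rfl; exact hgT' hs) with h | h
        exacts [(gen_comm h.1).symm, absurd hs h.2]
    | one => exact Commute.one_left _
    | mul x y _ _ hx hy => exact hx.mul_left hy
    | inv x _ hx => exact hx.inv_left)
  have hid : Φ.comp Θ = MonoidHom.id _ := artin_ext fun s => by
    rw [MonoidHom.comp_apply, hΘ, MonoidHom.id_apply]
    by_cases a : s = g
    · rw [a, fg, hΦ1]; rfl
    by_cases b : s = g'
    · rw [b, fg', hΦ1]; rfl
    rw [fs s a b, hΦ2]
    simp [r, hΘ, fs s a b]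
  obtain ⟨h3, h4⟩ := gad_core (u := Θ h) fun b => by
    cases b
    · rw [← fg, ← hΘ]; exact h1.map _
    · rw [← fg', ← hΘ]; exact h2.map _
  have h5 : Φ (Θ h) = h := DFunLike.congr_fun hid h
  rw [h4, hΦ2, hr _ h3] at h5
  exact h5 ▸ h3

end Crest.Agent.R175B
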