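import Crest.Agent.R175.B.Defs

/-! # Row 175 / S0264: the group `Γ₀ = F₃ ⋊ B₃` (definitions) -/

set_option autoImplicit false

namespace Crest.Agent.R175B

/-- The free group of rank three. -/
abbrev F3 : Type := FreeGroup (Fin 3)

/-- Basis elements. -/
abbrev xx (i : Fin 3) : F3 := FreeGroup.of i

/-- `x₀ ↦ x₀x₁x₀⁻¹, x₁ ↦ x₀, x₂ ↦ x₂`. -/
def art1 : MulAut F3 :=
  MonoidHom.toMulEquiv (FreeGroup.lift ![xx 0 * xx 1 * (xx 0)⁻¹, xx 0, xx 2])
    (FreeGroup.lift ![xx 1, (xx 1)⁻¹ * xx 0 * xx 1, xx 2])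
    (by ext i; fin_cases i <;> simp [mul_assoc]) (by ext i; fin_cases i <;> simp [mul_assoc])

/-- `x₀ ↦ x₀, x₁ ↦ x₁x₂x₁⁻¹, x₂ ↦ x₁`. -/
def art2 : MulAut F3 :=
  MonoidHom.toMulEquiv (FreeGroup.lift ![xx 0, xx 1 * xx 2 * (xx 1)⁻¹, xx 1])
    (FreeGroup.lift ![xx 0, xx 2, (xx 2)⁻¹ * xx 1 * xx 2])
    (by ext i; fin_cases i <;> simp [mul_assoc]) (by ext i; fin_cases i <;> simp [mul_assoc])

@[simp] theorem art1_0 : art1 (xx 0) = xx 0 * xx 1 * (xx 0)⁻¹ := by simp [art1]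
@[simp] theorem art1_1 : art1 (xx 1) = xx 0 := by simp [art1]
@[simp] theorem art1_2 : art1 (xx 2) = xx 2 := by simp [art1]
@[simp] theorem art2_0 : art2 (xx 0) = xx 0 := by simp [art2]
@[simp] theorem art2_1 : art2 (xx 1) = xx 1 * xx 2 * (xx 1)⁻¹ := by simp [art2]
@[simp] theorem art2_2 : art2 (xx 2) = xx 1 := by simp [art2]

theorem mulAut_ext {f g : MulAut F3} (h : ∀ i, f (xx i) = g (xx i)) : f = g := by
  have : f.toMonoidHom = g.toMonoidHom := FreeGroup.ext_hom _ _ h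
  exact MulEquiv.toMonoidHom_injective this

theorem br_art : Br art1 art2 := by
  refine mulAut_ext fun i => ?_
  fin_cases i <;> simp [mul_assoc]

/-- Artin's action of `B₃` on `F₃`. -/
def act : B3 →* MulAut F3 := bLift art1 art2 br_art

@[simp] theorem act_s1 : act s1 = art1 := bLift_s1 ..
@[simp] theorem act_s2 : act s2 = art2 := bLift_s2 ..

/-- `Γ₀ = F₃ ⋊ B₃` (the Artin group of type `B₃`). -/
abbrev G0 : Type := F3 ⋊[act] B3

open SemidirectProduct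

/-- `δ = x₀x₁x₂`. -/
def del : F3 := xx 0 * xx 1 * xx 2
/-- The central element `ζ = δ⁻¹ z`. -/
def zeta : G0 := inl del⁻¹ * inr zz
/-- `ρ₀ = x₀⁻¹ s₁ s₂`. -/
def rho0 : G0 := inl (xx 0)⁻¹ * inr (s1 * s2)
/-- The images of the three generators of the affine Artin group `Ã₂`. -/
def yy : Fin 3 → G0 := ![inr s1, inr s2, rho0 * inr s2 * rho0⁻¹]

end Crest.Agent.R175B
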