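import Crest.Agent.R175.B.SL

/-! # Row 175 / S0264: blocks A4, A5, geometric actions (route: `notes175/S0264.md`) -/

set_option autoImplicit false

namespace Crest.Agent.R175B
open Crest.Geometry

variable {Γ X : Type*} [Group Γ] [MetricSpace X] [ProperSpace X] [MulAction Γ X]
  [IsIsometricSMul Γ X]

/-- A4a. Properness for the compact set `closedBall x (R + R')`. -/
theorem fin_move (hG : IsGeometricAction Γ X) (x : X) (R R' : ℝ) :
    {g : Γ | ∃ y : X, dist x y ≤ R ∧ dist y (g • y) ≤ R'}.Finite := by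
  refine (hG.2.1 _ (isCompact_closedBall x (R + R'))).subset ?_
  rintro g ⟨y, h1, h2⟩
  have h3 : 0 ≤ R' := dist_nonneg.trans h2
  refine ⟨g • y, ⟨y, ?_, rfl⟩, ?_⟩
  · rw [Metric.mem_closedBall, dist_comm]; linarith
  · rw [Metric.mem_closedBall, dist_comm]; linarith [dist_triangle x y (g • y)]

/-- A4b. Cocompactness as coboundedness of the orbit. -/
theorem cobdd (hG : IsGeometricAction Γ X) (x : X) : ∃ R : ℝ, ∀ y : X, ∃ g : Γ, dist x (g • y) ≤ R := by
  obtain ⟨K, hK, h⟩ := hG.2.2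
  obtain ⟨R, hR⟩ := hK.isBounded.subset_closedBall x
  refine ⟨R, fun y => ?_⟩
  obtain ⟨g, k, hk, rfl⟩ := h y
  refine ⟨g⁻¹, ?_⟩
  rw [inv_smul_smul, dist_comm]
  exact hR hk

omit [ProperSpace X] in
theorem geo_dist_pow (y : X) (g : Γ) (j : ℕ) : dist y (g ^ j • y) ≤ j * dist y (g • y) := by
  induction j with
  | zero => simp
  | succ j ih =>
    have h := dist_triangle y (g ^ j • y) (g ^ (j + 1) • y)
    rw [pow_succ, mul_smul, dist_smul] at h
    rw [pow_succ, mul_smul]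
    push_cast
    linarith

/-- A4c. If `sl x g = 0`, then for every `N` some `y` has `d(y, g y) ≤ 1/N` (`exists_disp_le`, `sl_tendsto`),
so `d(y, gʲ y) ≤ 1` for `j ≤ N`; moving `y` into the ball (`cobdd`), the `N + 1` distinct conjugates
`γ gʲ γ⁻¹` lie in the finite set of `fin_move x R 1`. -/
theorem sl_pos (hX : CN X) (hG : IsGeometricAction Γ X) (x : X) {g : Γ} (hg : ¬ IsOfFinOrder g) :
    0 < sl x g := by
  refine (sl_nonneg x g).lt_of_ne fun h0 => ?_
  obtain ⟨R, hR⟩ := cobdd hG x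
  have hF := fin_move hG x R 1
  set n := hF.toFinset.card with hn
  have h1 : Filter.Tendsto (fun k : ℕ => dist x (g ^ (2 ^ k) • x) / ((2 ^ k : ℕ) : ℝ)) Filter.atTop
      (nhds (sl x g)) := (sl_tendsto x g).comp (tendsto_pow_atTop_atTop_of_one_lt one_lt_two)
  rw [← h0] at h1
  obtain ⟨k, hk⟩ := (h1.eventually (gt_mem_nhds (show (0 : ℝ) < 1 / (n + 1) by positivity))).exists
  obtain ⟨y, hy⟩ := hX.exists_disp_le x g k
  push_cast at hk
  have h2 : dist y (g • y) ≤ 1 / (n + 1) := hy.trans hk.le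
  obtain ⟨γ, hγ⟩ := hR y
  have h3 : (Finset.range (n + 1)).card ≤ hF.toFinset.card := by
    refine Finset.card_le_card_of_injOn (fun j => γ * g ^ j * γ⁻¹) (fun j hj => ?_) fun i _ j _ hij => ?_
    · rw [Finset.mem_coe, Set.Finite.mem_toFinset]
      refine ⟨γ • y, hγ, ?_⟩
      have hj' : (j : ℝ) ≤ n + 1 := by
        exact_mod_cast (Finset.mem_range.1 (Finset.mem_coe.1 hj)).le
      rw [mul_smul, mul_smul, inv_smul_smul, dist_smul]
      calc dist y (g ^ j • y) ≤ j * dist y (g • y) := geo_dist_pow y g j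
        _ ≤ (n + 1) * (1 / (n + 1)) := mul_le_mul hj' h2 dist_nonneg (by positivity)
        _ = 1 := by field_simp
    · exact injective_pow_iff_not_isOfFinOrder.2 hg (by simpa using hij)
  rw [Finset.card_range] at h3
  omega

/-- A5a. Points moved boundedly by the finite set `T` are near the centraliser orbit: write
`γ • y ∈ ball`; `γ ↦ (γ g γ⁻¹)_{g ∈ T}` takes finitely many values (`fin_move`); fix one `γ_v` per value;
`γ⁻¹ γ_v` centralises `T` and `d(y, γ⁻¹ γ_v x) = d(γ y, γ_v x)`. -/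
theorem near_cent (hG : IsGeometricAction Γ X) (x : X) (T : Set Γ) (hT : T.Finite) (R : ℝ) :
    ∃ D : ℝ, ∀ y : X, (∀ g ∈ T, dist y (g • y) ≤ R) →
      ∃ h ∈ Subgroup.centralizer T, dist y (h • x) ≤ D := by
  obtain ⟨R0, hR0⟩ := cobdd hG x
  have hF := fin_move hG x R0 R
  haveI := hT.to_subtype
  set φ : Γ → T → Γ := fun γ g => γ * g * γ⁻¹ with hφ
  set A : Set Γ := {γ | ∀ g : T, ∃ y : X, dist x y ≤ R0 ∧ dist y (φ γ g • y) ≤ R} with hA
  have h1 : (φ '' A).Finite := by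
    refine (Set.Finite.pi' fun _ : T => hF).subset ?_
    rintro _ ⟨γ, hγ, rfl⟩ g
    exact hγ g
  obtain ⟨B, -, hB, hBA⟩ := h1.exists_subset_finite_image_eq (subset_refl (φ '' A))
  obtain ⟨D, hD⟩ := (hB.image fun γ => dist x (γ • x)).bddAbove
  refine ⟨R0 + D, fun y hy => ?_⟩
  obtain ⟨γ, hγ⟩ := hR0 y
  have h2 : γ ∈ A := fun g => ⟨γ • y, hγ, by
    simp only [hφ]
    rw [mul_smul, mul_smul, inv_smul_smul, dist_smul]
    exact hy g g.2⟩
  obtain ⟨δ, hδ, hδγ⟩ : φ γ ∈ φ '' B := hBA ▸ Set.mem_image_of_mem φ h2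
  refine ⟨γ⁻¹ * δ, Subgroup.mem_centralizer_iff.2 fun g hg => ?_, ?_⟩
  · have h3 : δ * g * δ⁻¹ = γ * g * γ⁻¹ := congrFun hδγ ⟨g, hg⟩
    calc g * (γ⁻¹ * δ) = γ⁻¹ * (γ * g * γ⁻¹) * δ := by group
      _ = γ⁻¹ * (δ * g * δ⁻¹) * δ := by rw [h3]
      _ = γ⁻¹ * δ * g := by group
  · have h3 : dist x (δ • x) ≤ D := hD ⟨δ, hδ, rfl⟩
    rw [← dist_smul γ, mul_smul, smul_inv_smul]
    linarith [dist_triangle (γ • y) x (δ • x), dist_comm x (γ • y)]

/-- A5b. `CN.disc` from `uᵐ x` to `vⁿ x` (displacements of `g ∈ T` are `≤ d(x, g x)` at both ends),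
`near_cent` gives `h_j`; the path `uᵐ, h_0, …, h_N, vⁿ` has steps in `{f | d(x, f x) ≤ 2D + 1}`; `Sep` gives
`h = cᵏ f` within `D` of some `y_j`. -/
theorem thru_of_sep (hX : CN X) (hG : IsGeometricAction Γ X) (x : X) (T : Set Γ) (hT : T.Finite)
    {u v c : Γ} (hu : u ∈ Subgroup.centralizer T) (hv : v ∈ Subgroup.centralizer T)
    (hS : Sep (Subgroup.centralizer T) u v c) : Thru x u v c := by
  classical
  obtain ⟨R, hR⟩ := (hT.image fun g => dist x (g • x)).bddAbove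
  obtain ⟨D₀, hD₀⟩ := near_cent hG x T hT R
  have hF : {f : Γ | dist x (f • x) ≤ 2 * |D₀| + 1}.Finite :=
    (fin_move hG x 0 (2 * |D₀| + 1)).subset fun f hf => ⟨x, by simp, hf⟩
  obtain ⟨F', hF', hsep⟩ := hS _ hF
  obtain ⟨B, hB⟩ := (hF'.image fun g => dist x (g • x)).bddAbove
  refine ⟨2 * (|D₀| + B), fun m n hm hn => ?_⟩
  obtain ⟨N, y, hy0, hyN, hstep, hy⟩ := CN.disc (Γ := Γ) hX (u ^ m • x) (v ^ n • x)
  have hend : ∀ w ∈ Subgroup.centralizer T, ∀ g ∈ T, dist (w • x) (g • w • x) ≤ R := fun w hw g hg => by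
    rw [← mul_smul, Subgroup.mem_centralizer_iff.1 hw g hg, mul_smul, dist_smul]
    exact hR ⟨g, hg, rfl⟩
  have hex : ∀ j, ∃ h ∈ Subgroup.centralizer T, dist (y (min j N)) (h • x) ≤ |D₀| ∧ (j = 0 → h = u ^ m) ∧
      (j = N + 1 → h = v ^ n) := fun j => by
    by_cases h0 : j = 0
    · exact ⟨u ^ m, pow_mem hu m, by simp [h0, hy0], fun _ => rfl, fun h => by omega⟩
    by_cases h1 : j = N + 1
    · exact ⟨v ^ n, pow_mem hv n, by simp [h1, hyN], fun h => by omega, fun _ => rfl⟩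
    obtain ⟨h, hh, hd⟩ := hD₀ (y (min j N)) fun g hg => ((hy _ (min_le_right _ _)).2 g).trans
      (max_le (hend _ (pow_mem hu m) g hg) (hend _ (pow_mem hv n) g hg))
    exact ⟨h, hh, hd.trans (le_abs_self _), fun h => (h0 h).elim, fun h => (h1 h).elim⟩
  choose h hh hd h0 h1 using hex
  obtain ⟨j, -, k, f, hf, hj⟩ := hsep (N + 1) h (fun j _ => hh j) ⟨m, hm, h0 0 rfl⟩ ⟨n, hn, h1 _ rfl⟩ fun j hj => by
    have e1 : dist (y (min j N)) (y (min (j + 1) N)) ≤ 1 := by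
      by_cases hjN : j < N
      · rw [min_eq_left hjN.le, min_eq_left (by omega)]; exact hstep j hjN
      · rw [min_eq_right (by omega), min_eq_right (by omega)]; simp
    have e2 := dist_triangle4 (h j • x) (y (min j N)) (y (min (j + 1) N)) (h (j + 1) • x)
    have e3 := hd j
    have e4 := hd (j + 1)
    rw [dist_comm] at e3
    show dist x (((h j)⁻¹ * h (j + 1)) • x) ≤ _
    rw [← dist_smul (h j), mul_smul, smul_inv_smul]
    linarith
  refine ⟨k, ?_⟩
  have e1 := (hy _ (min_le_right j N)).1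
  have e2 := hd j
  have e3 : dist (c ^ k • x) (h j • x) ≤ B := by
    rw [hj, mul_smul, dist_smul]; exact hB ⟨f, hf, rfl⟩
  have e4 := dist_triangle_right (y (min j N)) (c ^ k • x) (h j • x)
  have e5 := dist_triangle (u ^ m • x) (y (min j N)) (c ^ k • x)
  have e6 := dist_triangle_left (c ^ k • x) (v ^ n • x) (y (min j N))
  linarith

end Crest.Agent.R175B
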