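import Crest.Agent.R175.B.IP

/-! # Row 175 / S0264: block GRAM (route: `notes175/S0264.md`) -/

set_option autoImplicit false

namespace Crest.Agent.R175B

variable {Γ : Type*} [Group Γ] {l : Γ → ℝ}

/-- Jucys--Murphy elements: `jm s 0 = 1`, `jm s (j+1) = s j * jm s j * s j`
(so `jm s 1 = s₀²`, `jm s 2 = s₁ s₀² s₁`, …). -/
def jm (s : ℕ → Γ) : ℕ → Γ
  | 0 => 1
  | j + 1 => s j * jm s j * s j

/-- Full twist on `q + 1` strands: `jm s 1 * ⋯ * jm s q`. -/
def tw (s : ℕ → Γ) : ℕ → Γ
  | 0 => 1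
  | q + 1 => tw s q * jm s (q + 1)

/-- `s 0, …, s (n-1)` satisfy the braid relations of type `Aₙ`. -/
structure Chain (s : ℕ → Γ) (n : ℕ) : Prop where
  comm : ∀ i j, i + 2 ≤ j → j < n → Commute (s i) (s j)
  br : ∀ i, i + 1 < n → Br (s i) (s (i + 1))

theorem commute_jm {s : ℕ → Γ} {T : Γ} : ∀ {j : ℕ}, (∀ k < j, Commute T (s k)) → Commute T (jm s j)
  | 0, _ => Commute.one_right T
  | j + 1, h => ((h j j.lt_succ_self).mul_right
      (commute_jm fun k hk => h k (hk.trans j.lt_succ_self))).mul_right (h j j.lt_succ_self)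

theorem commute_tw {s : ℕ → Γ} {T : Γ} : ∀ {q : ℕ}, (∀ k < q, Commute T (s k)) → Commute T (tw s q)
  | 0, _ => Commute.one_right T
  | q + 1, h => (commute_tw fun k hk => h k (hk.trans q.lt_succ_self)).mul_right (commute_jm h)

/-- `s i` commutes with `jm s j` for `j < i`. -/
theorem Chain.jm_lo {s : ℕ → Γ} {n : ℕ} (hs : Chain s n) {i j : ℕ} (hj : j < i) (hi : i < n) :
    Commute (s i) (jm s j) :=
  commute_jm fun k hk => (hs.comm k i (by omega) hi).symm

/-- `s i` commutes with `jm s j` for `i + 2 ≤ j`. -/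
theorem Chain.jm_hi {s : ℕ → Γ} {n : ℕ} (hs : Chain s n) {i j : ℕ} (hj : i + 2 ≤ j) (hn : j ≤ n) :
    Commute (s i) (jm s j) := by
  induction j, hj using Nat.le_induction with
  | base =>
    have hb : s i * s (i + 1) * s i = s (i + 1) * s i * s (i + 1) := hs.br i (by omega)
    have hc : s (i + 1) * jm s i = jm s i * s (i + 1) := (hs.jm_lo i.lt_succ_self (by omega)).eq
    show s i * (s (i + 1) * (s i * jm s i * s i) * s (i + 1)) =
      s (i + 1) * (s i * jm s i * s i) * s (i + 1) * s i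
    calc _ = (s i * s (i + 1) * s i) * jm s i * s i * s (i + 1) := by simp only [mul_assoc]
      _ = s (i + 1) * s i * (s (i + 1) * jm s i) * s i * s (i + 1) := by rw [hb]; simp only [mul_assoc]
      _ = s (i + 1) * s i * jm s i * (s (i + 1) * s i * s (i + 1)) := by rw [hc]; simp only [mul_assoc]
      _ = _ := by rw [← hb]; simp only [mul_assoc]
  | succ j hj ih =>
    have hc := hs.comm i j hj (by omega)
    exact (hc.mul_right (ih (by omega))).mul_right hc

theorem Chain.jm_jm {s : ℕ → Γ} {n : ℕ} (hs : Chain s n) {i j : ℕ} (hj : i < j) (hn : j ≤ n) :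
    Commute (jm s j) (jm s i) :=
  commute_jm fun k hk => (hs.jm_hi (by omega) hn).symm

/-- GRAM a. `tw s q` is central in `⟨s 0, …, s (q-1)⟩`.  `s i` commutes with `jm s j` for `i + 2 ≤ j`
(induction; base `j = i + 2` by the braid relation) and for `j < i` (indices `< j`, far from `i`),
hence the `jm` commute pairwise; `s i` commutes with `jm s i * jm s (i+1)`. -/
theorem Chain.tw_comm {s : ℕ → Γ} {n : ℕ} (hs : Chain s n) {q i : ℕ} (hq : q ≤ n) (hi : i < q) :
    Commute (s i) (tw s q) := by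
  induction q with
  | zero => omega
  | succ q ih =>
    rcases Nat.lt_succ_iff_lt_or_eq.1 hi with h | rfl
    · exact (ih (by omega) h).mul_right (hs.jm_hi (by omega) hq)
    · have hc : s i * jm s i * s i * jm s i = jm s i * (s i * jm s i * s i) :=
        (hs.jm_jm i.lt_succ_self hq).eq
      have h2 : Commute (s i) (jm s i * jm s (i + 1)) := by
        show s i * (jm s i * (s i * jm s i * s i)) = jm s i * (s i * jm s i * s i) * s i
        rw [← hc]
        conv_lhs => rw [hc]
        simp only [mul_assoc]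
      cases i with
      | zero => simpa [tw, jm] using h2
      | succ p =>
        have h3 : Commute (s (p + 1)) (tw s p) :=
          commute_tw fun k hk => (hs.comm k (p + 1) (by omega) (by omega)).symm
        show Commute _ (tw s p * jm s (p + 1) * jm s (p + 1 + 1))
        rw [mul_assoc]
        exact h3.mul_right h2

theorem gramb_conj {a b : Γ} (h : Br a b) : a * b * a * (a * b)⁻¹ = b := by
  have h' : a * b * a = b * a * b := h
  rw [h', mul_assoc b, mul_inv_cancel_right]

theorem gramb_one (hl : IsSL l) (z : Γ) : ip l 1 z = 0 := by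
  have h := hl.zpow 1 0
  simp only [zpow_zero, Int.cast_zero, abs_zero, zero_mul] at h
  simp [ip, h]

theorem gramb_step (hl : IsSL l) {a b z : Γ} (h : Br a b) (ha : Commute a z) (hb : Commute b z) :
    ip l b z = ip l a z := by
  rw [← hl.ip_conj_left (h := a) (ha.mul_left hb), gramb_conj h]

theorem Chain.shift {s : ℕ → Γ} {n : ℕ} (hs : Chain s n) (k m : ℕ) (h : m + k ≤ n) :
    Chain (fun i => s (i + k)) m :=
  ⟨fun i j h1 h2 => hs.comm _ _ (by omega) (by omega), fun i h1 => by
    have := hs.br (i + k) (by omega)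
    rwa [show i + k + 1 = i + 1 + k by omega] at this⟩

/-- `ip · z` on the twists, for `z` commuting with the generators -/
theorem gramb_key (hl : IsSL l) {s : ℕ → Γ} {n q : ℕ} (hs : Chain s n) (hq : q ≤ n) {z : Γ}
    (hz : ∀ i < q, Commute (s i) z) :
    Commute (tw s q) z ∧ ip l (tw s q) z = q * (q + 1) * ip l (s 0) z := by
  have h1 : ∀ i < q, ip l (s i) z = ip l (s 0) z := by
    intro i
    induction i with
    | zero => exact fun _ => rfl
    | succ i ih =>
      intro hi
      rw [gramb_step hl (hs.br i (by omega)) (hz i (by omega)) (hz _ hi), ih (by omega)]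
  have h2 : ∀ j ≤ q, Commute (jm s j) z ∧ ip l (jm s j) z = 2 * j * ip l (s 0) z := by
    intro j
    induction j with
    | zero => exact fun _ => ⟨Commute.one_left z, by simp [jm, gramb_one hl]⟩
    | succ j ih =>
      intro hj
      obtain ⟨a1, a2⟩ := ih (by omega)
      have a3 := hz j hj
      refine ⟨(a3.mul_left a1).mul_left a3, ?_⟩
      rw [jm, hl.add _ _ _ (a3.mul_left a1) a3, hl.add _ _ _ a3 a1, a2, h1 j hj]
      push_cast; ring
  have h3 : ∀ j ≤ q, Commute (tw s j) z ∧ ip l (tw s j) z = j * (j + 1) * ip l (s 0) z := by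
    intro j
    induction j with
    | zero => exact fun _ => ⟨Commute.one_left z, by simp [tw, gramb_one hl]⟩
    | succ j ih =>
      intro hj
      obtain ⟨a1, a2⟩ := ih (by omega)
      obtain ⟨b1, b2⟩ := h2 (j + 1) hj
      refine ⟨a1.mul_left b1, ?_⟩
      rw [tw, hl.add _ _ _ a1 b1, a2, b2]
      push_cast; ring
  exact h3 q le_rfl

theorem gramb_sq (hl : IsSL l) {s : ℕ → Γ} {n q : ℕ} (hs : Chain s n) (hq : q ≤ n) :
    l (tw s q) ^ 2 = q * (q + 1) * ip l (s 0) (tw s q) := by
  rw [← hl.ip_self, (gramb_key hl hs hq fun i hi => hs.tw_comm hq hi).2]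

/-- all far pairs have the same inner product -/
theorem gramb_far (hl : IsSL l) {s : ℕ → Γ} {n : ℕ} (hs : Chain s n) (i j : ℕ) (h1 : i + 2 ≤ j) (h2 : j < n) :
    ip l (s i) (s j) = ip l (s 0) (s 2) := by
  have a1 : ∀ i, i + 2 ≤ j → ip l (s i) (s j) = ip l (s 0) (s j) := by
    intro i
    induction i with
    | zero => exact fun _ => rfl
    | succ i ih =>
      intro hi
      rw [gramb_step hl (hs.br i (by omega)) (hs.comm _ _ (by omega) h2) (hs.comm _ _ hi h2), ih (by omega)]
  have a2 : ∀ k, k + 2 < n → ip l (s (k + 2)) (s 0) = ip l (s 2) (s 0) := by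
    intro k
    induction k with
    | zero => exact fun _ => rfl
    | succ k ih =>
      intro hk
      rw [← ih (by omega)]
      exact gramb_step hl (hs.br (k + 2) (by omega)) (hs.comm _ _ (by omega) (by omega)).symm
        (hs.comm _ _ (by omega) (by omega)).symm
  obtain ⟨k, rfl⟩ : ∃ k, j = k + 2 := ⟨j - 2, by omega⟩
  rw [a1 i h1, ip_comm l (hs.comm 0 _ (by omega) h2), a2 k h2, ip_comm l (hs.comm 0 2 le_rfl (by omega))]

/-- the formula for `A (q + 2)` -/
theorem gramb_A (hl : IsSL l) {s : ℕ → Γ} {n : ℕ} (hs : Chain s n) (q : ℕ) (hq : q + 2 ≤ n) :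
    ip l (s 0) (tw s (q + 2)) =
      2 * l (s 0) ^ 2 + (q + 1) * ip l (s 0) (jm s 2) + (q + 1) * q * ip l (s 0) (s 2) := by
  have c1 : ∀ j, j + 2 ≤ n → Commute (s 0) (jm s (j + 2)) := by
    intro j hj
    have e : jm s (j + 2) = (tw s (j + 1))⁻¹ * tw s (j + 2) := (inv_mul_cancel_left (tw s (j + 1)) _).symm
    rw [e]
    exact (hs.tw_comm (by omega) (by omega)).inv_right.mul_right (hs.tw_comm hj (by omega))
  have c2 : ∀ j, j + 2 ≤ n → ip l (s 0) (jm s (j + 2)) = ip l (s 0) (jm s 2) + 2 * j * ip l (s 0) (s 2) := by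
    intro j
    induction j with
    | zero => intro _; simp
    | succ j ih =>
      intro hj
      have a1 := hs.comm 0 (j + 2) (by omega) (by omega)
      have a2 := c1 j (by omega)
      change ip l (s 0) (s (j + 2) * jm s (j + 2) * s (j + 2)) = _
      rw [hl.add_right (a1.mul_right a2) a1, hl.add_right a1 a2, ih (by omega),
        gramb_far hl hs 0 (j + 2) (by omega) (by omega)]
      push_cast; ring
  have c3 : ip l (s 0) (tw s 1) = 2 * l (s 0) ^ 2 := by
    have e : tw s 1 = s 0 * s 0 := by simp [tw, jm]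
    rw [e, hl.add_right (Commute.refl _) (Commute.refl _), hl.ip_self]; ring
  induction q with
  | zero =>
    change ip l (s 0) (tw s 1 * jm s 2) = _
    rw [hl.add_right (hs.tw_comm (by omega) (by omega)) (c1 0 hq), c3]
    simp
  | succ q ih =>
    change ip l (s 0) (tw s (q + 2) * jm s (q + 1 + 2)) = _
    rw [hl.add_right (hs.tw_comm (by omega) (by omega)) (c1 _ hq), ih (by omega), c2 _ hq]
    push_cast; ring

theorem gramb_mu (hl : IsSL l) {a b c : Γ} (h1 : Br a b) (h2 : Br b c) (h3 : Commute a c) :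
    ip l b (c * (b * 1 * b) * c) = ip l a (b * (a * 1 * a) * b) := by
  have e1 : a * b * c * a * (a * b * c)⁻¹ = b := by
    have h' : a * b * a = b * a * b := h1
    rw [mul_inv_eq_iff_eq_mul, mul_assoc (a * b), ← h3.eq, ← mul_assoc, h']
    simp only [mul_assoc]
  have e2 : a * b * c * b * (a * b * c)⁻¹ = c := by
    have h' : b * c * b = c * b * c := h2
    rw [mul_inv_eq_iff_eq_mul, show a * b * c * b = a * (b * c * b) by simp only [mul_assoc], h',
      ← mul_assoc, ← mul_assoc, h3.eq]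
    simp only [mul_assoc]
  rw [← hl.ip_conj (a * b * c) a, e1]
  congr 1
  generalize a * b * c = g at e1 e2
  rw [← e2]
  nth_rewrite 2 3 [← e1]
  group

theorem gramb_chi {s : ℕ → Γ} {n : ℕ} (χ : Γ →* Multiplicative ℤ) (hχ : ∀ i < n, χ (s i) = Multiplicative.ofAdd 1) :
    χ (tw s n) = Multiplicative.ofAdd ((n : ℤ) * (n + 1)) := by
  have h2 : ∀ j ≤ n, χ (jm s j) = Multiplicative.ofAdd (2 * (j : ℤ)) := by
    intro j
    induction j with
    | zero => intro _; simp [jm]
    | succ j ih =>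
      intro hj
      rw [jm, map_mul, map_mul, ih (by omega), hχ j hj, ← ofAdd_add, ← ofAdd_add]
      congr 1; push_cast; ring
  have h3 : ∀ j ≤ n, χ (tw s j) = Multiplicative.ofAdd ((j : ℤ) * (j + 1)) := by
    intro j
    induction j with
    | zero => intro _; simp [tw]
    | succ j ih =>
      intro hj
      rw [tw, map_mul, ih (by omega), h2 _ hj, ← ofAdd_add]
      congr 1; push_cast; ring
  exact h3 n le_rfl

/-- GRAM b.  With `λ = l (s 0)`, `w = ip (s 0) (s 2)`, `μ = ip (s 0) (jm s 2)`, `A q = ip (s 0) (tw s q)`: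
`A q = 2λ² + (q-1) μ + (q-1)(q-2) w` for `q ≥ 1` (`ip (s 0) (jm s j) = μ + 2 (j-2) w`, all far pairs have
`ip = w` by `ip_conj_left`), `l (tw s q)² = q (q+1) A q` (`ip · (tw s q)` is additive on the centraliser and
takes the value `A q` on every `s i`).  For `u = tw s 4`, `u' = tw (s (· + 5)) 4`: `l u' = l u`
(`μ` is shift invariant: conjugate by `s i * s (i+1) * s (i+2)`), `ip u u' = 400 w`, `0 ≤ l (u u'⁻¹)²`, so
`20 w ≤ A 4`.  `0 < l (tw s 9)` (its `χ` is `90`) gives `0 < A 9 = 2λ² + 8μ + 56 w ≤ 10 λ² + 20 μ`.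
Finally `tw s 2 = (s 0 * s 1)³`, `A 2 = 2λ² + μ > 3λ²/2`. -/
theorem gram (hl : IsSL l) {s : ℕ → Γ} (hs : Chain s 9) (χ : Γ →* Multiplicative ℤ)
    (hχ : ∀ i < 9, χ (s i) = Multiplicative.ofAdd 1) (hpos : ∀ g, χ g ≠ 1 → 0 < l g) :
    3 / 2 * l (s 0) ^ 2 < ip l (s 0) ((s 0 * s 1) ^ 3) := by
  have hs' := hs.shift 5 4 le_rfl
  have hL : ∀ i < 9, l (s i) = l (s 0) := by
    intro i
    induction i with
    | zero => exact fun _ => rfl
    | succ i ih => intro hi; rw [hl.br_l (hs.br i hi), ih (by omega)]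
  have hM : ∀ i ≤ 5, ip l (s i) (s (i + 1) * (s i * 1 * s i) * s (i + 1)) = ip l (s 0) (jm s 2) := by
    intro i
    induction i with
    | zero => exact fun _ => rfl
    | succ i ih =>
      intro hi
      rw [gramb_mu hl (hs.br i (by omega)) (hs.br (i + 1) (by omega)) (hs.comm i _ le_rfl (by omega)), ih (by omega)]
  have A2 := gramb_A hl hs 0 (by norm_num)
  have A4 := gramb_A hl hs 2 (by norm_num)
  have A9 := gramb_A hl hs 7 (by norm_num)
  have A4' := gramb_A hl hs' 2 (by norm_num)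
  have e1 : ip l (s 5) (jm (fun i => s (i + 5)) 2) = ip l (s 0) (jm s 2) := hM 5 le_rfl
  have e2 := gramb_far hl hs 5 7 le_rfl (by norm_num)
  have Q4 := gramb_sq hl hs (q := 4) (by norm_num)
  have Q4' := gramb_sq hl hs' (q := 4) le_rfl
  have Q9 := gramb_sq hl hs (q := 9) le_rfl
  have K1 : ∀ i < 4, Commute (tw (fun i => s (i + 5)) 4) (s i) ∧
      ip l (tw (fun i => s (i + 5)) 4) (s i) = ((4 : ℕ) : ℝ) * (((4 : ℕ) : ℝ) + 1) * ip l (s (0 + 5)) (s i) :=
    fun i hi => gramb_key hl hs' le_rfl fun j hj => (hs.comm i (j + 5) (by omega) (by omega)).symm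
  obtain ⟨K2, K3⟩ := gramb_key hl hs (q := 4) (by norm_num) fun i hi => (K1 i hi).1.symm
  rw [ip_comm l (K1 0 (by norm_num)).1.symm, (K1 0 (by norm_num)).2,
    ← ip_comm l (hs.comm 0 (0 + 5) (by norm_num) (by norm_num)),
    gramb_far hl hs 0 (0 + 5) (by norm_num) (by norm_num)] at K3
  have S := hl.sq_zpow K2 1 (-1)
  have P := hpos (tw s 9) (by rw [gramb_chi χ hχ]; decide)
  have T : tw s 2 = (s 0 * s 1) ^ 3 := by
    have h' : s 0 * s 1 * s 0 = s 1 * s 0 * s 1 := hs.br 0 (by norm_num)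
    calc tw s 2 = s 0 * (s 0 * s 1 * s 0) * s 0 * s 1 := by simp [tw, jm, mul_assoc]
      _ = (s 0 * s 1) ^ 3 := by rw [h']; simp [pow_succ, mul_assoc]
  rw [← T]
  simp only [zero_add, Nat.reduceAdd, hL 5 (by norm_num), e1, e2] at A2 A4 A9 A4' Q4'
  rw [A4'] at Q4'
  rw [A4] at Q4
  rw [A9] at Q9
  rw [Q4, Q4', K3] at S
  push_cast at *
  linarith [pow_pos P 2, sq_nonneg (l (tw s 4 ^ (1 : ℤ) * tw (fun i => s (i + 5)) 4 ^ (-1 : ℤ)))]

end Crest.Agent.R175B
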