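import Crest.Agent.R175.B.Defs

/-! # Row 175 / S0264: block IP, algebra of the inner product (route: `notes175/S0264.md`) -/

set_option autoImplicit false

namespace Crest.Agent.R175B

variable {Γ : Type*} [Group Γ] {l : Γ → ℝ}

theorem ip_comm (l : Γ → ℝ) {h z : Γ} (hc : Commute h z) : ip l h z = ip l z h := by
  unfold ip
  rw [hc.eq]
  ring

theorem IsSL.ip_self (hl : IsSL l) (z : Γ) : ip l z z = l z ^ 2 := by
  have h := hl.zpow z 2
  rw [zpow_two] at h
  unfold ip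
  rw [h]
  norm_num
  ring

theorem IsSL.ip_conj (hl : IsSL l) (g h z : Γ) : ip l (g * h * g⁻¹) (g * z * g⁻¹) = ip l h z := by
  unfold ip
  rw [show g * h * g⁻¹ * (g * z * g⁻¹) = g * (h * z) * g⁻¹ by group, hl.conj, hl.conj, hl.conj]

theorem IsSL.add_right (hl : IsSL l) {h z z' : Γ} (hc : Commute h z) (hc' : Commute h z') :
    ip l h (z * z') = ip l h z + ip l h z' := by
  rw [ip_comm l (hc.mul_right hc'), hl.add h z z' hc.symm hc'.symm, ip_comm l hc, ip_comm l hc']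

theorem IsSL.ip_zpow_left (hl : IsSL l) {h z : Γ} (hc : Commute h z) (m : ℤ) :
    ip l (h ^ m) z = m * ip l h z := by
  have h1 : ip l 1 z = 0 := by
    have := hl.add z 1 1 (Commute.one_left z) (Commute.one_left z)
    rw [mul_one] at this
    linarith
  have h2 : ip l h⁻¹ z = -ip l h z := by
    have := hl.add z h h⁻¹ hc hc.inv_left
    rw [mul_inv_cancel, h1] at this
    linarith
  induction m using Int.induction_on with
  | zero => simpa using h1
  | succ k ih =>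
    rw [zpow_add_one, hl.add z _ _ (hc.zpow_left _) hc, ih]
    push_cast
    ring
  | pred k ih =>
    rw [zpow_sub_one, hl.add z _ _ (hc.zpow_left _) hc.inv_left, ih, h2]
    push_cast
    ring

theorem IsSL.ip_zpow_right (hl : IsSL l) {h z : Γ} (hc : Commute h z) (n : ℤ) :
    ip l h (z ^ n) = n * ip l h z := by
  rw [ip_comm l (hc.zpow_right n), hl.ip_zpow_left hc.symm, ip_comm l hc]

/-- Conjugation inside the centraliser of `z` does not change `ip · z`. -/
theorem IsSL.ip_conj_left (hl : IsSL l) {g h z : Γ} (hg : Commute g z) :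
    ip l (g * h * g⁻¹) z = ip l h z := by
  have e : g * z * g⁻¹ = z := by rw [hg.eq, mul_inv_cancel_right]
  have := hl.ip_conj g h z
  rwa [e] at this

/-- The quadratic form on a commuting pair. -/
theorem IsSL.sq_zpow (hl : IsSL l) {h z : Γ} (hc : Commute h z) (m n : ℤ) :
    l (h ^ m * z ^ n) ^ 2 = (m : ℝ) ^ 2 * l h ^ 2 + 2 * m * n * ip l h z + (n : ℝ) ^ 2 * l z ^ 2 := by
  have h1 := hl.ip_zpow_left (hc.zpow_right n) m
  rw [hl.ip_zpow_right hc] at h1
  have h2 : l (h ^ m) ^ 2 = (m : ℝ) ^ 2 * l h ^ 2 := by rw [hl.zpow, mul_pow, sq_abs]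
  have h3 : l (z ^ n) ^ 2 = (n : ℝ) ^ 2 * l z ^ 2 := by rw [hl.zpow, mul_pow, sq_abs]
  have h4 : ip l (h ^ m) (z ^ n) = (l (h ^ m * z ^ n) ^ 2 - l (h ^ m) ^ 2 - l (z ^ n) ^ 2) / 2 := rfl
  rw [h2, h3] at h4
  linarith

theorem ip_br_conj {a b : Γ} (h : Br a b) : a * b * a * (a * b)⁻¹ = b := by
  have h' : a * b * a = b * a * b := h
  rw [h']
  group

theorem IsSL.br_l (hl : IsSL l) {a b : Γ} (h : Br a b) : l b = l a := by
  rw [← ip_br_conj h, hl.conj]

theorem IsSL.br_ip (hl : IsSL l) {a b : Γ} (h : Br a b) :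
    ip l b ((a * b) ^ 3) = ip l a ((a * b) ^ 3) := by
  have := hl.ip_conj_left (g := a * b) (h := a) (h.comm_left.mul_left h.comm_right)
  rwa [ip_br_conj h] at this

theorem IsSL.br_z (hl : IsSL l) {a b : Γ} (h : Br a b) :
    l ((a * b) ^ 3) ^ 2 = 6 * ip l a ((a * b) ^ 3) := by
  have hc : Commute (a * b) ((a * b) ^ 3) := h.comm_left.mul_left h.comm_right
  have h1 := hl.ip_zpow_left hc 3
  rw [show (3 : ℤ) = ((3 : ℕ) : ℤ) from rfl, zpow_natCast, hl.ip_self,
    hl.add _ _ _ h.comm_left h.comm_right, hl.br_ip h] at h1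
  rw [h1]
  push_cast
  ring

/-- `l(a⁻⁶ z)² = 36 λ² - 6 A₃`, so `A₃ < 6 λ²` when `a⁻⁶ z` has positive length. -/
theorem IsSL.br_lt (hl : IsSL l) {a b : Γ} (h : Br a b)
    (hpos : 0 < l (a ^ (-6 : ℤ) * (a * b) ^ 3)) : ip l a ((a * b) ^ 3) < 6 * l a ^ 2 := by
  have h1 := hl.sq_zpow h.comm_left (-6) 1
  rw [zpow_one, hl.br_z h] at h1
  have h2 := pow_pos hpos 2
  push_cast at h1
  linarith

end Crest.Agent.R175B
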