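import Crest.Agent.R175.B.Defs

/-! # Row 175 / S0264: block G3, separation from a side function (route: `notes175/S0264.md`) -/

set_option autoImplicit false

namespace Crest.Agent.R175B

/-- G3a. Take the first `j` with `side (π h_j)`, `¬ side (π h_{j+1})`; `π h_j` lies in the finite union `W` over
`φ ∈ π (F ∩ H)`; choose one preimage `f_w ∈ H` for each `w ∈ W ∩ range π`; `h_j f_w⁻¹ ∈ ker π ⊆ ⟨c⟩`. -/
theorem sep_of_fun {Γ Λ : Type*} [Group Γ] [Group Λ] (H : Subgroup Γ) (π : H →* Λ) (side : Λ → Prop)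
    (hfin : ∀ φ : Λ, {w | side w ∧ ¬ side (w * φ)}.Finite) {c : Γ}
    (hker : ∀ h : H, π h = 1 → (h : Γ) ∈ Subgroup.zpowers c) (u v : H)
    (hu : ∀ m : ℕ, 1 ≤ m → side (π u ^ m)) (hv : ∀ n : ℕ, 1 ≤ n → ¬ side (π v ^ n)) :
    Sep H u v c := by
  classical
  intro F hF
  have hFH : {x : H | (x : Γ) ∈ F}.Finite := hF.preimage Subtype.val_injective.injOn
  have hW : (⋃ x ∈ {x : H | (x : Γ) ∈ F}, {w | side w ∧ ¬ side (w * π x)}).Finite :=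
    hFH.biUnion fun x _ => hfin _
  refine ⟨(fun w => ((Function.invFun π w : H) : Γ)) '' _, hW.image _, fun N h hH h0 hN hstep => ?_⟩
  obtain ⟨m, hm, h0⟩ := h0
  obtain ⟨n, hn, hN⟩ := hN
  have hex : ∃ j, ∃ hj : j < N, side (π ⟨h j, hH j hj.le⟩) ∧ ¬ side (π ⟨h (j + 1), hH (j + 1) hj⟩) := by
    by_contra hcon
    have hall : ∀ j, ∀ hj : j ≤ N, side (π ⟨h j, hH j hj⟩) := by
      intro j
      induction j with
      | zero =>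
        intro hj
        have : (⟨h 0, hH 0 hj⟩ : H) = u ^ m := Subtype.ext (by simpa using h0)
        rw [this, map_pow]
        exact hu m hm
      | succ j ih =>
        intro hj
        by_contra h'
        exact hcon ⟨j, hj, ih (Nat.le_of_succ_le hj), h'⟩
    have h1 := hall N le_rfl
    have : (⟨h N, hH N le_rfl⟩ : H) = v ^ n := Subtype.ext (by simpa using hN)
    rw [this, map_pow] at h1
    exact hv n hn h1
  obtain ⟨j, hj, h1, h2⟩ := hex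
  set x : H := ⟨h j, hH j hj.le⟩ with hx
  set y : H := ⟨h (j + 1), hH (j + 1) hj⟩ with hy
  have h3 : π (Function.invFun π (π x)) = π x := Function.invFun_eq ⟨x, rfl⟩
  obtain ⟨k, hk⟩ := Subgroup.mem_zpowers_iff.1 (hker (x * (Function.invFun π (π x))⁻¹) (by
    rw [map_mul, map_inv, h3, mul_inv_cancel]))
  refine ⟨j, hj.le, k, _, ⟨π x, Set.mem_biUnion (x := x⁻¹ * y) (hstep j hj) ⟨h1, ?_⟩, rfl⟩, ?_⟩
  · rwa [← map_mul, mul_inv_cancel_left]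
  · rw [hk]
    simp [hx]

theorem sepF_one_le {A B P : ℤ} (hA : 0 ≤ A) (h : A * B = P ^ 2 + 4) : 1 ≤ A := by
  by_contra h'
  have : A = 0 := by omega
  rw [this, zero_mul] at h
  linarith [sq_nonneg P]

theorem sepF_le {A B M : ℤ} (hA : 0 ≤ A) (hB : 1 ≤ B) (h : A * B ≤ M) : A ≤ M :=
  (le_mul_of_one_le_right hA hB).trans h

theorem sepF_bound {a b c d p q r s : ℤ} (hw : a * d - b * c = 1) (hφ : p * s - q * r = 1)
    (h1 : c ^ 2 + d ^ 2 ≤ a ^ 2 + b ^ 2)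
    (h2 : (a * p + b * r) ^ 2 + (a * q + b * s) ^ 2 < (c * p + d * r) ^ 2 + (c * q + d * s) ^ 2) :
    a ^ 2 + b ^ 2 + c ^ 2 + d ^ 2 ≤ (p ^ 2 + q ^ 2 + r ^ 2 + s ^ 2) ^ 4 + 4 := by
  obtain ⟨C, hC⟩ : ∃ C, C = p ^ 2 + q ^ 2 + r ^ 2 + s ^ 2 := ⟨_, rfl⟩
  obtain ⟨x, hx⟩ : ∃ x, x = a - c := ⟨_, rfl⟩
  obtain ⟨y, hy⟩ : ∃ y, y = b - d := ⟨_, rfl⟩
  obtain ⟨u, hu⟩ : ∃ u, u = a + c := ⟨_, rfl⟩
  obtain ⟨v, hv⟩ : ∃ v, v = b + d := ⟨_, rfl⟩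
  have hdet : x * v - y * u = 2 := by rw [hx, hy, hu, hv]; linear_combination 2 * hw
  obtain ⟨P, hP⟩ : ∃ P, P = x * u + y * v := ⟨_, rfl⟩
  have hP0 : 0 ≤ P := by
    have : P = (a ^ 2 + b ^ 2) - (c ^ 2 + d ^ 2) := by rw [hP, hx, hy, hu, hv]; ring
    rw [this]
    exact sub_nonneg.2 h1
  obtain ⟨X, hX⟩ : ∃ X, X = x * p + y * r := ⟨_, rfl⟩
  obtain ⟨Y, hY⟩ : ∃ Y, Y = x * q + y * s := ⟨_, rfl⟩
  obtain ⟨X', hX'⟩ : ∃ X', X' = -y * p + x * r := ⟨_, rfl⟩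
  obtain ⟨Y', hY'⟩ : ∃ Y', Y' = -y * q + x * s := ⟨_, rfl⟩
  have hneg : X * (u * p + v * r) + Y * (u * q + v * s) < 0 := by
    have : X * (u * p + v * r) + Y * (u * q + v * s) =
        ((a * p + b * r) ^ 2 + (a * q + b * s) ^ 2) - ((c * p + d * r) ^ 2 + (c * q + d * s) ^ 2) := by
      rw [hX, hY, hx, hy, hu, hv]; ring
    rw [this]
    exact sub_neg.2 h2
  have e1 : (x ^ 2 + y ^ 2) * (X * (u * p + v * r) + Y * (u * q + v * s)) =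
      P * (X ^ 2 + Y ^ 2) + 2 * (X * X' + Y * Y') := by
    rw [hP, hX', hY']
    linear_combination (X * (-y * p + x * r) + Y * (-y * q + x * s)) * hdet - (x * u + y * v) * X * hX -
      (x * u + y * v) * Y * hY
  have e2 : X ^ 2 + Y ^ 2 + X' ^ 2 + Y' ^ 2 = C * (x ^ 2 + y ^ 2) := by rw [hX, hY, hX', hY', hC]; ring
  have ex : x = X * s - Y * r := by rw [hX, hY]; linear_combination (-x) * hφ
  have ey : y = -X * q + Y * p := by rw [hX, hY]; linear_combination (-y) * hφ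
  have e3 : x ^ 2 + y ^ 2 ≤ C * (X ^ 2 + Y ^ 2) := by
    have : C * (X ^ 2 + Y ^ 2) - ((X * s - Y * r) ^ 2 + (-X * q + Y * p) ^ 2) =
        (X * r + Y * s) ^ 2 + (X * p + Y * q) ^ 2 := by rw [hC]; ring
    rw [← ex, ← ey] at this
    exact sub_nonneg.1 (this ▸ add_nonneg (sq_nonneg _) (sq_nonneg _))
  have e4 : (x ^ 2 + y ^ 2) * (u ^ 2 + v ^ 2) = P ^ 2 + 4 := by
    rw [hP]; linear_combination (x * v - y * u + 2) * hdet
  have hC0 : 0 ≤ C := by rw [hC]; positivity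
  have hδ0 : 0 ≤ x ^ 2 + y ^ 2 := by positivity
  have hσ0 : 0 ≤ u ^ 2 + v ^ 2 := by positivity
  have hδ : 1 ≤ x ^ 2 + y ^ 2 := sepF_one_le hδ0 e4
  have hσ : 1 ≤ u ^ 2 + v ^ 2 := sepF_one_le hσ0 ((mul_comm _ _).trans e4)
  have e5 : P * (X ^ 2 + Y ^ 2) < C ^ 2 * (X ^ 2 + Y ^ 2) := by
    have f1 : (x ^ 2 + y ^ 2) * (X * (u * p + v * r) + Y * (u * q + v * s)) < 0 :=
      mul_neg_of_pos_of_neg (lt_of_lt_of_le one_pos hδ) hneg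
    have f2 : C * (x ^ 2 + y ^ 2) + 2 * (X * X' + Y * Y') = (X + X') ^ 2 + (Y + Y') ^ 2 := by rw [← e2]; ring
    have f3 : C * (x ^ 2 + y ^ 2) ≤ C ^ 2 * (X ^ 2 + Y ^ 2) :=
      (mul_le_mul_of_nonneg_left e3 hC0).trans (le_of_eq (by ring))
    have f4 : 0 ≤ (X + X') ^ 2 + (Y + Y') ^ 2 := add_nonneg (sq_nonneg _) (sq_nonneg _)
    rw [e1] at f1
    rw [← f2] at f4
    generalize P * (X ^ 2 + Y ^ 2) = t1 at *
    generalize C ^ 2 * (X ^ 2 + Y ^ 2) = t2 at *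
    generalize C * (x ^ 2 + y ^ 2) = t3 at *
    generalize X * X' + Y * Y' = t4 at *
    omega
  have e6 : P < C ^ 2 := lt_of_mul_lt_mul_right e5 (by positivity)
  have e7 : P ^ 2 + 4 ≤ C ^ 4 + 4 := by
    have := pow_le_pow_left₀ hP0 e6.le 2
    rw [← pow_mul] at this
    exact add_le_add this le_rfl
  have e8 : x ^ 2 + y ^ 2 ≤ C ^ 4 + 4 := sepF_le hδ0 hσ (e4.le.trans e7)
  have e9 : u ^ 2 + v ^ 2 ≤ C ^ 4 + 4 := sepF_le hσ0 hδ (((mul_comm _ _).trans e4).le.trans e7)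
  have e10 : x ^ 2 + y ^ 2 + (u ^ 2 + v ^ 2) = 2 * (a ^ 2 + b ^ 2 + c ^ 2 + d ^ 2) := by
    rw [hx, hy, hu, hv]; ring
  rw [← hC]
  have e11 := add_le_add e8 e9
  rw [e10, ← two_mul] at e11
  exact le_of_mul_le_mul_left e11 two_pos

theorem sepF_Icc {z M : ℤ} (h : z ^ 2 ≤ M) : z ∈ Set.Icc (-M) M := by
  have h1 : |z| ≤ z ^ 2 := by
    rw [← sq_abs]
    exact Int.le_self_sq _
  exact abs_le.1 (h1.trans h)

/-- G3b. Rows `r₀, r₁` of `w`; `δ = r₀ - r₁`, `σ = r₀ + r₁`: `det(δ,σ) = 2`, `δ·σ ≥ 0`, `(δφ)·(σφ) < 0`.  With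
`δ' = (-δ₁, δ₀)`: `|δ|² σ = (δ·σ) δ + 2 δ'`, so `|δ|² (δφ·σφ) = (δ·σ)|δφ|² + 2 (δφ·δ'φ)`; with `C = ∑ φ_{ij}²`:
`|δφ·δ'φ| ≤ C |δ|²` and `|δ|² ≤ C |δφ|²` (`det φ = 1`), hence `δ·σ ≤ 2C²`, `|δ|²|σ|² = (δ·σ)² + 4 ≤ 4C⁴ + 4`, and
`|δ|², |σ|² ≥ 1`: all entries of `w` are bounded. -/
theorem sideM_finite (φ : Matrix.SpecialLinearGroup (Fin 2) ℤ) :
    {w | sideM w ∧ ¬ sideM (w * φ)}.Finite := by
  set M : ℤ := (φ 0 0 ^ 2 + φ 0 1 ^ 2 + φ 1 0 ^ 2 + φ 1 1 ^ 2) ^ 4 + 4 with hM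
  have hfin : {A : Fin 2 → Fin 2 → ℤ | ∀ i, A i ∈ {B : Fin 2 → ℤ | ∀ j, B j ∈ Set.Icc (-M) M}}.Finite :=
    Set.Finite.pi' fun i => Set.Finite.pi' fun j => Set.finite_Icc _ _
  refine (hfin.preimage (f := fun w : Matrix.SpecialLinearGroup (Fin 2) ℤ => (w.1 : Fin 2 → Fin 2 → ℤ))
    Subtype.val_injective.injOn).subset fun w hw => ?_
  have hd := w.det_coe
  have hd' := φ.det_coe
  rw [Matrix.det_fin_two] at hd hd'
  obtain ⟨h1, h2⟩ := hw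
  simp only [sideM, Matrix.SpecialLinearGroup.coe_mul, Matrix.mul_apply, Fin.sum_univ_two, not_le] at h1 h2
  have h3 := sepF_bound hd hd' h1 h2
  rw [← hM] at h3
  have g0 := sq_nonneg (w.1 0 0)
  have g1 := sq_nonneg (w.1 0 1)
  have g2 := sq_nonneg (w.1 1 0)
  have g3 := sq_nonneg (w.1 1 1)
  have k0 : w.1 0 0 ∈ Set.Icc (-M) M := sepF_Icc (by linarith)
  have k1 : w.1 0 1 ∈ Set.Icc (-M) M := sepF_Icc (by linarith)
  have k2 : w.1 1 0 ∈ Set.Icc (-M) M := sepF_Icc (by linarith)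
  have k3 : w.1 1 1 ∈ Set.Icc (-M) M := sepF_Icc (by linarith)
  intro i j
  fin_cases i <;> fin_cases j <;> assumption

end Crest.Agent.R175B
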