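import Crest.Agent.R175.B.Psi
import Crest.Agent.R175.B.Braid3

/-! # Row 175 / S0264: block G7, the centraliser of a vertex (route: `notes175/S0264.md`) -/

set_option autoImplicit false

namespace Crest.Agent.R175B
open SemidirectProduct

theorem vert_comm {w : F3} (h : art1 w = w) : Commute (yy 0) (inl w : G0) := by
  have h1 : (inl (act s1 w) : G0) = inr s1 * inl w * inr s1⁻¹ := inl_aut s1 w
  rw [act_s1, h, map_inv, eq_mul_inv_iff_mul_eq] at h1
  exact h1.symm

/-- the normal form in the centraliser -/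
def VertR (h : G0) (w : F3) : Prop := art1 w = w ∧ ∃ i j : ℤ, h = inl w * yy 0 ^ i * zeta ^ j

theorem vert_ex {h : G0} (hh : h ∈ Subgroup.centralizer ({yy 0} : Set G0)) : ∃ w, VertR h w := by
  have h1 : inr s1 * h = h * inr s1 := Subgroup.mem_centralizer_iff.1 hh (yy 0) rfl
  have h2 : art1 h.left = h.left := by simpa using congrArg SemidirectProduct.left h1
  have h3 : s1 * h.right = h.right * s1 := by simpa using congrArg SemidirectProduct.right h1
  obtain ⟨i, j, hij⟩ := cent_s1 (β := h.right) h3.symm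
  refine ⟨h.left * del ^ j, by rw [map_mul, map_zpow, h2, art1_del], i, j, ?_⟩
  have hc : Commute (yy 0 ^ i) ((inl del : G0) ^ j) := (vert_comm art1_del).zpow_zpow i j
  calc h = inl h.left * inr h.right := (inl_left_mul_inr_right h).symm
    _ = inl h.left * (yy 0 ^ i * (inl del ^ j * zeta ^ j)) := by
        rw [hij, map_mul, map_zpow, map_zpow, inr_zz, (zeta_central _).mul_zpow]; rfl
    _ = _ := by rw [← mul_assoc (yy 0 ^ i), hc.eq, map_mul, map_zpow]; simp only [mul_assoc]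

theorem vert_uniq {h : G0} {w w' : F3} (h1 : VertR h w) (h2 : VertR h w') : w = w' := by
  obtain ⟨-, i, j, e⟩ := h1
  obtain ⟨-, i', j', e'⟩ := h2
  have e1 := e.symm.trans e'
  have e2 : s1 ^ i * zz ^ j = s1 ^ i' * zz ^ j' := by
    have a1 : rightHom (yy 0) = s1 := rightHom_inr s1
    have a2 : rightHom zeta = zz := by rw [zeta, map_mul, rightHom_inl, rightHom_inr, one_mul]
    have := congrArg rightHom e1
    simpa only [map_mul, map_zpow, rightHom_inl, one_mul, a1, a2] using this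
  have e3 : s1 ^ (i - i') * zz ^ (j - j') = 1 := by
    calc s1 ^ (i - i') * zz ^ (j - j') = s1 ^ (-i') * (s1 ^ i * zz ^ j) * zz ^ (-j') := by group
      _ = 1 := by rw [e2]; group
  obtain ⟨hi, hj⟩ := s1_zz_indep e3
  obtain rfl : i = i' := by omega
  obtain rfl : j = j' := by omega
  exact inl_injective (mul_right_cancel (mul_right_cancel e1))

theorem vert_mul {h h' : G0} {w w' : F3} (h1 : VertR h w) (h2 : VertR h' w') : VertR (h * h') (w * w') := by
  obtain ⟨hw, i, j, rfl⟩ := h1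
  obtain ⟨hw', i', j', rfl⟩ := h2
  refine ⟨by rw [map_mul, hw, hw'], i + i', j + j', ?_⟩
  have c1 : Commute (yy 0 ^ i) (inl w' : G0) := (vert_comm hw').zpow_left i
  have c2 : Commute (inl w' * yy 0 ^ i' : G0) (zeta ^ j) := (zeta_central _).zpow_right j
  calc inl w * yy 0 ^ i * zeta ^ j * (inl w' * yy 0 ^ i' * zeta ^ j')
      = inl w * yy 0 ^ i * (zeta ^ j * (inl w' * yy 0 ^ i')) * zeta ^ j' := by simp only [mul_assoc]
    _ = inl w * (yy 0 ^ i * inl w') * yy 0 ^ i' * (zeta ^ j * zeta ^ j') := by rw [← c2.eq]; simp only [mul_assoc]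
    _ = _ := by rw [c1.eq, map_mul, zpow_add, zpow_add]; simp only [mul_assoc]

/-- G7a. `h = ⟨w, β⟩` commuting with `inr s1`: `art1 w = w` and `β = s1ⁱ zzʲ` (`cent_s1`); `inr zz = inl δ * ζ`, so
`h = inl (w δʲ) * (yy 0)ⁱ * ζʲ` with `art1 (w δʲ) = w δʲ`.  The triple is unique (`rightHom`, `s1_zz_indep`), and the
relation `R h w := art1 w = w ∧ ∃ i j, h = inl w * yy 0 ^ i * ζ ^ j` is multiplicative; `π h` is the `w`. -/
theorem exists_pi : ∃ π : Subgroup.centralizer ({yy 0} : Set G0) →* F3,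
    ∀ (h : Subgroup.centralizer ({yy 0} : Set G0)) (w : F3),
      π h = w ↔ (art1 w = w ∧ ∃ i j : ℤ, (h : G0) = inl w * yy 0 ^ i * zeta ^ j) := by
  choose f hf using fun h : Subgroup.centralizer ({yy 0} : Set G0) => vert_ex h.2
  exact ⟨MonoidHom.mk' f fun a b => vert_uniq (hf (a * b)) (vert_mul (hf a) (hf b)), fun h w =>
    ⟨fun e => e ▸ hf h, fun e => vert_uniq (hf h) e⟩⟩

/-- G7b. `γ` is injective (`Ψ ∘ γ = inl` on the closure, `exists_psi`) and `ω ∘ γ = 1` (`exists_wind`).  Compose `γ` on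
`K ⊓ C(y 0)` with `exists_pi`; kernel: `γ h = yy 0 ^ i * ζ ^ j`, `ω` gives `j = 0`; values: `yy_cube0`, `yy_cube2`. -/
theorem vertex_hom {G : Type} [Group G] (ρ : MulAut G) (y : Fin 3 → G) (hρ : ∀ i, ρ (y i) = y (i + 1))
    (hbr : ∀ i, Br (y i) (y (i + 1))) (K : Subgroup G) (hK : K = Subgroup.closure (Set.range y))
    (γ : K →* G0) (hγ : ∀ i (hi : y i ∈ K), γ ⟨y i, hi⟩ = yy i) :
    ∃ π : (K ⊓ Subgroup.centralizer {y 0} : Subgroup G) →* F3,
      (∀ h, π h = 1 → (h : G) ∈ Subgroup.zpowers (y 0)) ∧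
      (∀ h : (K ⊓ Subgroup.centralizer {y 0} : Subgroup G), (h : G) = (y 0 * y 1) ^ 3 →
        π h = xx 0 * xx 1 * xx 2) ∧
      (∀ h : (K ⊓ Subgroup.centralizer {y 0} : Subgroup G), (h : G) = (y 2 * y 0) ^ 3 →
        π h = xx 2 * xx 0 * xx 1) := by
  subst hK
  obtain ⟨Ψ, hΨ⟩ := exists_psi ρ y hρ hbr
  obtain ⟨ω, hω, hωz⟩ := exists_wind
  obtain ⟨π, hπ⟩ := exists_pi
  have hy : ∀ i, y i ∈ Subgroup.closure (Set.range y) := fun i => Subgroup.subset_closure ⟨i, rfl⟩
  have key : ∀ x (hx : x ∈ Subgroup.closure (Set.range y)), Ψ (γ ⟨x, hx⟩) = inl x ∧ ω (γ ⟨x, hx⟩) = 1 := by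
    intro x hx
    induction hx using Subgroup.closure_induction with
    | mem x hx =>
      obtain ⟨i, rfl⟩ := hx
      rw [hγ]
      exact ⟨hΨ i, hω i⟩
    | one =>
      have : (⟨1, one_mem _⟩ : Subgroup.closure (Set.range y)) = 1 := rfl
      rw [this]
      simp
    | mul a b ha hb iha ihb =>
      have : (⟨a * b, mul_mem ha hb⟩ : Subgroup.closure (Set.range y)) = ⟨a, ha⟩ * ⟨b, hb⟩ := rfl
      rw [this]
      simp only [map_mul, iha.1, iha.2, ihb.1, ihb.2, mul_one, and_self]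
    | inv a ha iha =>
      have : (⟨a⁻¹, inv_mem ha⟩ : Subgroup.closure (Set.range y)) = ⟨a, ha⟩⁻¹ := rfl
      rw [this]
      simp only [map_inv, iha.1, iha.2, inv_one, and_self]
  let ι : (Subgroup.closure (Set.range y) ⊓ Subgroup.centralizer {y 0} : Subgroup G) →*
      Subgroup.centralizer ({yy 0} : Set G0) :=
    (γ.comp (Subgroup.inclusion inf_le_left)).codRestrict _ fun h => by
      rw [Subgroup.mem_centralizer_iff]
      rintro _ rfl
      rw [← hγ 0 (hy 0), MonoidHom.comp_apply, ← map_mul, ← map_mul]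
      exact congrArg γ (Subtype.ext (Subgroup.mem_centralizer_iff.1 h.2.2 (y 0) rfl))
  have hι : ∀ h, (ι h : G0) = γ ⟨h, h.2.1⟩ := fun h => rfl
  have hc : ∀ (h : (Subgroup.closure (Set.range y) ⊓ Subgroup.centralizer {y 0} : Subgroup G)) (a b : Fin 3),
      (h : G) = (y a * y b) ^ 3 → (ι h : G0) = (yy a * yy b) ^ 3 := fun h a b e => by
    rw [hι, ← hγ a (hy a), ← hγ b (hy b), ← map_mul, ← map_pow]
    exact congrArg γ (Subtype.ext e)
  refine ⟨π.comp ι, fun h h1 => ?_, fun h e => ?_, fun h e => ?_⟩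
  · obtain ⟨-, i, j, e⟩ := (hπ _ _).1 h1
    rw [hι, map_one, one_mul] at e
    obtain ⟨k1, k2⟩ := key h h.2.1
    rw [e, map_mul, map_zpow, map_zpow, hω, hωz, one_zpow, one_mul, ← ofAdd_zsmul, ofAdd_eq_one] at k2
    obtain rfl : j = 0 := by simpa using k2
    rw [e, zpow_zero, mul_one, map_zpow, hΨ, ← map_zpow] at k1
    exact ⟨i, inl_injective k1⟩
  · exact (hπ _ _).2 ⟨art1_del, 0, 1, by rw [hc h 0 1 e, yy_cube0, zpow_zero, mul_one, zpow_one]⟩
  · exact (hπ _ _).2 ⟨by simp [mul_assoc], 0, 1, by rw [hc h 2 0 e, yy_cube2, zpow_zero, mul_one, zpow_one]⟩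

end Crest.Agent.R175B
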