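import Crest.Agent.R175.B.Tri
import Crest.Agent.R175.B.Geo
import Crest.Agent.R175.B.Gram
import Crest.Agent.R175.B.SepF
import Crest.Agent.R175.B.Gad
import Crest.Agent.R175.B.Amal
import Crest.Agent.R175.B.Vert

/-! # Row 175 / S0264: assembly (route: `notes175/S0264.md`) -/

set_option autoImplicit false

namespace Crest.Agent.R175B
open Crest.GroupTheory Crest.Geometry

/-- The two gadgets of edge `e`. -/
def edgeT (e : Fin 3) : Set AA := {artinGen MM (ig e false), artinGen MM (ig e true)}
/-- The vertex generator and the two vertex gadgets. -/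
def vertT (e : Fin 3) : Set AA := {ga e, artinGen MM (iv false), artinGen MM (iv true)}

theorem pe_inj (e : Fin 3) : Function.Injective (bLift (ga e) (ga (e + 1)) (ga_br e)) :=
  bLift_injective lab_MM (MM_ia e)

theorem MM_ig_ia : ∀ (e : Fin 3) (b : Bool), MM.M (ig e b) (ia e) = 2 ∧ MM.M (ig e b) (ia (e + 1)) = 2 := by
  decide

theorem MM_iv_ia : ∀ (b : Bool) (i : Fin 3), MM.M (iv b) (ia i) = 2 := by decide

theorem cent_edge_le (e : Fin 3) :
    Subgroup.centralizer (edgeT e) ≤ (bLift (ga e) (ga (e + 1)) (ga_br e)).range := by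
  intro h hh
  rw [Subgroup.mem_centralizer_iff] at hh
  have := gadget lab_MM ({ia e, ia (e + 1)} : Set Idx) (g := ig e false) (g' := ig e true)
    (by simp [ig]) (by simp [ig, ia]) (by simp [ig, ia])
    (by simpa using MM_ig e false) (by simpa using MM_ig e true) (h := h)
    (hh _ (by simp [edgeT])).symm (hh _ (by simp [edgeT])).symm
  rw [bLift_range]
  simpa [stdParabolic, Set.image_insert_eq, ga] using this

theorem edgeSep (e : Fin 3) : Sep (Subgroup.centralizer (edgeT e)) (ga e) (ga (e + 1)) (gz e) := by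
  set p := bLift (ga e) (ga (e + 1)) (ga_br e) with hp
  have hinj : Function.Injective p := pe_inj e
  let π : p.range →* Matrix.SpecialLinearGroup (Fin 2) ℤ :=
    pi0.comp (MonoidHom.ofInjective hinj).symm.toMonoidHom
  have hπ : ∀ β, π (MonoidHom.ofInjective hinj β) = pi0 β := fun β => by simp [π]
  have := sep_of_fun p.range π sideM sideM_finite (c := gz e) (fun h hh => by
      obtain ⟨β, rfl⟩ := (MonoidHom.ofInjective hinj).surjective h
      rw [hπ] at hh
      obtain ⟨k, hk⟩ := mem_zpowers_of_pi0 (Or.inl hh)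
      refine ⟨k, ?_⟩
      rw [MonoidHom.ofInjective_apply, ← hk]
      simp [hp, gz])
    (MonoidHom.ofInjective hinj s1) (MonoidHom.ofInjective hinj s2)
    (fun m _ => by rw [hπ, pi0_s1]; exact sideM_matU m)
    (fun n hn => by rw [hπ, pi0_s2]; exact not_sideM_matV n hn)
  simp only [MonoidHom.ofInjective_apply, hp, bLift_s1, bLift_s2] at this
  exact this.mono (cent_edge_le e)

theorem cent_vert_le (e : Fin 3) : Subgroup.centralizer (vertT e) ≤
    Subgroup.closure (Set.range ga) ⊓ Subgroup.centralizer {ga e} := by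
  intro h hh
  rw [Subgroup.mem_centralizer_iff] at hh
  refine ⟨?_, ?_⟩
  · have := gadget lab_MM (Set.range ia) (g := iv false) (g' := iv true)
      (by decide) (by simp [iv, ia]) (by simp [iv, ia])
      (MM_iv false) (MM_iv true) (h := h)
      (hh _ (by simp [vertT])).symm (hh _ (by simp [vertT])).symm
    rw [stdParabolic, ← Set.range_comp] at this
    exact this
  · refine Subgroup.mem_centralizer_iff.2 fun g hg => hh g ?_
    rw [Set.mem_singleton_iff.1 hg]; simp [vertT]

theorem fin3_a : ∀ e i : Fin 3, i + 1 - e = i - e + 1 := by decide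
theorem fin3_b : ∀ e i : Fin 3, e + i - e = i := by decide
theorem fin3_c : ∀ e : Fin 3, e + 2 + 1 = e := by decide

theorem vertexSep (e : Fin 3) :
    Sep (Subgroup.centralizer (vertT e)) (gz e) (gz (e + 2)) (ga e) := by
  obtain ⟨ρ, hρ⟩ := exists_rot
  have hinj : ∀ j k : Fin 3, k = j + 1 → ∀ h : Br (yy j) (yy k), Function.Injective (bLift _ _ h) := by
    rintro j k rfl h; exact yy_inj j
  obtain ⟨γ, hγ⟩ := exists_gamma (fun i => yy (i - e))
    (fun i => by rw [fin3_a]; exact yy_br _) (fun i => hinj _ _ (fin3_a e i) _)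
  have hK : Subgroup.closure (Set.range ga) = Subgroup.closure (Set.range fun i => ga (e + i)) := by
    congr 1
    exact ((Equiv.addLeft e).surjective.range_comp ga).symm
  obtain ⟨π, hker, hu, hv⟩ := vertex_hom ρ (fun i => ga (e + i)) (fun i => by rw [hρ, add_assoc])
    (fun i => by rw [← add_assoc]; exact ga_br _) _ hK γ (fun i hi => by
      rw [hγ, fin3_b])
  simp only [add_zero] at π hker hu hv
  have hmem : ∀ i, ga i ∈ Subgroup.closure (Set.range ga) := fun i => Subgroup.subset_closure ⟨i, rfl⟩
  have hzK : ∀ i, gz i ∈ Subgroup.closure (Set.range ga) := fun i =>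
    pow_mem (mul_mem (hmem _) (hmem _)) _
  have hu0 : gz e ∈ Subgroup.closure (Set.range ga) ⊓ Subgroup.centralizer {ga (e + 0)} := by
    refine ⟨hzK e, Subgroup.mem_centralizer_singleton_iff.2 ?_⟩
    rw [add_zero]; exact (ga_br e).comm_left.eq.symm
  have hv0 : gz (e + 2) ∈ Subgroup.closure (Set.range ga) ⊓ Subgroup.centralizer {ga (e + 0)} := by
    refine ⟨hzK _, Subgroup.mem_centralizer_singleton_iff.2 ?_⟩
    have := (ga_br (e + 2)).comm_right.eq.symm
    rw [add_zero]
    rw [show ga e = ga (e + 2 + 1) by rw [fin3_c]]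
    exact this
  have := sep_of_fun _ π (sideF 0) (sideF_finite 0) (c := ga e) hker ⟨gz e, hu0⟩ ⟨gz (e + 2), hv0⟩
    (fun m hm => by
      rw [hu ⟨gz e, hu0⟩ rfl]
      have := (sideF_pow_pos (0 : Fin 3) [1, 2] m hm 0).2 rfl
      simpa [mul_assoc] using this)
    (fun n hn => by
      rw [hv ⟨gz (e + 2), hv0⟩ (by simp only [gz, fin3_c])]
      have := (sideF_pow_pos (2 : Fin 3) [0, 1] n hn 0).not.2 (by decide)
      simpa [mul_assoc] using this)
  refine this.mono ?_
  rw [add_zero]
  exact cent_vert_le e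

/-- The chain of edge `e` as a sequence. -/
def chn (e : Fin 3) (i : ℕ) : AA := if h : i < 9 then artinGen MM (ch e ⟨i, h⟩) else 1

theorem chn_chain (e : Fin 3) : Chain (chn e) 9 where
  comm i j hij hj := by
    simp only [chn, dif_pos hj, dif_pos (show i < 9 by omega)]
    exact gen_comm (MM_ch2 e _ _ hij)
  br i hi := by
    simp only [chn, dif_pos hi, dif_pos (show i < 9 by omega)]
    exact gen_br (MM_ch3 e _ _ rfl)

theorem no_action (X : Type*) [MetricSpace X] [ProperSpace X] [Nonempty X] [MulAction AA X]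
    (hX : IsCAT0Space X) (hG : IsGeometricAction AA X) : False := by
  have := hG.1
  obtain ⟨x⟩ := ‹Nonempty X›
  have hC := cn_of_cat0 hX
  have hl : IsSL (sl (Γ := AA) x) := isSL hC x
  have hlam : ∀ e, sl x (ga e) = sl x (ga 0) := by
    intro e
    have h1 : sl x (ga 1) = sl x (ga 0) := hl.br_l (ga_br 0)
    have h2 : sl x (ga 2) = sl x (ga 1) := hl.br_l (ga_br 1)
    fin_cases e
    · rfl
    · exact h1
    · exact h2.trans h1
  refine triangle hC x ga gz (sl x (ga 0)) (fun e => ip (sl x) (ga e) (gz e))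
    (fun e => (ga_br e).comm_left) (fun e => (ga_br e).comm_right) hlam (fun _ => rfl)
    (fun e => hl.br_ip (ga_br e)) (fun e => hl.br_z (ga_br e)) (fun e => ?_) (fun e => ?_)
    (fun e => ?_) (fun e => ?_)
  · have := gram hl (chn_chain e) (expo lab_MM) (fun i hi => by simp [chn, hi])
      (fun g hg => sl_pos hC hG x fun hfin => hg (by
        have := (expo lab_MM).isOfFinOrder hfin
        exact isOfFinOrder_iff_eq_one _ |>.1 this))
    rw [← hlam e]
    exact this
  · rw [← hlam e]
    refine hl.br_lt (ga_br e) (sl_pos hC hG x fun hfin => not_finOrder_s1_zz ?_)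
    rw [← (pe_inj e).isOfFinOrder_iff]
    simpa using hfin
  · refine thru_of_sep hC hG x _ (by simp [edgeT]) ?_ ?_ (edgeSep e)
    · refine Subgroup.mem_centralizer_iff.2 ?_
      rintro g (rfl | rfl) <;> exact (gen_comm (MM_ig_ia e _).1).eq
    · refine Subgroup.mem_centralizer_iff.2 ?_
      rintro g (rfl | rfl) <;> exact (gen_comm (MM_ig_ia e _).2).eq
  · have hv : ∀ b i, Commute (artinGen MM (iv b)) (gz i) := fun b i =>
      ((gen_comm (MM_iv_ia b i)).mul_right (gen_comm (MM_iv_ia b (i + 1)))).pow_right 3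
    refine thru_of_sep hC hG x _ (by simp [vertT]) ?_ ?_ (vertexSep e)
    · refine Subgroup.mem_centralizer_iff.2 ?_
      rintro g (rfl | rfl | rfl)
      · exact (ga_br e).comm_left.eq
      · exact (hv _ _).eq
      · exact (hv _ _).eq
    · refine Subgroup.mem_centralizer_iff.2 ?_
      rintro g (rfl | rfl | rfl)
      · have := (ga_br (e + 2)).comm_right.eq
        rw [show ga e = ga (e + 2 + 1) by rw [fin3_c]]
        exact this
      · exact (hv _ _).eq
      · exact (hv _ _).eq

end Crest.Agent.R175B
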