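import Crest.Agent.R175.B.Defs

/-! # Row 175 / S0264: the Coxeter matrix on 116 generators -/

set_option autoImplicit false

namespace Crest.Agent.R175B
open Crest.GroupTheory

/-- `(i,0) = aᵢ`; `(i,1..7)` tail of edge `i`; `(i,8),(i,9)` edge gadgets; `Bool` vertex gadgets;
`Fin 84` padding. -/
abbrev Idx : Type := (Fin 3 × Fin 10) ⊕ (Bool ⊕ Fin 84)

/-- One-sided label. -/
def pre : Idx → Idx → ℕ
  | .inl (i, k), .inl (j, l) =>
    if k = 0 then
      if l = 0 then 3
      else if l.val ≤ 7 then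
        (if i = j then 2 else if i = j + 1 then (if l = 1 then 3 else 2) else 0)
      else if i = j ∨ i = j + 1 then 2 else 0
    else if i = j ∧ k < l ∧ l.val ≤ 7 then (if l.val = k.val + 1 then 3 else 2) else 0
  | .inl (_, k), .inr (.inl _) => if k = 0 then 2 else 0
  | _, _ => 0

theorem pre_cases (s t : Idx) : pre s t = 0 ∨ pre s t = 2 ∨ pre s t = 3 := by
  rcases s with ⟨i, k⟩ | s <;> rcases t with ⟨j, l⟩ | b | p <;> simp only [pre] <;>
    (try split_ifs) <;> simp

/-- The Coxeter matrix. -/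
def MM : CoxeterMatrix Idx where
  M := Matrix.of fun s t => if s = t then 1 else max (pre s t) (pre t s)
  isSymm := by
    ext s t
    simp only [Matrix.transpose_apply, Matrix.of_apply, eq_comm (a := t), max_comm (pre t s)]
  diagonal := by simp
  off_diagonal := by
    intro s t h
    simp only [Matrix.of_apply, if_neg h]
    rcases pre_cases s t with h1 | h1 | h1 <;> rcases pre_cases t s with h2 | h2 | h2 <;>
      simp [h1, h2]

theorem MM_apply (s t : Idx) : MM.M s t = if s = t then 1 else max (pre s t) (pre t s) := rfl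

theorem lab_MM : Lab023 MM := by
  intro s t h
  rw [MM_apply, if_neg h]
  rcases pre_cases s t with h1 | h1 | h1 <;> rcases pre_cases t s with h2 | h2 | h2 <;>
    simp [h1, h2]

theorem card_Idx : Fintype.card Idx = 116 := by simp

/-- The Artin group. -/
abbrev AA : Type := ArtinGroup MM

/-- Index of `aᵢ`. -/
def ia (i : Fin 3) : Idx := .inl (i, 0)
/-- Index of the edge gadgets. -/
def ig (e : Fin 3) (b : Bool) : Idx := .inl (e, cond b 9 8)
/-- Index of the vertex gadgets. -/
def iv (b : Bool) : Idx := .inr (.inl b)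
/-- The `A₉` chain of edge `e`: `a_e, a_{e+1}, d_{e,1}, …, d_{e,7}`. -/
def ch (e : Fin 3) (k : Fin 9) : Idx :=
  if k = 0 then ia e else if k = 1 then ia (e + 1) else .inl (e, ⟨k.val - 1, by omega⟩)

/-- The generator `aᵢ`. -/
def ga (i : Fin 3) : AA := artinGen MM (ia i)
/-- The full twist of edge `e`. -/
def gz (e : Fin 3) : AA := (ga e * ga (e + 1)) ^ 3

theorem MM_ia (e : Fin 3) : MM.M (ia e) (ia (e + 1)) = 3 := by revert e; decide

theorem ga_br (e : Fin 3) : Br (ga e) (ga (e + 1)) := gen_br (MM_ia e)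

theorem MM_ch2 : ∀ (e : Fin 3) (k l : Fin 9), k.val + 2 ≤ l.val → MM.M (ch e k) (ch e l) = 2 := by
  decide +kernel

theorem MM_ch3 : ∀ (e : Fin 3) (k l : Fin 9), k.val + 1 = l.val → MM.M (ch e k) (ch e l) = 3 := by
  decide +kernel

/-- Gadget or padding index. -/
def isGad : Idx → Bool
  | .inl (_, k) => 8 ≤ k.val
  | .inr _ => true

/-- Every non-gadget index lies on a chain. -/
theorem exists_ch : ∀ s : Idx, isGad s = false → ∃ e k, s = ch e k := by decide +kernel

set_option synthInstance.maxSize 2000 in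
set_option synthInstance.maxHeartbeats 200000 in
/-- Every finite label joins two indices of one chain, or is a `2` at a gadget. -/
theorem MM_class : ∀ s t : Idx, s ≠ t → MM.M s t ≠ 0 →
    (∃ e k l, s = ch e k ∧ t = ch e l) ∨ (MM.M s t = 2 ∧ (isGad s = true ∨ isGad t = true)) := by
  decide +kernel

set_option synthInstance.maxSize 2000 in
set_option synthInstance.maxHeartbeats 200000 in
theorem MM_ig : ∀ (e : Fin 3) (b : Bool) (s : Idx), s ≠ ig e b →
    (MM.M (ig e b) s = 2 ∧ (s = ia e ∨ s = ia (e + 1))) ∨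
    (MM.M (ig e b) s = 0 ∧ ¬ (s = ia e ∨ s = ia (e + 1))) := by
  decide +kernel

theorem MM_iv : ∀ (b : Bool) (s : Idx), s ≠ iv b →
    (MM.M (iv b) s = 2 ∧ (∃ i, ia i = s)) ∨ (MM.M (iv b) s = 0 ∧ ¬ (∃ i, ia i = s)) := by
  decide +kernel

/-- Rotation of the index set. -/
def rotI : Idx ≃ Idx := Equiv.sumCongr (Equiv.prodCongr (Equiv.addRight 1) (Equiv.refl _)) (Equiv.refl _)

theorem MM_rot : ∀ s t : Idx, MM.M (rotI s) (rotI t) = MM.M s t := by decide +kernel

theorem rotI_ia (i : Fin 3) : rotI (ia i) = ia (i + 1) := rfl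

/-- The rotation automorphism. -/
theorem exists_rot : ∃ ρ : MulAut AA, ∀ i, ρ (ga i) = ga (i + 1) := by
  let f : AA →* AA := aLift lab_MM (fun s => artinGen MM (rotI s))
    (fun s t h => gen_comm (by rw [MM_rot, h])) (fun s t h => gen_br (by rw [MM_rot, h]))
  have hr : ∀ s t : Idx, MM.M (rotI.symm s) (rotI.symm t) = MM.M s t := fun s t => by
    rw [← MM_rot]; simp
  let g : AA →* AA := aLift lab_MM (fun s => artinGen MM (rotI.symm s))
    (fun s t h => gen_comm (by rw [hr, h])) (fun s t h => gen_br (by rw [hr, h]))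
  refine ⟨MonoidHom.toMulEquiv f g (artin_ext fun s => by simp [f, g])
    (artin_ext fun s => by simp [f, g]), fun i => ?_⟩
  simp [f, ga, rotI_ia]

end Crest.Agent.R175B
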