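import Crest.Agent.R175.B.Gam

/-! # Row 175 / S0264: block G5, identities in Γ₀ and the map Ψ (route: `notes175/S0264.md`) -/

set_option autoImplicit false

namespace Crest.Agent.R175B
open SemidirectProduct

/-- G5a. Check on the basis (`mulAut_ext`, `simp [zz, pow_succ, del, mul_assoc]`). -/
theorem act_zz : act zz = MulAut.conj del := by
  refine mulAut_ext fun i => ?_
  fin_cases i <;> simp [zz, pow_succ, del, mul_assoc]

theorem art1_del : art1 del = del := by
  simp [del, mul_assoc]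

theorem art2_del : art2 del = del := by
  simp [del, mul_assoc]

theorem b3_ind {P : B3 → Prop} (H : Subgroup B3) (hH : ∀ β, β ∈ H → P β) (h1 : s1 ∈ H) (h2 : s2 ∈ H) (β : B3) : P β :=
  hH β ((Subgroup.closure_le H).2 (Set.insert_subset h1 (Set.singleton_subset_iff.2 h2)) (b3_closure ▸ Subgroup.mem_top β))

/-- G5b. `ζ` commutes with `inl w` (by `act_zz`) and with `inr s1`, `inr s2`. -/
theorem zeta_central (g : G0) : Commute g zeta := by
  rw [← inl_left_mul_inr_right g]
  refine Commute.mul_left (SemidirectProduct.ext (by simp [zeta, act_zz, mul_assoc]) (by simp [zeta])) ?_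
  refine b3_ind (P := fun β => Commute (inr β : G0) zeta) ((Subgroup.centralizer {zeta}).comap inr)
    (fun β h => (Subgroup.mem_centralizer_singleton_iff.1 h :)) ?_ ?_ _ <;>
    refine Subgroup.mem_centralizer_singleton_iff.2 (SemidirectProduct.ext ?_ ?_)
  · simp [zeta, art1_del]
  · simpa [zeta] using (show s1 * zz = zz * s1 from br12.comm_left.eq)
  · simp [zeta, art2_del]
  · simpa [zeta] using (show s2 * zz = zz * s2 from br12.comm_right.eq)

theorem inr_zz : (inr zz : G0) = inl del * zeta := by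
  rw [zeta, ← mul_assoc, ← map_mul, mul_inv_cancel, map_one, one_mul]

theorem rho0_conj0 : rho0 * yy 0 * rho0⁻¹ = yy 1 := by
  rw [mul_inv_eq_iff_eq_mul]
  exact SemidirectProduct.ext (by simp [rho0, yy]) (by simpa [rho0, yy, Br, mul_assoc] using br12)

theorem rho0_conj1 : rho0 * yy 1 * rho0⁻¹ = yy 2 := rfl

/-- e.g. from `rho0 ^ 3 = zeta` central, or directly by `SemidirectProduct.ext`. -/
theorem rho0_conj2 : rho0 * yy 2 * rho0⁻¹ = yy 0 := by
  have h : s1 * (s2 * s1) = s2 * (s1 * s2) := by simpa [Br, mul_assoc] using br12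
  rw [mul_inv_eq_iff_eq_mul, show yy 2 = rho0 * inr s2 * rho0⁻¹ from rfl, ← mul_assoc, mul_inv_eq_iff_eq_mul]
  refine SemidirectProduct.ext (by simp [rho0, yy, mul_assoc]) ?_
  simp only [rho0, yy, mul_right, right_inl, right_inr, one_mul, Matrix.cons_val_zero, mul_assoc, mul_right_inj]
  simpa only [mul_assoc] using congrArg (· * s2) h.symm

theorem rho0_conj (i : Fin 3) : (MulAut.conj rho0).toMonoidHom (yy i) = yy (i + 1) := by
  fin_cases i
  exacts [rho0_conj0, rho0_conj1, rho0_conj2]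

theorem yy_br (i : Fin 3) : Br (yy i) (yy (i + 1)) := by
  have h : ∀ i, Br (yy i) (yy (i + 1)) → Br (yy (i + 1)) (yy (i + 1 + 1)) := fun i h => by
    have := h.map (MulAut.conj rho0).toMonoidHom
    rwa [rho0_conj, rho0_conj] at this
  have h0 : Br (yy 0) (yy (0 + 1)) := br12.map inr
  fin_cases i
  exacts [h0, h _ h0, h _ (h _ h0)]

/-- `bLift (yy 0) (yy 1) = inr`; the others are conjugates of it by `rho0`, `rho0²`. -/
theorem yy_inj (i : Fin 3) : Function.Injective (bLift (yy i) (yy (i + 1)) (yy_br i)) := by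
  have h : ∀ i, Function.Injective (bLift (yy i) (yy (i + 1)) (yy_br i)) →
      Function.Injective (bLift (yy (i + 1)) (yy (i + 1 + 1)) (yy_br (i + 1))) := fun i h => by
    rw [b3_ext (f := bLift _ _ (yy_br (i + 1))) (g := (MulAut.conj rho0).toMonoidHom.comp (bLift _ _ (yy_br i)))
      (by rw [MonoidHom.comp_apply, bLift_s1, bLift_s1, rho0_conj]) (by rw [MonoidHom.comp_apply, bLift_s2, bLift_s2, rho0_conj])]
    exact (MulAut.conj rho0).injective.comp h
  have h0 : Function.Injective (bLift (yy 0) (yy (0 + 1)) (yy_br 0)) := by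
    rw [b3_ext (f := bLift _ _ (yy_br 0)) (g := inr) (bLift_s1 ..) (bLift_s2 ..)]
    exact inr_injective
  rcases (by decide : ∀ i : Fin 3, i = 0 ∨ i = 0 + 1 ∨ i = 0 + 1 + 1) i with rfl | rfl | rfl
  exacts [h0, h _ h0, h _ (h _ h0)]

theorem yy_cube0 : (yy 0 * yy 1) ^ 3 = inl (xx 0 * xx 1 * xx 2) * zeta := by
  rw [show yy 0 * yy 1 = inr (s1 * s2) from (map_mul _ _ _).symm, ← map_pow]
  exact inr_zz

/-- G5c. Conjugate `yy_cube0` by `rho0⁻¹` (`rho0⁻¹ (yy 0, yy 1) rho0 = (yy 2, yy 0)`), and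
`rho0⁻¹ * inl δ * rho0 = inl (x₂x₀x₁)` (`rho0 * inl xᵢ * rho0⁻¹ = inl x_{i+1}`). -/
theorem yy_cube2 : (yy 2 * yy 0) ^ 3 = inl (xx 2 * xx 0 * xx 1) * zeta := by
  apply (MulAut.conj rho0).injective
  rw [map_pow, map_mul, map_mul, show MulAut.conj rho0 (yy 2) = yy 0 from rho0_conj2,
    show MulAut.conj rho0 (yy 0) = yy 1 from rho0_conj0, yy_cube0, MulAut.conj_apply rho0 zeta, (zeta_central rho0).eq,
    mul_inv_cancel_right, MulAut.conj_apply, mul_left_inj, eq_mul_inv_iff_mul_eq]
  exact SemidirectProduct.ext (by simp [rho0, mul_assoc]) (by simp [rho0])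

/-- G5d. Winding number: `xᵢ ↦ 1`, `sᵢ ↦ 0` (`SemidirectProduct.lift`). -/
theorem exists_wind : ∃ ω : G0 →* Multiplicative ℤ,
    (∀ i, ω (yy i) = 1) ∧ ω zeta = Multiplicative.ofAdd (-3) := by
  let f : F3 →* Multiplicative ℤ := FreeGroup.lift fun _ => Multiplicative.ofAdd 1
  have hf : ∀ β w, f (act β w) = f w := b3_ind (P := fun β => ∀ w, f (act β w) = f w)
    { carrier := {β | ∀ w, f (act β w) = f w}
      one_mem' := fun w => by simp
      mul_mem' := fun {a b} ha hb w => by rw [map_mul, MulAut.mul_apply, ha, hb]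
      inv_mem' := fun {a} ha w => by rw [← ha, ← MulAut.mul_apply, ← map_mul, mul_inv_cancel, map_one, MulAut.one_apply] }
    (fun _ h => h)
    (DFunLike.congr_fun (FreeGroup.ext_hom (f.comp (act s1).toMonoidHom) f fun i => by fin_cases i <;> simp [f]))
    (DFunLike.congr_fun (FreeGroup.ext_hom (f.comp (act s2).toMonoidHom) f fun i => by fin_cases i <;> simp [f]))
  refine ⟨SemidirectProduct.lift f 1 fun β => MonoidHom.ext fun w => by simpa using hf β w, fun i => ?_, ?_⟩
  · fin_cases i <;> simp [yy]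
  · simp [zeta, del, f, ← ofAdd_add, ← ofAdd_neg]

/-- abstract form of `exists_psi`. -/
theorem exists_psi_aux {H : Type} [Group H] (a b c r : H) (ha : r * a = c * r) (hb : r * b = a * r)
    (hc : r * c = b * r) (hab : Br a b) (hbc : Br b c) (hca : Br c a) :
    ∃ Ψ : G0 →* H, Ψ (inr s1) = a ∧ Ψ (inr s2) = b ∧ Ψ rho0 = r⁻¹ := by
  have hab' : a * b * a = b * a * b := hab
  have hbc' : b * c * b = c * b * c := hbc
  have hca' : c * a * c = a * c * a := hca
  let f : F3 →* H := FreeGroup.lift ![a * b * r, b * c * r, c * a * r]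
  have f0 : f (xx 0) = a * b * r := by simp [f]
  have f1 : f (xx 1) = b * c * r := by simp [f]
  have f2 : f (xx 2) = c * a * r := by simp [f]
  let g : B3 →* H := bLift a b hab
  have g1 : g s1 = a := bLift_s1 ..
  have g2 : g s2 = b := bLift_s2 ..
  have e1 : (a * b * r) * (b * c * r) * (a * b * r)⁻¹ = a * (a * b * r) * a⁻¹ := by
    rw [mul_inv_eq_iff_eq_mul]
    calc (a * b * r) * (b * c * r) = a * b * (r * b) * c * r := by group
      _ = a * b * a * (r * c) * r := by rw [hb]; group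
      _ = a * (b * a * b) * r * r := by rw [hc]; group
      _ = a * a * b * (a * r) * r := by rw [← hab']; group
      _ = a * (a * b * r) * a⁻¹ * (a * b * r) := by rw [← hb]; group
  have e2 : a * b * r = a * (b * c * r) * a⁻¹ := by
    rw [eq_mul_inv_iff_mul_eq]
    calc a * b * r * a = a * b * (r * a) := by group
      _ = a * (b * c * r) := by rw [ha]; group
  have e3 : c * a * r = a * (c * a * r) * a⁻¹ := by
    rw [eq_mul_inv_iff_mul_eq]
    calc c * a * r * a = c * a * (r * a) := by group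
      _ = (c * a * c) * r := by rw [ha]; group
      _ = a * (c * a * r) := by rw [hca']; group
  have e4 : a * b * r = b * (a * b * r) * b⁻¹ := by
    rw [eq_mul_inv_iff_mul_eq]
    calc a * b * r * b = a * b * (r * b) := by group
      _ = (a * b * a) * r := by rw [hb]; group
      _ = b * (a * b * r) := by rw [hab']; group
  have e5 : (b * c * r) * (c * a * r) * (b * c * r)⁻¹ = b * (b * c * r) * b⁻¹ := by
    rw [mul_inv_eq_iff_eq_mul]
    calc (b * c * r) * (c * a * r) = b * c * (r * c) * a * r := by group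
      _ = b * c * b * (r * a) * r := by rw [hc]; group
      _ = b * (c * b * c) * r * r := by rw [ha]; group
      _ = b * b * c * (b * r) * r := by rw [← hbc']; group
      _ = b * (b * c * r) * b⁻¹ * (b * c * r) := by rw [← hc]; group
  have e6 : b * c * r = b * (c * a * r) * b⁻¹ := by
    rw [eq_mul_inv_iff_mul_eq]
    calc b * c * r * b = b * c * (r * b) := by group
      _ = b * (c * a * r) := by rw [hb]; group
  have key : ∀ (β : B3), (∀ i, f (act β (xx i)) = g β * f (xx i) * (g β)⁻¹) →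
      ∀ w, f (act β w) = g β * f w * (g β)⁻¹ := by
    intro β h w
    have : f.comp (act β).toMonoidHom = (MulAut.conj (g β)).toMonoidHom.comp f :=
      FreeGroup.ext_hom _ _ fun i => by simpa using h i
    simpa using DFunLike.congr_fun this w
  have hall : ∀ (β : B3) (w : F3), f (act β w) = g β * f w * (g β)⁻¹ := by
    intro β
    have hβ : β ∈ Subgroup.closure ({s1, s2} : Set B3) := by rw [b3_closure]; trivial
    induction hβ using Subgroup.closure_induction with
    | mem x hx =>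
      rcases hx with rfl | rfl
      · refine key _ fun i => ?_
        fin_cases i
        · simpa [g1, f0, f1, f2] using e1
        · simpa [g1, f0, f1, f2] using e2
        · simpa [g1, f0, f1, f2] using e3
      · refine key _ fun i => ?_
        fin_cases i
        · simpa [g2, f0, f1, f2] using e4
        · simpa [g2, f0, f1, f2] using e5
        · simpa [g2, f0, f1, f2] using e6
    | one => intro w; simp
    | mul x y _ _ hx hy =>
      intro w
      rw [map_mul, MulAut.mul_apply, hx, hy, map_mul]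
      group
    | inv x _ hx =>
      intro w
      have := hx (act x⁻¹ w)
      rw [← MulAut.mul_apply, ← map_mul, mul_inv_cancel, map_one, MulAut.one_apply] at this
      rw [this, map_inv g]
      generalize f (act x⁻¹ w) = u
      group
  refine ⟨SemidirectProduct.lift f g fun β => ?_, ?_, ?_, ?_⟩
  · ext i
    simpa using hall β (xx i)
  · rw [lift_inr, g1]
  · rw [lift_inr, g2]
  · rw [rho0, map_mul, lift_inl, lift_inr, map_inv, f0, map_mul, g1, g2]
    group

/-- G5e. In `G ⋊ MulAut G` put `ρ' = inr ρ`; `s1 ↦ a`, `s2 ↦ b`, `x₀ ↦ a b ρ'⁻¹`, `x₁ ↦ b c ρ'⁻¹`, `x₂ ↦ c a ρ'⁻¹`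
(`a = inl (y 0)` etc.; `ρ' a ρ'⁻¹ = b`, `ρ' b ρ'⁻¹ = c`, `ρ' c ρ'⁻¹ = a`).  `SemidirectProduct.lift` needs
`Ψ (act β w) = Ψ β * Ψ w * (Ψ β)⁻¹`: the `β` satisfying it form a subgroup, so check `β = s1, s2` on `x₀, x₁, x₂`
(six identities from the three braid relations; with `r = ρ'⁻¹`: `r a = c r`, `r b = a r`, `r c = b r`; e.g.
`a X₀ a⁻¹ X₀ = a a b a r² = a b a b r² = X₀ X₁`, `a X₁ a⁻¹ = X₀`, `a X₂ a⁻¹ = a c a c⁻¹ r = X₂`).  Then `Ψ rho0 = ρ'`, so `Ψ (yy 2) = c`. -/
theorem exists_psi {G : Type} [Group G] (ρ : MulAut G) (y : Fin 3 → G) (hρ : ∀ i, ρ (y i) = y (i + 1))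
    (hbr : ∀ i, Br (y i) (y (i + 1))) :
    ∃ Ψ : G0 →* G ⋊[MonoidHom.id (MulAut G)] MulAut G, ∀ i, Ψ (yy i) = inl (y i) := by
  have hr : ∀ i, (inr ρ : G ⋊[MonoidHom.id (MulAut G)] MulAut G)⁻¹ * inl (y (i + 1)) =
      inl (y i) * (inr ρ)⁻¹ := by
    intro i
    have := inl_aut (φ := MonoidHom.id (MulAut G)) ρ (y i)
    rw [MonoidHom.id_apply, hρ] at this
    rw [this, map_inv]
    group
  obtain ⟨Ψ, h1, h2, h3⟩ := exists_psi_aux (H := G ⋊[MonoidHom.id (MulAut G)] MulAut G) (inl (y 0)) (inl (y 1))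
    (inl (y 2)) (inr ρ)⁻¹ (hr 2) (hr 0) (hr 1) ((hbr 0).map inl) ((hbr 1).map inl) ((hbr 2).map inl)
  refine ⟨Ψ, fun i => ?_⟩
  fin_cases i
  · exact h1
  · exact h2
  · show Ψ (rho0 * inr s2 * rho0⁻¹) = inl (y 2)
    rw [map_mul, map_mul, map_inv, h2, h3, inv_inv, mul_assoc, ← hr 1, mul_inv_cancel_left]
    rfl

end Crest.Agent.R175B
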