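import Crest.Agent.R175.B.Cat

/-! # Row 175 / S0264: block A2, stable length (route: `notes175/S0264.md`) -/

set_option autoImplicit false

namespace Crest.Agent.R175B
open Filter Topology

variable {Γ X : Type*} [Group Γ] [MetricSpace X] [MulAction Γ X] [IsIsometricSMul Γ X]

/-- A2a. Fekete (`Subadditive.tendsto_lim` for `n ↦ dist x (g ^ n • x)`). -/
theorem sl_tendsto (x : X) (g : Γ) :
    Tendsto (fun n : ℕ => dist x (g ^ n • x) / n) atTop (𝓝 (sl x g)) := by
  have hs : Subadditive fun n : ℕ => dist x (g ^ n • x) := fun m n => by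
    have := dist_triangle x (g ^ m • x) (g ^ m • g ^ n • x)
    rwa [dist_smul, smul_smul, ← pow_add] at this
  have h := hs.tendsto_lim ⟨0, by rintro _ ⟨n, rfl⟩; positivity⟩
  have e : hs.lim = sl x g := by
    rw [Subadditive.lim, sl, iInf]
    congr 1
    ext r
    constructor
    · rintro ⟨n, hn, rfl⟩
      obtain ⟨k, rfl⟩ := Nat.exists_eq_add_of_le' (show 1 ≤ n from hn)
      exact ⟨k, by simp⟩
    · rintro ⟨k, rfl⟩
      exact ⟨k + 1, Nat.le_add_left 1 k, by simp⟩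
  rwa [e] at h

theorem sl_nonneg (x : X) (g : Γ) : 0 ≤ sl x g := by
  exact ge_of_tendsto' (sl_tendsto x g) fun n => by positivity

/-- A2b. Base point independence: `|d(x,gⁿx) - d(y,gⁿy)| ≤ 2 d(x,y)`. -/
theorem sl_base (x y : X) (g : Γ) : sl x g = sl y g := by
  have key : ∀ x y : X, sl x g ≤ sl y g := fun x y => by
    have h := (sl_tendsto y g).add (tendsto_const_div_atTop_nhds_zero_nat (2 * dist x y))
    rw [add_zero] at h
    refine le_of_tendsto_of_tendsto' (sl_tendsto x g) h fun n => ?_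
    rw [← add_div]
    refine div_le_div_of_nonneg_right ?_ (Nat.cast_nonneg n)
    have h1 := dist_triangle4 x y (g ^ n • y) (g ^ n • x)
    rw [dist_smul, dist_comm y x] at h1
    linarith
  exact le_antisymm (key x y) (key y x)

theorem sl_le (x y : X) (g : Γ) : sl x g ≤ dist y (g • y) := by
  rw [sl_base x y]
  have := ciInf_le (f := fun n : ℕ => dist y (g ^ (n + 1) • y) / ((n : ℝ) + 1))
    ⟨0, by rintro _ ⟨n, rfl⟩; positivity⟩ 0
  simpa [sl] using this

theorem sl_conj (x : X) (g h : Γ) : sl x (h * g * h⁻¹) = sl x g := by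
  rw [sl_base x (h⁻¹ • x) g]
  unfold sl
  refine iInf_congr fun n => ?_
  rw [conj_pow, ← dist_smul h (h⁻¹ • x), smul_inv_smul, mul_smul, mul_smul]

theorem sl_inv (x : X) (g : Γ) : sl x g⁻¹ = sl x g := by
  unfold sl
  refine iInf_congr fun n => ?_
  rw [inv_pow, ← dist_smul (g ^ (n + 1)), smul_inv_smul, dist_comm]

theorem sl_pow (x : X) (g : Γ) (k : ℕ) : sl x (g ^ k) = k * sl x g := by
  rcases Nat.eq_zero_or_pos k with rfl | hk
  · simp [sl]
  have h1 : Tendsto (fun n : ℕ => k * n) atTop atTop :=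
    tendsto_atTop_mono (fun n => Nat.le_mul_of_pos_left n hk) tendsto_id
  have h2 := ((sl_tendsto x g).comp h1).const_mul (k : ℝ)
  refine tendsto_nhds_unique (sl_tendsto x (g ^ k)) (h2.congr fun n => ?_)
  have hk' : (k : ℝ) ≠ 0 := Nat.cast_ne_zero.2 hk.ne'
  simp only [Function.comp_apply, pow_mul, Nat.cast_mul]
  rw [← mul_div_assoc, mul_div_mul_left _ _ hk']

theorem sl_zpow (x : X) (g : Γ) (n : ℤ) : sl x (g ^ n) = |(n : ℝ)| * sl x g := by
  obtain ⟨k, rfl | rfl⟩ := n.eq_nat_or_neg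
  · rw [zpow_natCast, sl_pow]; simp
  · rw [zpow_neg, sl_inv, zpow_natCast, sl_pow]; simp

theorem sl_par_le (hX : CN X) (x : X) {g h : Γ} (hc : Commute g h) :
    sl x (g * h) ^ 2 + sl x (g⁻¹ * h) ^ 2 ≤ 2 * sl x g ^ 2 + 2 * sl x h ^ 2 := by
  refine le_of_tendsto_of_tendsto' (((sl_tendsto x (g * h)).pow 2).add ((sl_tendsto x (g⁻¹ * h)).pow 2))
    ((((sl_tendsto x g).pow 2).const_mul 2).add (((sl_tendsto x h).pow 2).const_mul 2)) fun n => ?_
  have h1 := hX.quad x (g ^ n • x) (g ^ n • h ^ n • x) (h ^ n • x)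
  have e1 : dist (g ^ n • x) (h ^ n • x) = dist x ((g⁻¹ * h) ^ n • x) := by
    rw [hc.inv_left.mul_pow, inv_pow, mul_smul, ← dist_smul (g ^ n) x, smul_inv_smul]
  have e2 : dist (g ^ n • h ^ n • x) (h ^ n • x) = dist x (g ^ n • x) := by
    rw [smul_smul, (hc.pow_pow n n).eq, mul_smul, dist_smul, dist_comm]
  rw [e1, e2, dist_smul, smul_smul, ← hc.mul_pow, dist_comm (h ^ n • x) x] at h1
  simp only [div_pow]
  rw [← add_div, ← mul_div_assoc, ← mul_div_assoc, ← add_div]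
  exact div_le_div_of_nonneg_right (by linarith) (by positivity)

/-- A2c. Parallelogram law. `≤`: `quad` for `x, gⁿx, gⁿhⁿx, hⁿx`, divide by `n²`; `≥`: apply `≤` to
`u = g h`, `v = g⁻¹ h` (`u v = h²`, `u⁻¹ v = g⁻²`). -/
theorem sl_par (hX : CN X) (x : X) {g h : Γ} (hc : Commute g h) :
    sl x (g * h) ^ 2 + sl x (g⁻¹ * h) ^ 2 = 2 * sl x g ^ 2 + 2 * sl x h ^ 2 := by
  refine le_antisymm (sl_par_le hX x hc) ?_
  have hc' : Commute (g * h) (g⁻¹ * h) :=
    ((Commute.refl g).inv_right.mul_right hc).mul_left (hc.symm.inv_right.mul_right (Commute.refl h))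
  have h1 := sl_par_le hX x hc'
  have e1 : g * h * (g⁻¹ * h) = h ^ 2 := by
    rw [hc.eq, pow_two]; group
  have e2 : (g * h)⁻¹ * (g⁻¹ * h) = (g ^ 2)⁻¹ := by
    rw [hc.inv_left.eq, hc.eq, mul_inv_rev, pow_two, mul_inv_rev]; group
  rw [e1, e2, sl_inv, sl_pow, sl_pow] at h1
  push_cast at h1
  nlinarith

/-- A2d. `f t = sl (h zᵗ)²` has second difference `2 sl(z)²` (`sl_par` with `g = z`, `h zᵗ`). -/
theorem sl_quadr (hX : CN X) (x : X) {h z : Γ} (hc : Commute h z) (t : ℕ) :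
    sl x (h * z ^ t) ^ 2 = sl x h ^ 2 + 2 * t * ip (sl x) h z + (t : ℝ) ^ 2 * sl x z ^ 2 := by
  have step : ∀ t : ℕ, sl x (h * z ^ (t + 2)) ^ 2 + sl x (h * z ^ t) ^ 2 =
      2 * sl x z ^ 2 + 2 * sl x (h * z ^ (t + 1)) ^ 2 := fun t => by
    have h1 := sl_par hX x (g := z) (h := h * z ^ (t + 1))
      (hc.symm.mul_right ((Commute.refl z).pow_right _))
    have e1 : z * (h * z ^ (t + 1)) = h * z ^ (t + 2) := by
      rw [← mul_assoc, ← hc.eq, mul_assoc, ← pow_succ']
    have e2 : z⁻¹ * (h * z ^ (t + 1)) = h * z ^ t := by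
      rw [← mul_assoc, ← hc.inv_right.eq, mul_assoc, pow_succ', inv_mul_cancel_left]
    rwa [e1, e2] at h1
  induction t using Nat.twoStepInduction with
  | zero => simp
  | one => simp only [ip, pow_one, Nat.cast_one]; ring
  | more t h0 h1 =>
    have := step t
    push_cast at h1 ⊢
    linarith

end Crest.Agent.R175B
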