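import Crest.Agent.R175.B.Add
import Crest.Agent.R175.B.IP

/-! # Row 175 / S0264: block A6, the short triangle (route: `notes175/S0264.md`) -/

set_option autoImplicit false

namespace Crest.Agent.R175B
open Filter Topology

variable {Γ X : Type*} [Group Γ] [MetricSpace X] [MulAction Γ X] [IsIsometricSMul Γ X]

theorem tria_dist (x : X) (g h : Γ) : dist (g • x) (h • x) = dist x ((g⁻¹ * h) • x) := by
  rw [← dist_smul g⁻¹, inv_smul_smul, mul_smul]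

theorem tria_sq (hX : CN X) (x : X) {a z : Γ} (ha : Commute a z) {lam A : ℝ}
    (hla : sl x a = lam) (hia : ip (sl x) a z = A) (hz : sl x z ^ 2 = 6 * A) (m k : ℤ) :
    sl x (a ^ (-(6 * m)) * z ^ k) ^ 2 = (m : ℝ) ^ 2 * (36 * lam ^ 2 - 6 * A) + ((m : ℝ) - k) ^ 2 * (6 * A) := by
  rw [(isSL hX x).sq_zpow ha, hla, hia, hz]
  push_cast
  ring

theorem tria_lower (hX : CN X) (x : X) {a z : Γ} (ha : Commute a z) {lam A : ℝ}
    (hla : sl x a = lam) (hia : ip (sl x) a z = A) (hz : sl x z ^ 2 = 6 * A) (m : ℕ) (k : ℤ) :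
    m * √(36 * lam ^ 2 - 6 * A) ≤ dist (a ^ (6 * m) • x) (z ^ k • x) := by
  have h1 := tria_sq hX x ha hla hia hz m k
  have h2 : (a ^ (6 * m))⁻¹ = a ^ (-(6 * (m : ℤ))) := by
    rw [zpow_neg, ← zpow_natCast]; push_cast; rfl
  rw [tria_dist, h2]
  refine le_trans ?_ (sl_le x x _)
  rw [← Real.sqrt_sq (Nat.cast_nonneg m : (0 : ℝ) ≤ m), ← Real.sqrt_mul (sq_nonneg _)]
  refine Real.sqrt_le_iff.2 ⟨sl_nonneg x _, ?_⟩
  rw [h1, ← hz]
  push_cast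
  exact le_add_of_nonneg_right (by positivity)

theorem tria_tendsto (hX : CN X) (x : X) {a z : Γ} (ha : Commute a z) {lam A : ℝ}
    (hla : sl x a = lam) (hia : ip (sl x) a z = A) (hz : sl x z ^ 2 = 6 * A) :
    Tendsto (fun m : ℕ => dist (a ^ (6 * m) • x) (z ^ m • x) / m) atTop (𝓝 √(36 * lam ^ 2 - 6 * A)) := by
  have h1 := tria_sq hX x ha hla hia hz 1 1
  have h2 : sl x ((a ^ 6)⁻¹ * z) = √(36 * lam ^ 2 - 6 * A) := by
    rw [← Real.sqrt_sq (sl_nonneg x ((a ^ 6)⁻¹ * z))]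
    congr 1
    simpa [zpow_ofNat] using h1
  rw [← h2]
  refine (sl_tendsto x _).congr fun m => ?_
  rw [tria_dist x (a ^ (6 * m)), (ha.pow_left 6).inv_left.mul_pow, inv_pow, ← pow_mul]

/-- A6a (edge).  `σ = sl (a⁻⁶ z) = √(36λ² - 6A)`; `sl (a^{-6m} zᵏ)² = m²σ² + (m-k)² 6A ≥ m²σ²` (`sq_zpow`), same
for `b`; `d(a^{6m}x, zᵏx) ≥ sl (a^{-6m} zᵏ)` (`sl_le`).  So `Thru` gives `d(a^{6m}x, b^{6m}x) ≥ 2mσ - D`, while
`d(a^{6m}x, zᵐx)/m → σ` and `d(b^{6m}x, zᵐx)/m → σ`; CN at the midpoint gives the claim. -/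
theorem edge_mid (hX : CN X) (x : X) {a b z : Γ} (ha : Commute a z) (hb : Commute b z) {lam A : ℝ}
    (hla : sl x a = lam) (hlb : sl x b = lam) (hia : ip (sl x) a z = A) (hib : ip (sl x) b z = A)
    (hz : sl x z ^ 2 = 6 * A) (hT : Thru x a b z) (mid : ℕ → X)
    (hmid : ∀ m, Mid (a ^ (6 * m) • x) (b ^ (6 * m) • x) (mid m)) :
    Tendsto (fun m : ℕ => dist (z ^ m • x) (mid m) / m) atTop (𝓝 0) := by
  obtain ⟨D, hD⟩ := hT
  set σ := √(36 * lam ^ 2 - 6 * A) with hσ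
  have h1 := tria_tendsto hX x ha hla hia hz
  have h2 := tria_tendsto hX x hb hlb hib hz
  rw [← hσ] at h1 h2
  have h3 : Tendsto (fun m : ℕ => dist (a ^ (6 * m) • x) (b ^ (6 * m) • x) / m) atTop (𝓝 (σ + σ)) := by
    have h4 : Tendsto (fun m : ℕ => σ + σ - D / m) atTop (𝓝 (σ + σ)) := by
      simpa using (tendsto_const_nhds (x := σ + σ)).sub (tendsto_const_div_atTop_nhds_zero_nat D)
    refine tendsto_of_tendsto_of_tendsto_of_le_of_le' h4 (h1.add h2) ?_ (Eventually.of_forall fun m => ?_)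
    · filter_upwards [eventually_ge_atTop 1] with m hm
      obtain ⟨k, hk⟩ := hD (6 * m) (6 * m) (by omega) (by omega)
      have h5 := tria_lower hX x ha hla hia hz m k
      have h6 := tria_lower hX x hb hlb hib hz m k
      have hm' : (0 : ℝ) < m := by exact_mod_cast hm
      rw [dist_comm (z ^ k • x)] at hk
      rw [le_div_iff₀ hm', sub_mul, div_mul_cancel₀ _ hm'.ne']
      rw [← hσ] at h5 h6
      linarith
    · rw [← add_div]
      exact div_le_div_of_nonneg_right (dist_triangle_right _ _ _) (Nat.cast_nonneg m)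
  have h4 := (((h1.pow 2).add (h2.pow 2)).div_const 2).sub ((h3.pow 2).div_const 4)
  rw [show (σ ^ 2 + σ ^ 2) / 2 - (σ + σ) ^ 2 / 4 = 0 by ring] at h4
  have h5 := h4.sqrt
  rw [Real.sqrt_zero] at h5
  refine squeeze_zero (fun m => by positivity) (fun m => Real.le_sqrt_of_sq_le ?_) h5
  have h6 := div_le_div_of_nonneg_right (hX.cn _ _ _ (z ^ m • x) (hmid m)) (sq_nonneg (m : ℝ))
  rw [dist_comm (z ^ m • x) (a ^ (6 * m) • x), dist_comm (z ^ m • x) (b ^ (6 * m) • x)] at h6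
  rw [div_pow]
  refine h6.trans_eq ?_
  ring

/-- A6b (edge, upper bound): `d(a^{6m}x, b^{6m}x) ≤ d(a^{6m}x, zᵐx) + d(zᵐx, b^{6m}x) = 2mσ + o(m)`. -/
theorem edge_upper (hX : CN X) (x : X) {a b z : Γ} (ha : Commute a z) (hb : Commute b z) {lam A : ℝ}
    (hla : sl x a = lam) (hlb : sl x b = lam) (hia : ip (sl x) a z = A) (hib : ip (sl x) b z = A)
    (hz : sl x z ^ 2 = 6 * A) {ε : ℝ} (hε : 0 < ε) :
    ∀ᶠ m : ℕ in atTop, dist (a ^ (6 * m) • x) (b ^ (6 * m) • x) ≤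
      m * (2 * √(36 * lam ^ 2 - 6 * A) + ε) := by
  have h1 := ((tria_tendsto hX x ha hla hia hz).add (tria_tendsto hX x hb hlb hib hz)).eventually
    (gt_mem_nhds (show _ < 2 * √(36 * lam ^ 2 - 6 * A) + ε by linarith))
  filter_upwards [h1, eventually_ge_atTop 1] with m hm hm1
  have hm' : (0 : ℝ) < m := by exact_mod_cast hm1
  rw [← add_div, div_lt_iff₀' hm'] at hm
  exact (dist_triangle_right _ _ _).trans hm.le

/-- A6c (distance of `zᵐ x` to the `a`-line): `λ² sl (z^{-m} aᵏ)² = (kλ² - mA)² + m² A (6λ² - A)`, and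
`A (6λ² - A)/λ² > (36λ² - 6A)/4` because `3λ²/2 < A < 6λ²`. -/
theorem line_lower (hX : CN X) (x : X) {a z : Γ} (ha : Commute a z) {lam A : ℝ}
    (hla : sl x a = lam) (hia : ip (sl x) a z = A) (hz : sl x z ^ 2 = 6 * A)
    (hlo : 3 / 2 * lam ^ 2 < A) (hhi : A < 6 * lam ^ 2) :
    ∃ h : ℝ, √(36 * lam ^ 2 - 6 * A) / 2 < h ∧
      ∀ (m : ℕ) (k : ℤ), m * h ≤ dist (z ^ m • x) (a ^ k • x) := by
  have hl : 0 < lam ^ 2 := by linarith
  have hA : 0 < A := by linarith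
  have hq : 0 ≤ A * (6 * lam ^ 2 - A) / lam ^ 2 := div_nonneg (by nlinarith) hl.le
  refine ⟨√(A * (6 * lam ^ 2 - A) / lam ^ 2), ?_, fun m k => ?_⟩
  · refine Real.lt_sqrt_of_sq_lt ?_
    rw [div_pow, Real.sq_sqrt (by linarith), lt_div_iff₀ hl]
    nlinarith [mul_pos (sub_pos.2 hlo) (sub_pos.2 hhi)]
  · have h1 := sl_le x (z ^ m • x) (a ^ k * z ^ (-(m : ℤ)))
    have e1 : (a ^ k * z ^ (-(m : ℤ))) • z ^ m • x = a ^ k • x := by
      rw [smul_smul, mul_assoc, zpow_neg, zpow_natCast, inv_mul_cancel, mul_one]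
    rw [e1] at h1
    refine le_trans ?_ h1
    have h2 := (isSL hX x).sq_zpow ha k (-(m : ℤ))
    rw [hla, hia, hz] at h2
    push_cast at h2
    refine (pow_le_pow_iff_left₀ (by positivity) (sl_nonneg x _) two_ne_zero).1 ?_
    rw [h2, mul_pow, Real.sq_sqrt hq, ← mul_div_assoc, div_le_iff₀ hl]
    nlinarith [sq_nonneg ((k : ℝ) * lam ^ 2 - m * A)]

/-- The inequality at one vertex of the triangle. -/
theorem tri_vertex (hX : CN X) (x : X) {a b c z w y : Γ} {lam A B C : ℝ}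
    (haz : Commute a z) (hbz : Commute b z) (hbw : Commute b w) (hcw : Commute c w)
    (hcy : Commute c y) (hay : Commute a y)
    (hla : sl x a = lam) (hlb : sl x b = lam) (hlc : sl x c = lam)
    (iaz : ip (sl x) a z = A) (ibz : ip (sl x) b z = A) (ibw : ip (sl x) b w = B)
    (icw : ip (sl x) c w = B) (icy : ip (sl x) c y = C) (iay : ip (sl x) a y = C)
    (hz : sl x z ^ 2 = 6 * A) (hw : sl x w ^ 2 = 6 * B) (hy : sl x y ^ 2 = 6 * C)
    (hloA : 3 / 2 * lam ^ 2 < A) (hhiA : A < 6 * lam ^ 2) (hloC : 3 / 2 * lam ^ 2 < C)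
    (hhiC : C < 6 * lam ^ 2) (hEz : Thru x a b z) (hEy : Thru x c a y) (hV : Thru x z y a) :
    √(36 * lam ^ 2 - 6 * A) / 2 + √(36 * lam ^ 2 - 6 * C) / 2 < √(36 * lam ^ 2 - 6 * B) := by
  obtain ⟨h, hh, hlow⟩ := line_lower hX x haz hla iaz hz hloA hhiA
  obtain ⟨h', hh', hlow'⟩ := line_lower hX x hay hla iay hy hloC hhiC
  refine lt_of_lt_of_le (add_lt_add hh hh') ?_
  by_contra hn
  rw [not_le] at hn
  set σ := √(36 * lam ^ 2 - 6 * B) with hσ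
  set ε := (h + h' - σ) / 4 with hε
  have hε0 : 0 < ε := by rw [hε]; linarith
  choose mid hmid using fun m : ℕ => hX.ex (a ^ (6 * m) • x) (b ^ (6 * m) • x)
  choose mid' hmid' using fun m : ℕ => hX.ex (c ^ (6 * m) • x) (a ^ (6 * m) • x)
  have t1 := edge_mid hX x haz hbz hla hlb iaz ibz hz hEz mid hmid
  have t2 := edge_mid hX x hcy hay hlc hla icy iay hy hEy mid' hmid'
  have t3 := edge_upper hX x hbw hcw hlb hlc ibw icw hw hε0
  obtain ⟨D, hD⟩ := hV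
  have t4 : Tendsto (fun m : ℕ => D / m) atTop (𝓝 0) := tendsto_const_div_atTop_nhds_zero_nat D
  obtain ⟨m, ⟨⟨⟨h1, h2⟩, h3⟩, h4⟩, hm⟩ := ((((t1.eventually (Iio_mem_nhds hε0)).and
    (t2.eventually (Iio_mem_nhds hε0))).and t3).and (t4.eventually (Iio_mem_nhds hε0))).and
    (eventually_ge_atTop 1) |>.exists
  have hm0 : (0 : ℝ) < m := by exact_mod_cast hm
  rw [div_lt_iff₀ hm0] at h1 h2 h4
  obtain ⟨k, hk⟩ := hD m m hm hm
  have a1 := hlow m k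
  have a2 := hlow' m k
  rw [dist_comm] at a2
  have a3 := hX.mid_dist (hmid m) (hmid' m).symm
  have a4 := dist_triangle4 (z ^ m • x) (mid m) (mid' m) (y ^ m • x)
  rw [dist_comm (mid' m)] at a4
  have a5 : (m : ℝ) * (h + h') = m * σ + 4 * (ε * m) := by rw [hε]; ring
  have a6 : 0 < ε * m := mul_pos hε0 hm0
  nlinarith

/-- A6.  At vertex `e` (edges `e` and `e + 2`): `Thru` and `line_lower` give `d(z_eᵐx, z_{e+2}ᵐx) ≥ m(h + h') - D`;
`edge_mid`, `mid_dist` (`Mid.symm`), `edge_upper` give `≤ m σ_{e+1} + o(m)`.  So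
`(σ_e + σ_{e+2})/2 < σ_{e+1}` for all `e`; sum over `e`. -/
theorem triangle (hX : CN X) (x : X) (a z : Fin 3 → Γ) (lam : ℝ) (A : Fin 3 → ℝ)
    (hc : ∀ e, Commute (a e) (z e)) (hc' : ∀ e, Commute (a (e + 1)) (z e))
    (hl : ∀ e, sl x (a e) = lam) (hi : ∀ e, ip (sl x) (a e) (z e) = A e)
    (hi' : ∀ e, ip (sl x) (a (e + 1)) (z e) = A e) (hz : ∀ e, sl x (z e) ^ 2 = 6 * A e)
    (hlo : ∀ e, 3 / 2 * lam ^ 2 < A e) (hhi : ∀ e, A e < 6 * lam ^ 2)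
    (hE : ∀ e, Thru x (a e) (a (e + 1)) (z e)) (hV : ∀ e, Thru x (z e) (z (e + 2)) (a e)) : False := by
  have h0 := tri_vertex hX x (hc 0) (hc' 0) (hc 1) (hc' 1) (hc 2) (hc' 2) (hl 0) (hl 1) (hl 2)
    (hi 0) (hi' 0) (hi 1) (hi' 1) (hi 2) (hi' 2) (hz 0) (hz 1) (hz 2) (hlo 0) (hhi 0) (hlo 2) (hhi 2)
    (hE 0) (hE 2) (hV 0)
  have h1 := tri_vertex hX x (hc 1) (hc' 1) (hc 2) (hc' 2) (hc 0) (hc' 0) (hl 1) (hl 2) (hl 0)
    (hi 1) (hi' 1) (hi 2) (hi' 2) (hi 0) (hi' 0) (hz 1) (hz 2) (hz 0) (hlo 1) (hhi 1) (hlo 0) (hhi 0)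
    (hE 1) (hE 0) (hV 1)
  have h2 := tri_vertex hX x (hc 2) (hc' 2) (hc 0) (hc' 0) (hc 1) (hc' 1) (hl 2) (hl 0) (hl 1)
    (hi 2) (hi' 2) (hi 0) (hi' 0) (hi 1) (hi' 1) (hz 2) (hz 0) (hz 1) (hlo 2) (hhi 2) (hlo 1) (hhi 1)
    (hE 2) (hE 1) (hV 2)
  linarith

end Crest.Agent.R175B
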